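import Mathlib

set_option autoImplicit false
open MeasureTheory Set

namespace Crest.Agent.S0423Aux

/-- Averaging against a mean-one exponential variable scaled by `a`. -/
noncomputable def T (a : ℝ) (f : ℝ → ℝ) (y : ℝ) : ℝ :=
  ∫ x in Set.Ioi (0:ℝ), f (y + a * x) * Real.exp (-x)

/-- Iterated averaging along a list of scales. -/
noncomputable def iterL : List ℝ → (ℝ → ℝ) → ℝ → ℝ
  | [], f => f
  | a :: l, f => T a (iterL l f)

@[simp] lemma iterL_nil (f : ℝ → ℝ) : iterL [] f = f := rfl
@[simp] lemma iterL_cons (a : ℝ) (l : List ℝ) (f : ℝ → ℝ) :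
    iterL (a :: l) f = T a (iterL l f) := rfl

lemma integrableOn_exp_neg : IntegrableOn (fun x : ℝ => Real.exp (-x)) (Set.Ioi 0) :=
  integrableOn_exp_neg_Ioi 0

lemma integral_exp_neg : ∫ x in Set.Ioi (0:ℝ), Real.exp (-x) = 1 := by
  simpa using integral_exp_neg_Ioi_zero

lemma T_integrable {a : ℝ} {f : ℝ → ℝ} (hf : Measurable f) {C : ℝ} (hb : ∀ y, |f y| ≤ C) (y : ℝ) :
    IntegrableOn (fun x : ℝ => f (y + a * x) * Real.exp (-x)) (Set.Ioi 0) := by
  refine Integrable.bdd_mul (c := C) integrableOn_exp_neg ?_ ?_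
  · exact (hf.comp (by fun_prop)).aestronglyMeasurable
  · exact Filter.Eventually.of_forall fun x => by simpa using hb _

lemma T_measurable {a : ℝ} {f : ℝ → ℝ} (hf : Measurable f) : Measurable (T a f) := by
  have h : Measurable (fun p : ℝ × ℝ => f (p.1 + a * p.2) * Real.exp (-p.2)) := by
    exact (hf.comp (by fun_prop)).mul (by fun_prop)
  exact (h.stronglyMeasurable.integral_prod_right' (ν := volume.restrict (Set.Ioi 0))).measurable

lemma T_bound {a : ℝ} {f : ℝ → ℝ} {C : ℝ} (hb : ∀ y, |f y| ≤ C) (y : ℝ) :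
    |T a f y| ≤ C := by
  unfold T
  calc |∫ x in Set.Ioi (0:ℝ), f (y + a * x) * Real.exp (-x)|
      ≤ ∫ x in Set.Ioi (0:ℝ), C * Real.exp (-x) := by
        rw [← Real.norm_eq_abs]
        refine norm_integral_le_of_norm_le (integrableOn_exp_neg.const_mul C) ?_
        refine Filter.Eventually.of_forall fun x => ?_
        rw [norm_mul, Real.norm_eq_abs, Real.norm_eq_abs, abs_of_pos (Real.exp_pos _)]
        exact mul_le_mul_of_nonneg_right (hb _) (Real.exp_pos _).le
    _ = C := by rw [integral_const_mul, integral_exp_neg, mul_one]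

lemma iterL_measurable (l : List ℝ) {f : ℝ → ℝ} (hf : Measurable f) : Measurable (iterL l f) := by
  induction l with
  | nil => exact hf
  | cons a l ih => exact T_measurable ih

lemma iterL_bound (l : List ℝ) {f : ℝ → ℝ} {C : ℝ} (hb : ∀ y, |f y| ≤ C) (y : ℝ) :
    |iterL l f y| ≤ C := by
  induction l generalizing y with
  | nil => exact hb y
  | cons a l ih => exact T_bound ih y

/-- the exponential reference measure (without the density) -/
noncomputable abbrev μ0 : Measure ℝ := volume.restrict (Set.Ioi (0:ℝ))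

lemma integrable_pi_exp (N : ℕ) :
    Integrable (fun x : Fin N → ℝ => Real.exp (-∑ i, x i)) (Measure.pi fun _ : Fin N => μ0) := by
  have h := Integrable.fintype_prod (ι := Fin N) (f := fun _ (x : ℝ) => Real.exp (-x))
    (μ := fun _ => μ0) (fun _ => integrableOn_exp_neg)
  refine h.congr (Filter.Eventually.of_forall fun x => ?_)
  simp only
  rw [← Real.exp_sum, Finset.sum_neg_distrib]

lemma integrable_pi_aux (N : ℕ) (a : Fin N → ℝ) {f : ℝ → ℝ} (hf : Measurable f) {C : ℝ}
    (hb : ∀ y, |f y| ≤ C) (y : ℝ) :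
    Integrable (fun x : Fin N → ℝ => f (y + ∑ i, a i * x i) * Real.exp (-∑ i, x i))
      (Measure.pi fun _ : Fin N => μ0) := by
  refine Integrable.bdd_mul (c := C) (integrable_pi_exp N) ?_ ?_
  · exact (hf.comp (by fun_prop)).aestronglyMeasurable
  · exact Filter.Eventually.of_forall fun x => by simpa using hb _

theorem integral_pi_eq_aux (N : ℕ) (a : Fin N → ℝ) {f : ℝ → ℝ} (hf : Measurable f) {C : ℝ}
    (hb : ∀ y, |f y| ≤ C) (y : ℝ) :
    ∫ x : Fin N → ℝ, f (y + ∑ i, a i * x i) * Real.exp (-∑ i, x i)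
      ∂(Measure.pi fun _ : Fin N => μ0) = iterL (List.ofFn a) f y := by
  induction N generalizing y with
  | zero => simp [measureReal_def]
  | succ n ih =>
    have hint := integrable_pi_aux (n+1) a hf hb y
    have mp := (measurePreserving_piFinSuccAbove (fun _ : Fin (n+1) => μ0) 0).symm
    rw [← mp.integral_comp']
    rw [← mp.integrable_comp_emb (MeasurableEquiv.measurableEmbedding _)] at hint
    simp only [Function.comp_def] at hint
    rw [integral_prod _ hint]
    simp only [List.ofFn_succ, iterL_cons, T]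
    refine integral_congr_ae (Filter.Eventually.of_forall fun x0 => ?_)
    simp only [MeasurableEquiv.piFinSuccAbove_symm_apply, Fin.insertNthEquiv,
        Fin.sum_univ_succ, Fin.insertNth_zero, Equiv.coe_fn_mk, Fin.cons_succ,
        Fin.zero_succAbove, cast_eq, Fin.cons_zero]
    rw [← ih (fun i => a i.succ) (y + a 0 * x0), ← integral_mul_const]
    refine integral_congr_ae (Filter.Eventually.of_forall fun x' => ?_)
    simp only
    rw [neg_add, Real.exp_add, add_assoc]
    ring

theorem integral_pi_eq (N : ℕ) (a : Fin N → ℝ) (f : ℝ → ℝ) (hf : Measurable f)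
    (hb : ∃ C, ∀ y, |f y| ≤ C) (y : ℝ) :
    ∫ x in Set.pi Set.univ (fun _ : Fin N => Set.Ioi (0:ℝ)),
      f (y + ∑ i, a i * x i) * Real.exp (-∑ i, x i) = iterL (List.ofFn a) f y := by
  obtain ⟨C, hC⟩ := hb
  rw [volume_pi, Measure.restrict_pi_pi]
  exact integral_pi_eq_aux N a hf hC y

theorem T_comm (a b : ℝ) {f : ℝ → ℝ} (hf : Measurable f) {C : ℝ} (hb : ∀ y, |f y| ≤ C) :
    T a (T b f) = T b (T a f) := by
  funext y
  unfold T
  have hint : Integrable (fun p : ℝ × ℝ => f (y + a * p.1 + b * p.2) * (Real.exp (-p.1) * Real.exp (-p.2)))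
      (μ0.prod μ0) := by
    refine Integrable.bdd_mul (c := C) ?_ ?_ ?_
    · exact Integrable.mul_prod (f := fun x : ℝ => Real.exp (-x)) (g := fun x : ℝ => Real.exp (-x))
        integrableOn_exp_neg integrableOn_exp_neg
    · exact (hf.comp (by fun_prop)).aestronglyMeasurable
    · exact Filter.Eventually.of_forall fun x => by simpa using hb _
  calc ∫ x in Set.Ioi (0:ℝ), (∫ z in Set.Ioi (0:ℝ), f (y + a * x + b * z) * Real.exp (-z)) * Real.exp (-x)
      = ∫ x in Set.Ioi (0:ℝ), ∫ z in Set.Ioi (0:ℝ),
          f (y + a * x + b * z) * (Real.exp (-x) * Real.exp (-z)) := by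
        refine integral_congr_ae (Filter.Eventually.of_forall fun x => ?_)
        simp only
        rw [← integral_mul_const]
        refine integral_congr_ae (Filter.Eventually.of_forall fun z => ?_)
        simp only
        ring
    _ = ∫ z in Set.Ioi (0:ℝ), ∫ x in Set.Ioi (0:ℝ),
          f (y + a * x + b * z) * (Real.exp (-x) * Real.exp (-z)) :=
        integral_integral_swap (f := fun x z => f (y + a * x + b * z) * (Real.exp (-x) * Real.exp (-z))) hint
    _ = ∫ z in Set.Ioi (0:ℝ), (∫ x in Set.Ioi (0:ℝ), f (y + b * z + a * x) * Real.exp (-x)) * Real.exp (-z) := by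
        refine integral_congr_ae (Filter.Eventually.of_forall fun z => ?_)
        simp only
        rw [← integral_mul_const]
        refine integral_congr_ae (Filter.Eventually.of_forall fun x => ?_)
        simp only
        rw [show y + b * z + a * x = y + a * x + b * z by ring]
        ring

theorem iterL_perm {l l' : List ℝ} (h : List.Perm l l') {f : ℝ → ℝ} (hf : Measurable f) {C : ℝ}
    (hb : ∀ y, |f y| ≤ C) : iterL l f = iterL l' f := by
  induction h with
  | nil => rfl
  | cons a _ ih => simp only [iterL_cons, ih]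
  | swap a b l =>
    simp only [iterL_cons]
    exact T_comm b a (iterL_measurable l hf) (iterL_bound l hb)
  | trans _ _ ih1 ih2 => exact ih1.trans ih2

end Crest.Agent.S0423Aux
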