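import Mathlib
import Crest.Prelude.Def_TruncExpWeight
import Crest.Agent.S0423Aux.Reduce

set_option autoImplicit false
open MeasureTheory Set Filter Topology

namespace Crest.Agent.S0423Aux

local notation "g" => Crest.AlgGeometry.truncExpWeight

lemma g_measurable : Measurable g := by
  unfold Crest.AlgGeometry.truncExpWeight
  exact Measurable.ite measurableSet_Iic measurable_const (by fun_prop)

lemma g_of_nonpos {y : ℝ} (h : y ≤ 0) : g y = 1 := by
  simp [Crest.AlgGeometry.truncExpWeight, h]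

lemma g_of_pos {y : ℝ} (h : 0 < y) : g y = (1 + y) * Real.exp (-y) := by
  simp [Crest.AlgGeometry.truncExpWeight, not_le.mpr h]

lemma g_nonneg (y : ℝ) : 0 ≤ g y := by
  rcases le_or_gt y 0 with h | h
  · rw [g_of_nonpos h]; norm_num
  · rw [g_of_pos h]; positivity

lemma g_le_one (y : ℝ) : g y ≤ 1 := by
  rcases le_or_gt y 0 with h | h
  · rw [g_of_nonpos h]
  · rw [g_of_pos h, Real.exp_neg, ← div_eq_mul_inv, div_le_one (Real.exp_pos _)]
    linarith [Real.add_one_le_exp y]

lemma g_abs_le (y : ℝ) : |g y| ≤ 1 := by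
  rw [abs_of_nonneg (g_nonneg y)]; exact g_le_one y

/-- the integrand `(1 - g (2 t)) e^{-t}` on the positive half line -/
noncomputable def φ0 (t : ℝ) : ℝ := (1 - (1 + 2 * t) * Real.exp (-(2 * t))) * Real.exp (-t)

/-- an antiderivative of `φ0` -/
noncomputable def H0 (t : ℝ) : ℝ := -Real.exp (-t) + (2 * t / 3 + 5 / 9) * Real.exp (-(3 * t))

lemma H0_hasDerivAt (t : ℝ) : HasDerivAt H0 (φ0 t) t := by
  unfold H0 φ0
  have h1 : HasDerivAt (fun t : ℝ => Real.exp (-t)) (Real.exp (-t) * (-1)) t :=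
    (hasDerivAt_neg t).exp
  have h3 : HasDerivAt (fun t : ℝ => Real.exp (-(3 * t))) (Real.exp (-(3 * t)) * (-(3 * 1))) t :=
    (((hasDerivAt_id t).const_mul 3).neg).exp
  have h4 : HasDerivAt (fun t : ℝ => 2 * t / 3 + 5 / 9) (2 * 1 / 3) t :=
    ((((hasDerivAt_id t).const_mul 2).div_const 3).add_const _)
  have e : Real.exp (-(3 * t)) = Real.exp (-(2 * t)) * Real.exp (-t) := by
    rw [← Real.exp_add]; congr 1; ring
  have := h1.neg.add (h4.mul h3)
  refine this.congr_deriv ?_
  rw [e]; ring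

lemma φ0_nonneg {t : ℝ} (ht : 0 < t) : 0 ≤ φ0 t := by
  unfold φ0
  have : (1 + 2 * t) * Real.exp (-(2 * t)) ≤ 1 := by
    rw [Real.exp_neg, ← div_eq_mul_inv, div_le_one (Real.exp_pos _)]
    linarith [Real.add_one_le_exp (2 * t)]
  have h2 := Real.exp_pos (-t)
  nlinarith

lemma H0_tendsto : Tendsto H0 atTop (𝓝 0) := by
  unfold H0
  have h1 : Tendsto (fun t : ℝ => Real.exp (-t)) atTop (𝓝 0) :=
    Real.tendsto_exp_neg_atTop_nhds_zero
  have h2 : Tendsto (fun t : ℝ => t * Real.exp (-t)) atTop (𝓝 0) := by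
    simpa using Real.tendsto_pow_mul_exp_neg_atTop_nhds_zero 1
  have h3 : Tendsto (fun t : ℝ => Real.exp (-(3 * t))) atTop (𝓝 0) := by
    have := (h1.mul h1).mul h1
    simp only [mul_zero] at this
    refine this.congr fun t => ?_
    rw [← Real.exp_add, ← Real.exp_add]; congr 1; ring
  have h4 : Tendsto (fun t : ℝ => t * Real.exp (-(3 * t))) atTop (𝓝 0) := by
    have := (h2.mul h1).mul h1
    simp only [mul_zero] at this
    refine this.congr fun t => ?_
    rw [mul_assoc, mul_assoc, ← Real.exp_add, ← Real.exp_add]; congr 2; ring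
  have := h1.neg.add ((h4.const_mul (2/3)).add (h3.const_mul (5/9)))
  simp only [mul_zero, neg_zero, add_zero] at this
  refine this.congr fun t => ?_
  ring

lemma φ0_integrableOn : IntegrableOn φ0 (Ioi 0) :=
  integrableOn_Ioi_deriv_of_nonneg' (fun x _ => H0_hasDerivAt x) (fun x hx => φ0_nonneg hx) H0_tendsto

lemma φ0_integral : ∫ t in Ioi (0:ℝ), φ0 t = 4 / 9 := by
  rw [integral_Ioi_of_hasDerivAt_of_nonneg' (fun x _ => H0_hasDerivAt x) (fun x hx => φ0_nonneg hx)
    H0_tendsto]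
  simp [H0]; norm_num

/-- `φ t = (1 - g (2 t)) e^{-t}` on the whole line. -/
noncomputable def φ (t : ℝ) : ℝ := (1 - g (2 * t)) * Real.exp (-t)

lemma φ_eq : φ = indicator (Ioi 0) φ0 := by
  funext t
  unfold φ
  by_cases h : 0 < t
  · rw [indicator_of_mem (show t ∈ Ioi (0:ℝ) from h), g_of_pos (by linarith)]; rfl
  · rw [indicator_of_notMem (show t ∉ Ioi (0:ℝ) from h), g_of_nonpos (by linarith)]; simp

lemma φ_nonneg (t : ℝ) : 0 ≤ φ t := by
  unfold φ
  have := g_le_one (2 * t)
  have h2 := Real.exp_pos (-t)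
  nlinarith

lemma φ_integrable : Integrable φ := by
  rw [φ_eq, integrable_indicator_iff measurableSet_Ioi]
  exact φ0_integrableOn

lemma φ_integral : ∫ t, φ t = 4 / 9 := by
  rw [φ_eq, integral_indicator measurableSet_Ioi, φ0_integral]

lemma T_two_g_ge (v : ℝ) : 1 - 4 / 9 * Real.exp (v / 2) ≤ T 2 g v := by
  have key : ∀ x : ℝ, g (v + 2 * x) * Real.exp (-x)
      = Real.exp (-x) - Real.exp (v / 2) * φ (x + v / 2) := by
    intro x
    unfold φ
    have e : Real.exp (-x) = Real.exp (v / 2) * Real.exp (-(x + v / 2)) := by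
      rw [← Real.exp_add]; congr 1; ring
    rw [show 2 * (x + v / 2) = v + 2 * x by ring]
    rw [e]; ring
  have hφs : Integrable (fun x => φ (x + v / 2)) := φ_integrable.comp_add_right (v / 2)
  unfold T
  simp_rw [key]
  rw [integral_sub integrableOn_exp_neg (hφs.integrableOn.const_mul _), integral_exp_neg,
    integral_const_mul]
  have h1 : ∫ x in Ioi (0:ℝ), φ (x + v / 2) ≤ 4 / 9 := by
    calc ∫ x in Ioi (0:ℝ), φ (x + v / 2) ≤ ∫ x, φ (x + v / 2) :=
          setIntegral_le_integral hφs (Filter.Eventually.of_forall fun x => φ_nonneg _)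
      _ = ∫ x, φ x := integral_add_right_eq_self φ (v / 2)
      _ = 4 / 9 := φ_integral
  have h2 := Real.exp_pos (v / 2)
  nlinarith

lemma iterL_append (l l' : List ℝ) (f : ℝ → ℝ) : iterL (l ++ l') f = iterL l (iterL l' f) := by
  induction l with
  | nil => rfl
  | cons a l ih => simp only [List.cons_append, iterL_cons, ih]

lemma T_neg_ge {c : ℝ} (hc : 0 ≤ c) {F : ℝ → ℝ} (hF : Measurable F) (hb : ∀ y, |F y| ≤ 1)
    {K : ℝ} (h : ∀ y, 1 - K * Real.exp (y / 2) ≤ F y) (y : ℝ) :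
    1 - K / (1 + c / 2) * Real.exp (y / 2) ≤ T (-c) F y := by
  have hneg : -(1 + c / 2) < 0 := by linarith
  have hI := integrableOn_exp_mul_Ioi hneg 0
  have hv := integral_exp_mul_Ioi hneg 0
  unfold T
  have e : ∀ x : ℝ, (1 - K * Real.exp ((y + -c * x) / 2)) * Real.exp (-x)
      = Real.exp (-x) - K * Real.exp (y / 2) * Real.exp (-(1 + c / 2) * x) := by
    intro x
    have : Real.exp ((y + -c * x) / 2) * Real.exp (-x)
        = Real.exp (y / 2) * Real.exp (-(1 + c / 2) * x) := by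
      rw [← Real.exp_add, ← Real.exp_add]; congr 1; ring
    calc (1 - K * Real.exp ((y + -c * x) / 2)) * Real.exp (-x)
        = Real.exp (-x) - K * (Real.exp ((y + -c * x) / 2) * Real.exp (-x)) := by ring
      _ = _ := by rw [this]; ring
  calc 1 - K / (1 + c / 2) * Real.exp (y / 2)
      = ∫ x in Ioi (0:ℝ), (1 - K * Real.exp ((y + -c * x) / 2)) * Real.exp (-x) := by
        simp_rw [e]
        rw [integral_sub integrableOn_exp_neg (hI.const_mul _), integral_exp_neg,
          integral_const_mul, hv]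
        simp only [mul_zero, Real.exp_zero]
        have : (1 + c / 2) ≠ 0 := by linarith
        field_simp
    _ ≤ ∫ x in Ioi (0:ℝ), F (y + -c * x) * Real.exp (-x) := by
        refine integral_mono ?_ (T_integrable hF hb y) fun x => ?_
        · simp_rw [e]
          exact integrableOn_exp_neg.sub (hI.const_mul _)
        · exact mul_le_mul_of_nonneg_right (h _) (Real.exp_pos _).le

lemma iterL_replicate_ge {c : ℝ} (hc : 0 ≤ c) {F : ℝ → ℝ} (hF : Measurable F)
    (hb : ∀ y, |F y| ≤ 1) {K : ℝ} (h : ∀ y, 1 - K * Real.exp (y / 2) ≤ F y) (n : ℕ) (y : ℝ) :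
    1 - K / (1 + c / 2) ^ n * Real.exp (y / 2) ≤ iterL (List.replicate n (-c)) F y := by
  induction n generalizing y with
  | zero => simpa using h y
  | succ n ih =>
    rw [List.replicate_succ, iterL_cons]
    have := T_neg_ge hc (iterL_measurable _ hF) (iterL_bound _ hb) ih y
    rwa [div_div, ← pow_succ] at this

/-- The value of the integral at the near-extremal coefficient vector. -/
lemma value_ge (n : ℕ) :
    1 - 4 / 9 / (1 + 1 / (n:ℝ)) ^ n * Real.exp (2 / 3)
      ≤ iterL (List.ofFn (Fin.cons 2 (fun _ => -(2 / (n:ℝ))) : Fin (n+1) → ℝ)) g (4 / 3) := by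
  have hl : List.ofFn (Fin.cons 2 (fun _ => -(2 / (n:ℝ))) : Fin (n+1) → ℝ)
      = 2 :: List.replicate n (-(2 / (n:ℝ))) := by
    rw [List.ofFn_succ]
    simp [List.ofFn_const]
  rw [hl]
  have hp : List.Perm (2 :: List.replicate n (-(2 / (n:ℝ)))) (List.replicate n (-(2 / (n:ℝ))) ++ [2]) :=
    (List.perm_append_singleton _ _).symm
  rw [iterL_perm hp g_measurable g_abs_le, iterL_append]
  have := iterL_replicate_ge (c := 2 / (n:ℝ)) (by positivity) (F := iterL [2] g)
    (iterL_measurable _ g_measurable) (iterL_bound _ g_abs_le) (K := 4 / 9)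
    (fun y => by simpa using T_two_g_ge y) n (4 / 3)
  have e1 : (2 / (n:ℝ)) / 2 = 1 / n := by ring
  have e2 : (4 / 3 : ℝ) / 2 = 2 / 3 := by norm_num
  rwa [e1, e2] at this

theorem partB : ∀ ε : ℝ, 0 < ε → ∃ (N : ℕ) (a : Fin N → ℝ), 1 ≤ N ∧ ∑ i, a i = 0 ∧
      3 / 4 * Real.exp (4 / 3) - Real.exp 1 / 3 - ε <
        Real.exp (4 / 3) / (4 / 3) *
          ∫ x in Set.pi Set.univ (fun _ : Fin N => Set.Ioi (0 : ℝ)),
            Crest.AlgGeometry.truncExpWeight (4 / 3 + ∑ i, a i * x i) * Real.exp (-∑ i, x i) := by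
  intro ε hε
  -- the limit
  have hlim : Tendsto (fun n : ℕ => Real.exp (4 / 3) / (4 / 3) *
      (1 - 4 / 9 / (1 + 1 / (n:ℝ)) ^ n * Real.exp (2 / 3))) atTop
      (𝓝 (Real.exp (4 / 3) / (4 / 3) * (1 - 4 / 9 / Real.exp 1 * Real.exp (2 / 3)))) := by
    have h := Real.tendsto_one_add_div_pow_exp 1
    exact ((((tendsto_const_nhds (x := (4/9:ℝ))).div h (Real.exp_pos 1).ne').mul_const _).const_sub 1).const_mul _
  have hval : Real.exp (4 / 3) / (4 / 3) * (1 - 4 / 9 / Real.exp 1 * Real.exp (2 / 3))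
      = 3 / 4 * Real.exp (4 / 3) - Real.exp 1 / 3 := by
    have e : Real.exp (4 / 3) * Real.exp (2 / 3) = Real.exp 1 * Real.exp 1 := by
      rw [← Real.exp_add, ← Real.exp_add]; norm_num
    have h1 := (Real.exp_pos 1).ne'
    field_simp
    nlinarith [e]
  rw [hval] at hlim
  have hev := hlim.eventually (lt_mem_nhds (show 3 / 4 * Real.exp (4 / 3) - Real.exp 1 / 3 - ε
    < 3 / 4 * Real.exp (4 / 3) - Real.exp 1 / 3 by linarith))
  obtain ⟨n, hn, hn1⟩ := (hev.and (eventually_ge_atTop 1)).exists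
  refine ⟨n + 1, Fin.cons 2 (fun _ => -(2 / (n:ℝ))), by omega, ?_, ?_⟩
  · rw [Fin.sum_univ_succ]
    have : (n:ℝ) ≠ 0 := by positivity
    simp
    field_simp
    ring
  · rw [integral_pi_eq _ _ _ g_measurable ⟨1, g_abs_le⟩]
    refine lt_of_lt_of_le hn ?_
    exact mul_le_mul_of_nonneg_left (value_ge n) (by positivity)

end Crest.Agent.S0423Aux
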