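import Mathlib
import Crest.Prelude.Def_TruncExpWeight
import Crest.Agent.S0423Aux.Reduce

set_option autoImplicit false
open MeasureTheory Set

namespace Crest.Agent.S0423Aux

open Crest.AlgGeometry

lemma setIntegral_Ioi_shift (h : ℝ → ℝ) (x₀ : ℝ) :
    ∫ x in Ioi x₀, h x = ∫ s in Ioi (0:ℝ), h (x₀ + s) := by
  have := (measurePreserving_add_left (volume : Measure ℝ) x₀).setIntegral_preimage_emb
    (measurableEmbedding_addLeft x₀) h (Ioi x₀)
  rw [← this]
  congr 2
  ext s
  simp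

lemma integrableOn_exp_neg_mul {b : ℝ} (hb : 0 < b) :
    IntegrableOn (fun x : ℝ => Real.exp (-(b * x))) (Ioi 0) := by
  have := integrableOn_exp_mul_Ioi (a := -b) (by linarith) 0
  refine this.congr_fun (fun x _ => ?_) measurableSet_Ioi
  simp

lemma integral_exp_neg_mul {b : ℝ} (hb : 0 < b) :
    ∫ x in Ioi (0:ℝ), Real.exp (-(b * x)) = 1 / b := by
  have := integral_exp_mul_Ioi (a := -b) (by linarith) 0
  have h2 : ∫ x in Ioi (0:ℝ), Real.exp (-(b * x)) = ∫ x in Ioi (0:ℝ), Real.exp (-b * x) := by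
    refine setIntegral_congr_fun measurableSet_Ioi (fun x _ => ?_)
    simp
  rw [h2, this]
  simp
  
lemma integrableOn_mul_exp_neg_mul {b : ℝ} (hb : 0 < b) :
    IntegrableOn (fun x : ℝ => x * Real.exp (-(b * x))) (Ioi 0) := by
  have := integrableOn_rpow_mul_exp_neg_mul_rpow (p := 1) (s := 1) (b := b) (by norm_num)
    (by norm_num) hb
  refine this.congr_fun (fun x _ => ?_) measurableSet_Ioi
  simp

lemma integral_mul_exp_neg_mul {b : ℝ} (hb : 0 < b) :
    ∫ x in Ioi (0:ℝ), x * Real.exp (-(b * x)) = 1 / b ^ 2 := by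
  have := Real.integral_rpow_mul_exp_neg_mul_Ioi (a := 2) (r := b) (by norm_num) hb
  have h2 : ∫ x in Ioi (0:ℝ), x * Real.exp (-(b * x))
      = ∫ x in Ioi (0:ℝ), x ^ ((2:ℝ) - 1) * Real.exp (-(b * x)) := by
    refine setIntegral_congr_fun measurableSet_Ioi (fun x _ => ?_)
    norm_num
  rw [h2, this]
  have : Real.Gamma 2 = 1 := Real.Gamma_two
  rw [this]
  norm_num

lemma measurable_truncExpWeight : Measurable truncExpWeight := by
  unfold truncExpWeight
  exact Measurable.ite measurableSet_Iic measurable_const (by fun_prop)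

lemma truncExpWeight_nonneg (y : ℝ) : 0 ≤ truncExpWeight y := by
  unfold truncExpWeight
  split_ifs with h
  · norm_num
  · have h := not_le.mp h
    positivity

lemma truncExpWeight_le_one (y : ℝ) : truncExpWeight y ≤ 1 := by
  unfold truncExpWeight
  split_ifs with h
  · exact le_rfl
  · have h1 : 1 + y ≤ Real.exp y := by linarith [Real.add_one_le_exp y]
    calc (1 + y) * Real.exp (-y) ≤ Real.exp y * Real.exp (-y) :=
          mul_le_mul_of_nonneg_right h1 (Real.exp_pos _).le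
      _ = 1 := by rw [← Real.exp_add]; simp

lemma abs_truncExpWeight_le (y : ℝ) : |truncExpWeight y| ≤ 1 := by
  rw [abs_of_nonneg (truncExpWeight_nonneg y)]
  exact truncExpWeight_le_one y

lemma T_g_of_nonneg {t κ : ℝ} (ht : 0 < t) (hκ : 0 ≤ κ) :
    T t truncExpWeight κ = Real.exp (-κ) * ((1 + κ) / (1 + t) + t / (1 + t) ^ 2) := by
  unfold T
  have hb : 0 < 1 + t := by linarith
  have h1 : ∀ x ∈ Ioi (0:ℝ), truncExpWeight (κ + t * x) * Real.exp (-x)
      = Real.exp (-κ) * (1 + κ) * Real.exp (-((1 + t) * x))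
        + Real.exp (-κ) * t * (x * Real.exp (-((1 + t) * x))) := by
    intro x hx
    have hx' : 0 < x := hx
    have hpos : 0 < κ + t * x := by positivity
    unfold truncExpWeight
    rw [if_neg (not_le.mpr hpos)]
    have e1 : Real.exp (-(κ + t * x)) * Real.exp (-x)
        = Real.exp (-κ) * Real.exp (-((1 + t) * x)) := by
      rw [← Real.exp_add, ← Real.exp_add]; congr 1; ring
    calc _ = (1 + (κ + t * x)) * (Real.exp (-(κ + t * x)) * Real.exp (-x)) := by ring
      _ = _ := by rw [e1]; ring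
  rw [setIntegral_congr_fun measurableSet_Ioi h1]
  rw [integral_add, integral_const_mul, integral_const_mul, integral_exp_neg_mul hb,
    integral_mul_exp_neg_mul hb]
  · field_simp
  · exact (integrableOn_exp_neg_mul hb).const_mul _
  · exact (integrableOn_mul_exp_neg_mul hb).const_mul _

lemma T_g_of_nonpos {t κ : ℝ} (ht : 0 < t) (hκ : κ ≤ 0) :
    T t truncExpWeight κ = 1 - Real.exp (κ / t) * (t ^ 2 / (1 + t) ^ 2) := by
  set x₀ := -κ / t with hx₀
  have hx₀0 : 0 ≤ x₀ := div_nonneg (by linarith) ht.le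
  have htx : t * x₀ = -κ := by rw [hx₀]; field_simp
  have hb : 0 < 1 + t := by linarith
  have hT0 := T_g_of_nonneg (t := t) (κ := 0) ht le_rfl
  unfold T at hT0 ⊢
  have hint : IntegrableOn (fun x => truncExpWeight (κ + t * x) * Real.exp (-x)) (Ioi 0) :=
    T_integrable measurable_truncExpWeight abs_truncExpWeight_le κ
  have hsplit : Ioi (0:ℝ) = Ioc 0 x₀ ∪ Ioi x₀ := (Ioc_union_Ioi_eq_Ioi hx₀0).symm
  have hsub1 : Ioc 0 x₀ ⊆ Ioi (0:ℝ) := fun x hx => hx.1
  have hsub2 : Ioi x₀ ⊆ Ioi (0:ℝ) := fun x hx => lt_of_le_of_lt hx₀0 hx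
  have hdisj : Disjoint (Ioc 0 x₀) (Ioi x₀) := Ioc_disjoint_Ioi le_rfl
  -- first part
  have hA : ∫ x in Ioc 0 x₀, truncExpWeight (κ + t * x) * Real.exp (-x)
      = 1 - Real.exp (-x₀) := by
    have h1 : ∫ x in Ioc 0 x₀, truncExpWeight (κ + t * x) * Real.exp (-x)
        = ∫ x in Ioc 0 x₀, Real.exp (-x) := by
      refine setIntegral_congr_fun measurableSet_Ioc (fun x hx => ?_)
      have : κ + t * x ≤ 0 := by
        have := mul_le_mul_of_nonneg_left hx.2 ht.le
        linarith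
      simp only [truncExpWeight, if_pos this, one_mul]
    have h2 : ∫ x in Ioi (0:ℝ), Real.exp (-x)
        = (∫ x in Ioc 0 x₀, Real.exp (-x)) + ∫ x in Ioi x₀, Real.exp (-x) := by
      rw [hsplit, setIntegral_union hdisj measurableSet_Ioi
        ((integrableOn_exp_neg_Ioi 0).mono_set hsub1) ((integrableOn_exp_neg_Ioi 0).mono_set hsub2)]
    rw [integral_exp_neg_Ioi, integral_exp_neg_Ioi] at h2
    rw [h1]
    simp at h2
    linarith
  -- second part
  have hB : ∫ x in Ioi x₀, truncExpWeight (κ + t * x) * Real.exp (-x)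
      = Real.exp (-x₀) * (1 / (1 + t) + t / (1 + t) ^ 2) := by
    rw [setIntegral_Ioi_shift]
    have h1 : ∀ s ∈ Ioi (0:ℝ), truncExpWeight (κ + t * (x₀ + s)) * Real.exp (-(x₀ + s))
        = Real.exp (-x₀) * (truncExpWeight (0 + t * s) * Real.exp (-s)) := by
      intro s _
      have e1 : κ + t * (x₀ + s) = 0 + t * s := by rw [mul_add, htx]; ring
      rw [e1, neg_add, Real.exp_add]; ring
    rw [setIntegral_congr_fun measurableSet_Ioi h1, integral_const_mul, hT0]
    simp
  rw [hsplit, setIntegral_union hdisj measurableSet_Ioi (hint.mono_set hsub1)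
    (hint.mono_set hsub2), hA, hB]
  have e2 : -x₀ = κ / t := by rw [hx₀]; ring
  rw [e2]
  field_simp
  ring

lemma exp_neg_third_le : Real.exp (-(1/3)) ≤ 18 / 25 := by
  have h := Real.quadratic_le_exp_of_nonneg (x := 1/3) (by norm_num)
  rw [Real.exp_neg]
  have h2 : (25:ℝ)/18 ≤ Real.exp (1/3) := by linarith
  calc (Real.exp (1/3))⁻¹ ≤ ((25:ℝ)/18)⁻¹ := inv_anti₀ (by norm_num) h2
    _ = 18/25 := by norm_num

lemma poly_ineq {y : ℝ} (h0 : 0 ≤ y) (h1 : y ≤ 4/3) :
    (1 + y) * (7/3 - y) + (4/3 - y) ≤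
      17/25 * (7/3 - y)^2 * (1 + y + y^2/2 + y^3/6) := by
  nlinarith [mul_nonneg h0 (sub_nonneg.mpr h1), mul_nonneg (mul_nonneg h0 h0) (sub_nonneg.mpr h1),
    mul_nonneg (mul_nonneg h0 (sub_nonneg.mpr h1)) (sub_nonneg.mpr h1), sq_nonneg (y - 1), sq_nonneg (y^2 - y),
    mul_nonneg (mul_nonneg (mul_nonneg h0 h0) h0) (sub_nonneg.mpr h1), pow_nonneg h0 3, pow_nonneg h0 4, pow_nonneg h0 5]

lemma cubic_le_exp {y : ℝ} (h0 : 0 ≤ y) : 1 + y + y^2/2 + y^3/6 ≤ Real.exp y := by
  have h := Real.sum_le_exp_of_nonneg h0 4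
  simp only [Finset.sum_range_succ, Finset.sum_range_zero, Nat.factorial] at h
  norm_num at h
  linarith

/-- The comparison family `t (X - 1)`: the value never exceeds the extremal one (`t = 2`). -/
theorem T_g_le {t : ℝ} (ht : 0 < t) :
    T t truncExpWeight (4/3 - t) ≤ 1 - 4/9 * Real.exp (-(1/3)) := by
  have hb : 0 < 1 + t := by linarith
  rcases le_total (4/3) t with h | h
  · -- `t ≥ 4/3`
    rw [T_g_of_nonpos ht (by linarith)]
    set z : ℝ := (2 / t - 1) / 3 with hz
    have h1 : 1 + z = 2/3 * ((1 + t) / t) := by rw [hz]; field_simp; ring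
    have h1pos : 0 < 1 + z := by rw [h1]; positivity
    have h2 : 1 + z ≤ Real.exp z := by linarith [Real.add_one_le_exp z]
    have h3 : (1 + z)^2 ≤ Real.exp z ^ 2 := pow_le_pow_left₀ h1pos.le h2 2
    have h4 : Real.exp ((4/3 - t) / t) = Real.exp z ^ 2 * Real.exp (-(1/3)) := by
      rw [← Real.exp_nat_mul, ← Real.exp_add]
      congr 1
      rw [hz]; field_simp; ring
    rw [h4]
    have h5 : (1 + z)^2 * (t^2 / (1+t)^2) = 4/9 := by
      rw [h1]; field_simp; norm_num
    have h6 : 0 ≤ t^2 / (1+t)^2 := by positivity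
    have h7 : 4/9 ≤ Real.exp z ^ 2 * (t^2 / (1+t)^2) := by
      rw [← h5]; exact mul_le_mul_of_nonneg_right h3 h6
    have h8 := mul_le_mul_of_nonneg_right h7 (Real.exp_pos (-(1/3))).le
    nlinarith [h8]
  · -- `t ≤ 4/3`
    set y : ℝ := 4/3 - t with hy
    have hy0 : 0 ≤ y := by rw [hy]; linarith
    have hy1 : y ≤ 4/3 := by rw [hy]; linarith
    have ht' : t = 4/3 - y := by rw [hy]; ring
    rw [T_g_of_nonneg ht hy0]
    have hc := cubic_le_exp hy0
    have hcpos : 0 < 1 + y + y^2/2 + y^3/6 := by positivity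
    have hp := poly_ineq hy0 hy1
    have h1t : 1 + t = 7/3 - y := by rw [ht']; ring
    have e1 : (1 + y) / (1 + t) + t / (1 + t)^2 = ((1 + y) * (7/3 - y) + (4/3 - y)) / (7/3 - y)^2 := by
      rw [h1t, ht']
      have : (7/3 - y) ≠ 0 := by rw [← h1t]; exact hb.ne'
      field_simp
    rw [e1]
    have hq : 0 < (7/3 - y)^2 := by rw [← h1t]; positivity
    have h2 : ((1 + y) * (7/3 - y) + (4/3 - y)) / (7/3 - y)^2 ≤ 17/25 * (1 + y + y^2/2 + y^3/6) := by
      rw [div_le_iff₀ hq]; nlinarith [hp]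
    have h3 : Real.exp (-y) * (((1 + y) * (7/3 - y) + (4/3 - y)) / (7/3 - y)^2)
        ≤ Real.exp (-y) * (17/25 * Real.exp y) :=
      mul_le_mul_of_nonneg_left (h2.trans (by linarith)) (Real.exp_pos _).le
    have h4 : Real.exp (-y) * (17/25 * Real.exp y) = 17/25 := by
      rw [mul_comm (17/25 : ℝ), ← mul_assoc, ← Real.exp_add]; simp
    have h5 := exp_neg_third_le
    linarith

/-- the degenerate member `t = 0` of the comparison family. -/
theorem g_four_thirds_le : truncExpWeight (4/3) ≤ 1 - 4/9 * Real.exp (-(1/3)) := by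
  have hy0 : (0:ℝ) ≤ 4/3 := by norm_num
  have hc := cubic_le_exp hy0
  have h5 := exp_neg_third_le
  unfold truncExpWeight
  rw [if_neg (by norm_num)]
  have h1 : Real.exp (-(4/3)) ≤ (1 + 4/3 + (4/3)^2/2 + (4/3)^3/6 : ℝ)⁻¹ := by
    rw [Real.exp_neg]
    exact inv_anti₀ (by norm_num) hc
  norm_num at h1 ⊢
  linarith

lemma T_one_sub {t : ℝ} (y : ℝ) :
    T t (fun u => 1 - truncExpWeight u) y = 1 - T t truncExpWeight y := by
  unfold T
  have hint : IntegrableOn (fun x => truncExpWeight (y + t * x) * Real.exp (-x)) (Ioi 0) :=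
    T_integrable measurable_truncExpWeight abs_truncExpWeight_le y
  have : ∀ x : ℝ, (1 - truncExpWeight (y + t * x)) * Real.exp (-x)
      = Real.exp (-x) - truncExpWeight (y + t * x) * Real.exp (-x) := fun x => by ring
  simp_rw [this]
  rw [integral_sub integrableOn_exp_neg hint, integral_exp_neg]

theorem T_psi_ge {t : ℝ} (ht : 0 < t) :
    4/9 * Real.exp (-(1/3)) ≤ T t (fun u => 1 - truncExpWeight u) (4/3 - t) := by
  rw [T_one_sub]
  linarith [T_g_le ht]

end Crest.Agent.S0423Aux
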