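import Mathlib
import Crest.Prelude.Def_TruncExpWeight
import Crest.Agent.S0423Aux.Reduce
import Crest.Agent.S0423Aux.Calc

set_option autoImplicit false
open MeasureTheory Set Filter Topology

namespace Crest.Agent.S0423Aux

/-- Linear growth. -/
def LinGrowth (F : ℝ → ℝ) : Prop := ∃ C : ℝ, 0 ≤ C ∧ ∀ y, |F y| ≤ C * (1 + |y|)

lemma integrableOn_x_exp : IntegrableOn (fun x : ℝ => x * Real.exp (-x)) (Ioi 0) := by
  simpa using integrableOn_mul_exp_neg_mul (b := 1) one_pos

lemma integral_x_exp : ∫ x in Ioi (0:ℝ), x * Real.exp (-x) = 1 := by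
  simpa using integral_mul_exp_neg_mul (b := 1) one_pos

lemma integrableOn_sq_exp : IntegrableOn (fun x : ℝ => x ^ 2 * Real.exp (-x)) (Ioi 0) := by
  have := integrableOn_rpow_mul_exp_neg_mul_rpow (p := 1) (s := 2) (b := 1) (by norm_num)
    (by norm_num) one_pos
  refine this.congr_fun (fun x _ => ?_) measurableSet_Ioi
  simp

lemma integrableOn_one_add_exp : IntegrableOn (fun x : ℝ => (1 + x) * Real.exp (-x)) (Ioi 0) := by
  have := integrableOn_exp_neg.add integrableOn_x_exp
  refine this.congr_fun (fun x _ => ?_) measurableSet_Ioi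
  simp only [Pi.add_apply]; ring

lemma integrableOn_one_add_sq_exp :
    IntegrableOn (fun x : ℝ => (1 + x) ^ 2 * Real.exp (-x)) (Ioi 0) := by
  have := (integrableOn_exp_neg.add (integrableOn_x_exp.const_mul 2)).add integrableOn_sq_exp
  refine this.congr_fun (fun x _ => ?_) measurableSet_Ioi
  simp only [Pi.add_apply]; ring

lemma growth_shift {F : ℝ → ℝ} {C : ℝ} (hC : 0 ≤ C) (hb : ∀ y, |F y| ≤ C * (1 + |y|))
    (y a x : ℝ) (hx : 0 ≤ x) : |F (y + a * x)| ≤ C * (1 + |y| + |a|) * (1 + x) := by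
  refine (hb _).trans ?_
  have h1 : |y + a * x| ≤ |y| + |a| * x := by
    refine (abs_add_le _ _).trans ?_
    rw [abs_mul, abs_of_nonneg hx]
  have h2 : 1 + |y + a * x| ≤ (1 + |y| + |a|) * (1 + x) := by
    nlinarith [abs_nonneg y, abs_nonneg a]
  calc C * (1 + |y + a * x|) ≤ C * ((1 + |y| + |a|) * (1 + x)) :=
        mul_le_mul_of_nonneg_left h2 hC
    _ = _ := by ring

lemma T_integrable' {a : ℝ} {F : ℝ → ℝ} (hF : Measurable F) (hg : LinGrowth F) (y : ℝ) :
    IntegrableOn (fun x : ℝ => F (y + a * x) * Real.exp (-x)) (Ioi 0) := by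
  obtain ⟨C, hC, hb⟩ := hg
  refine Integrable.mono' (integrableOn_one_add_exp.const_mul (C * (1 + |y| + |a|))) ?_ ?_
  · exact ((hF.comp (by fun_prop)).mul (by fun_prop)).aestronglyMeasurable
  · refine ae_restrict_of_forall_mem measurableSet_Ioi fun x hx => ?_
    rw [norm_mul, Real.norm_eq_abs, Real.norm_eq_abs, abs_of_pos (Real.exp_pos _), ← mul_assoc]
    exact mul_le_mul_of_nonneg_right (growth_shift hC hb y a x (le_of_lt hx)) (Real.exp_pos _).le

lemma integral_one_add_exp : ∫ x in Ioi (0:ℝ), (1 + x) * Real.exp (-x) = 2 := by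
  have : ∀ x : ℝ, (1 + x) * Real.exp (-x) = Real.exp (-x) + x * Real.exp (-x) := fun x => by ring
  simp_rw [this]
  rw [integral_add integrableOn_exp_neg integrableOn_x_exp, integral_exp_neg, integral_x_exp]
  norm_num

lemma T_growth {a : ℝ} {F : ℝ → ℝ} (hg : LinGrowth F) : LinGrowth (T a F) := by
  obtain ⟨C, hC, hb⟩ := hg
  refine ⟨2 * C * (1 + |a|), by positivity, fun y => ?_⟩
  unfold T
  calc |∫ x in Ioi (0:ℝ), F (y + a * x) * Real.exp (-x)|
      ≤ ∫ x in Ioi (0:ℝ), (C * (1 + |y| + |a|)) * ((1 + x) * Real.exp (-x)) := by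
        rw [← Real.norm_eq_abs]
        refine norm_integral_le_of_norm_le (integrableOn_one_add_exp.const_mul _) ?_
        refine ae_restrict_of_forall_mem measurableSet_Ioi fun x hx => ?_
        rw [norm_mul, Real.norm_eq_abs, Real.norm_eq_abs, abs_of_pos (Real.exp_pos _), ← mul_assoc]
        exact mul_le_mul_of_nonneg_right (growth_shift hC hb y a x (le_of_lt hx)) (Real.exp_pos _).le
    _ = 2 * C * (1 + |y| + |a|) := by rw [integral_const_mul, integral_one_add_exp]; ring
    _ ≤ 2 * C * (1 + |a|) * (1 + |y|) := by nlinarith [abs_nonneg y, abs_nonneg a, mul_nonneg (abs_nonneg y) (abs_nonneg a), mul_nonneg hC (mul_nonneg (abs_nonneg y) (abs_nonneg a))]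

lemma T_mono' {a : ℝ} {F G : ℝ → ℝ} (hF : Measurable F) (hFg : LinGrowth F)
    (hG : Measurable G) (hGg : LinGrowth G) (h : ∀ y, F y ≤ G y) (y : ℝ) : T a F y ≤ T a G y := by
  unfold T
  exact integral_mono (T_integrable' hF hFg y) (T_integrable' hG hGg y)
    fun x => mul_le_mul_of_nonneg_right (h _) (Real.exp_pos _).le

lemma T_affine (a k y : ℝ) : T a (fun z => z + k) y = y + a + k := by
  unfold T
  have : ∀ x : ℝ, (y + a * x + k) * Real.exp (-x)
      = (y + k) * Real.exp (-x) + a * (x * Real.exp (-x)) := fun x => by ring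
  simp_rw [this]
  rw [integral_add (integrableOn_exp_neg.const_mul _) (integrableOn_x_exp.const_mul _),
    integral_const_mul, integral_const_mul, integral_exp_neg, integral_x_exp]
  ring

lemma T_zero (F : ℝ → ℝ) : T 0 F = F := by
  funext y
  unfold T
  simp only [zero_mul, add_zero]
  rw [integral_const_mul, integral_exp_neg, mul_one]

lemma linGrowth_affine (k : ℝ) : LinGrowth (fun z : ℝ => z + k) := by
  refine ⟨1 + |k|, by positivity, fun y => ?_⟩
  have := abs_add_le y k
  nlinarith [abs_nonneg y, abs_nonneg k, mul_nonneg (abs_nonneg y) (abs_nonneg k)]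

lemma iterL_growth (l : List ℝ) {F : ℝ → ℝ} (hg : LinGrowth F) : LinGrowth (iterL l F) := by
  induction l with
  | nil => exact hg
  | cons a l ih => exact T_growth ih

/-- lower bound by the mean. -/
lemma iterL_ge_affine (l : List ℝ) {F : ℝ → ℝ} (hF : Measurable F) (hg : LinGrowth F) {k : ℝ}
    (h : ∀ y, y + k ≤ F y) (y : ℝ) : y + (l.sum + k) ≤ iterL l F y := by
  induction l generalizing y with
  | nil => simpa using h y
  | cons a l ih =>
    rw [iterL_cons, List.sum_cons]
    have := T_mono' (a := a) (F := fun z => z + (l.sum + k)) (by fun_prop) (linGrowth_affine _)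
      (iterL_measurable l hF) (iterL_growth l hg) ih y
    rw [T_affine] at this
    linarith

end Crest.Agent.S0423Aux
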