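import Mathlib
import Crest.Prelude.Def_TruncExpWeight
import Crest.Agent.S0423Aux.Tail1
import Crest.Agent.S0423Aux.PartB

set_option autoImplicit false
open MeasureTheory Set Filter Topology

namespace Crest.Agent.S0423Aux

/-- the kernel `(1 - s) e^{-s}` (second derivative of the Gamma(2) distribution function) -/
noncomputable def kap (s : ℝ) : ℝ := (1 - s) * Real.exp (-s)

/-- convolution against `kap` on the positive half line -/
noncomputable def conv (F : ℝ → ℝ) (y : ℝ) : ℝ := ∫ s in Ioi (0:ℝ), F (y - s) * kap s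

lemma kap_measurable : Measurable kap := by unfold kap; fun_prop

lemma abs_kap_le {s : ℝ} (hs : 0 ≤ s) : |kap s| ≤ (1 + s) * Real.exp (-s) := by
  unfold kap
  rw [abs_mul, abs_of_pos (Real.exp_pos _)]
  refine mul_le_mul_of_nonneg_right ?_ (Real.exp_pos _).le
  rw [abs_le]; constructor <;> linarith

lemma conv_integrable {F : ℝ → ℝ} (hF : Measurable F) (hg : LinGrowth F) (y : ℝ) :
    IntegrableOn (fun s : ℝ => F (y - s) * kap s) (Ioi 0) := by
  obtain ⟨C, hC, hb⟩ := hg
  refine Integrable.mono' (integrableOn_one_add_sq_exp.const_mul (C * (1 + |y| + |(-1:ℝ)|))) ?_ ?_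
  · exact ((hF.comp (by fun_prop)).mul kap_measurable).aestronglyMeasurable
  · refine ae_restrict_of_forall_mem measurableSet_Ioi fun s hs => ?_
    have hs' : (0:ℝ) ≤ s := le_of_lt hs
    have h1 := growth_shift hC hb y (-1) s hs'
    rw [show y + -1 * s = y - s by ring] at h1
    rw [norm_mul, Real.norm_eq_abs, Real.norm_eq_abs]
    calc |F (y - s)| * |kap s| ≤ (C * (1 + |y| + |(-1:ℝ)|) * (1 + s)) * ((1 + s) * Real.exp (-s)) :=
          mul_le_mul h1 (abs_kap_le hs') (abs_nonneg _) (by positivity)
      _ = _ := by ring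

lemma conv_measurable {F : ℝ → ℝ} (hF : Measurable F) : Measurable (conv F) := by
  have h : Measurable (fun p : ℝ × ℝ => F (p.1 - p.2) * kap p.2) :=
    (hF.comp (by fun_prop)).mul (kap_measurable.comp measurable_snd)
  exact (h.stronglyMeasurable.integral_prod_right' (ν := volume.restrict (Set.Ioi 0))).measurable

/-- `T a` commutes with `conv` (Fubini). -/
theorem T_conv (a : ℝ) {F : ℝ → ℝ} (hF : Measurable F) (hg : LinGrowth F) :
    T a (conv F) = conv (T a F) := by
  funext y
  obtain ⟨C, hC, hb⟩ := hg
  unfold T conv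
  have hint : Integrable (fun p : ℝ × ℝ => F (y + a * p.1 - p.2) * kap p.2 * Real.exp (-p.1))
      (μ0.prod μ0) := by
    have hdom : Integrable (fun p : ℝ × ℝ => (C * (1 + |y| + |a| + 1)) *
        (((1 + p.1) * Real.exp (-p.1)) * ((1 + p.2) ^ 2 * Real.exp (-p.2)))) (μ0.prod μ0) :=
      (Integrable.mul_prod (f := fun x : ℝ => (1 + x) * Real.exp (-x))
        (g := fun x : ℝ => (1 + x) ^ 2 * Real.exp (-x))
        integrableOn_one_add_exp integrableOn_one_add_sq_exp).const_mul _
    refine Integrable.mono' hdom ?_ ?_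
    · exact (((hF.comp (by fun_prop)).mul (kap_measurable.comp measurable_snd)).mul
        (by fun_prop)).aestronglyMeasurable
    · rw [Measure.prod_restrict]
      refine ae_restrict_of_forall_mem (measurableSet_Ioi.prod measurableSet_Ioi) fun p hp => ?_
      obtain ⟨h1, h2⟩ := hp
      have h1' : (0:ℝ) ≤ p.1 := le_of_lt h1
      have h2' : (0:ℝ) ≤ p.2 := le_of_lt h2
      have hF1 : |F (y + a * p.1 - p.2)| ≤ C * (1 + |y| + |a| + 1) * ((1 + p.1) * (1 + p.2)) := by
        refine (hb _).trans ?_
        have e1 : |y + a * p.1 - p.2| ≤ |y| + |a| * p.1 + p.2 := by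
          have := abs_sub (y + a * p.1) p.2
          have h3 := abs_add_le y (a * p.1)
          rw [abs_mul, abs_of_nonneg h1'] at h3
          rw [abs_of_nonneg h2'] at this
          linarith
        have e2 : 1 + |y + a * p.1 - p.2| ≤ (1 + |y| + |a| + 1) * ((1 + p.1) * (1 + p.2)) := by
          have hy := abs_nonneg y
          have ha := abs_nonneg a
          have : (1 + |y| + |a| + 1) * ((1 + p.1) * (1 + p.2))
              = (1 + |y| + |a| * p.1 + p.2) + (|a| + 1 + (1 + |y| + 1) * p.1 + (1 + |y| + |a|) * p.2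
                + (1 + |y| + |a| + 1) * (p.1 * p.2)) := by ring
          rw [this]
          have : 0 ≤ |a| + 1 + (1 + |y| + 1) * p.1 + (1 + |y| + |a|) * p.2
                + (1 + |y| + |a| + 1) * (p.1 * p.2) := by positivity
          linarith
        calc C * (1 + |y + a * p.1 - p.2|) ≤ C * ((1 + |y| + |a| + 1) * ((1 + p.1) * (1 + p.2))) :=
              mul_le_mul_of_nonneg_left e2 hC
          _ = _ := by ring
      rw [norm_mul, norm_mul, Real.norm_eq_abs, Real.norm_eq_abs, Real.norm_eq_abs,
        abs_of_pos (Real.exp_pos _)]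
      calc |F (y + a * p.1 - p.2)| * |kap p.2| * Real.exp (-p.1)
          ≤ (C * (1 + |y| + |a| + 1) * ((1 + p.1) * (1 + p.2))) * ((1 + p.2) * Real.exp (-p.2))
              * Real.exp (-p.1) := by
            refine mul_le_mul_of_nonneg_right ?_ (Real.exp_pos _).le
            exact mul_le_mul hF1 (abs_kap_le h2') (abs_nonneg _) (by positivity)
        _ = _ := by ring
  calc ∫ x in Ioi (0:ℝ), (∫ s in Ioi (0:ℝ), F (y + a * x - s) * kap s) * Real.exp (-x)
      = ∫ x in Ioi (0:ℝ), ∫ s in Ioi (0:ℝ), F (y + a * x - s) * kap s * Real.exp (-x) := by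
        refine integral_congr_ae (Filter.Eventually.of_forall fun x => ?_)
        simp only
        rw [← integral_mul_const]
    _ = ∫ s in Ioi (0:ℝ), ∫ x in Ioi (0:ℝ), F (y + a * x - s) * kap s * Real.exp (-x) :=
        integral_integral_swap (f := fun x s => F (y + a * x - s) * kap s * Real.exp (-x)) hint
    _ = ∫ s in Ioi (0:ℝ), (∫ x in Ioi (0:ℝ), F (y - s + a * x) * Real.exp (-x)) * kap s := by
        refine integral_congr_ae (Filter.Eventually.of_forall fun s => ?_)
        simp only
        rw [← integral_mul_const]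
        refine integral_congr_ae (Filter.Eventually.of_forall fun x => ?_)
        simp only
        rw [show y - s + a * x = y + a * x - s by ring]
        ring

theorem iterL_conv (l : List ℝ) {F : ℝ → ℝ} (hF : Measurable F) (hg : LinGrowth F) :
    iterL l (conv F) = conv (iterL l F) := by
  induction l with
  | nil => rfl
  | cons a l ih =>
    rw [iterL_cons, iterL_cons, ih, T_conv a (iterL_measurable l hF) (iterL_growth l hg)]

end Crest.Agent.S0423Aux
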