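import Mathlib
import Crest.Prelude.Def_TruncExpWeight
import Crest.Agent.S0423Aux.Tail2

set_option autoImplicit false
open MeasureTheory Set Filter Topology

namespace Crest.Agent.S0423Aux

local notation "g" => Crest.AlgGeometry.truncExpWeight

/-- the ramp function -/
noncomputable def ramp (y : ℝ) : ℝ := max y 0

lemma ramp_measurable : Measurable ramp := by unfold ramp; fun_prop

lemma ramp_growth : LinGrowth ramp := by
  refine ⟨1, zero_le_one, fun y => ?_⟩
  unfold ramp
  rw [abs_of_nonneg (le_max_right _ _)]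
  have := le_abs_self y
  have h2 := abs_nonneg y
  rw [one_mul]
  exact max_le (by linarith) (by linarith)

lemma ramp_of_nonneg {y : ℝ} (h : 0 ≤ y) : ramp y = y := max_eq_left h
lemma ramp_of_nonpos {y : ℝ} (h : y ≤ 0) : ramp y = 0 := max_eq_right h

lemma conv_ramp (y : ℝ) : conv ramp y = 1 - g y := by
  unfold conv
  rcases le_or_gt y 0 with hy | hy
  · rw [g_of_nonpos hy, sub_self]
    refine setIntegral_eq_zero_of_forall_eq_zero fun s hs => ?_
    rw [ramp_of_nonpos (by have : (0:ℝ) < s := hs; linarith), zero_mul]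
  · rw [g_of_pos hy]
    have h1 : ∫ s in Ioi (0:ℝ), ramp (y - s) * kap s = ∫ s in Ioc (0:ℝ) y, ramp (y - s) * kap s := by
      refine setIntegral_eq_of_subset_of_forall_sdiff_eq_zero measurableSet_Ioi Ioc_subset_Ioi_self
        fun s hs => ?_
      have : y < s := by
        by_contra h
        exact hs.2 ⟨hs.1, not_lt.mp h⟩
      rw [ramp_of_nonpos (by linarith), zero_mul]
    have h2 : ∫ s in Ioc (0:ℝ) y, ramp (y - s) * kap s = ∫ s in Ioc (0:ℝ) y, (y - s) * kap s := by
      refine setIntegral_congr_fun measurableSet_Ioc fun s hs => ?_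
      rw [ramp_of_nonneg (by linarith [hs.2])]
    rw [h1, h2, ← intervalIntegral.integral_of_le hy.le]
    have hd : ∀ s ∈ uIcc (0:ℝ) y, HasDerivAt (fun s : ℝ => (-s ^ 2 + (y - 1) * s - 1) * Real.exp (-s))
        ((y - s) * kap s) s := by
      intro s _
      have e1 : HasDerivAt (fun s : ℝ => Real.exp (-s)) (Real.exp (-s) * (-1)) s :=
        (hasDerivAt_neg s).exp
      have e2 : HasDerivAt (fun s : ℝ => -s ^ 2 + (y - 1) * s - 1) (-(2 * s) + (y - 1) * 1) s := by
        have := (((hasDerivAt_pow 2 s).neg).add ((hasDerivAt_id s).const_mul (y - 1))).sub_const 1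
        refine this.congr_deriv ?_
        simp
      refine (e2.mul e1).congr_deriv ?_
      unfold kap
      ring
    rw [intervalIntegral.integral_eq_sub_of_hasDerivAt hd]
    · simp only [neg_zero, Real.exp_zero]
      ring
    · apply Continuous.intervalIntegrable
      unfold kap
      fun_prop

/-- closed form of `T a ramp` for `a > 0`. -/
lemma T_ramp_of_nonneg {a y : ℝ} (ha : 0 < a) (hy : 0 ≤ y) : T a ramp y = y + a := by
  have : T a ramp y = T a (fun z => z + 0) y := by
    unfold T
    refine setIntegral_congr_fun measurableSet_Ioi fun x hx => ?_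
    simp only
    have hx' : (0:ℝ) < x := hx
    rw [ramp_of_nonneg (by positivity), add_zero]
  rw [this, T_affine, add_zero]

lemma T_ramp_of_nonpos {a y : ℝ} (ha : 0 < a) (hy : y ≤ 0) :
    T a ramp y = a * Real.exp (y / a) := by
  unfold T
  -- the integrand vanishes on (0, -y/a]
  have h1 : ∫ x in Ioi (0:ℝ), ramp (y + a * x) * Real.exp (-x)
      = ∫ x in Ioi (-y / a), ramp (y + a * x) * Real.exp (-x) := by
    refine setIntegral_eq_of_subset_of_forall_sdiff_eq_zero measurableSet_Ioi
      (Ioi_subset_Ioi (by apply div_nonneg <;> linarith)) fun x hx => ?_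
    have hx2 : x ≤ -y / a := not_lt.mp hx.2
    have : y + a * x ≤ 0 := by
      have := mul_le_mul_of_nonneg_left hx2 ha.le
      rw [mul_div_cancel₀ _ ha.ne'] at this
      linarith
    rw [ramp_of_nonpos this, zero_mul]
  rw [h1, setIntegral_Ioi_shift]
  have h2 : ∫ s in Ioi (0:ℝ), ramp (y + a * (-y / a + s)) * Real.exp (-(-y / a + s))
      = ∫ s in Ioi (0:ℝ), (a * Real.exp (y / a)) * (s * Real.exp (-s)) := by
    refine setIntegral_congr_fun measurableSet_Ioi fun s hs => ?_
    have hs' : (0:ℝ) < s := hs
    have e1 : y + a * (-y / a + s) = a * s := by field_simp; ring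
    have e2 : Real.exp (-(-y / a + s)) = Real.exp (y / a) * Real.exp (-s) := by
      rw [← Real.exp_add]; congr 1; ring
    rw [e1, e2, ramp_of_nonneg (by positivity)]
    ring
  rw [h2, integral_const_mul, integral_x_exp, mul_one]

end Crest.Agent.S0423Aux
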