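import Mathlib
import Crest.Prelude.Def_TruncExpWeight
import Crest.Agent.S0423Aux.Tail3

set_option autoImplicit false
open MeasureTheory Set Filter Topology

namespace Crest.Agent.S0423Aux

/-- positive continuous log-concave functions of linear growth -/
structure Good (F : ℝ → ℝ) : Prop where
  cont : Continuous F
  pos : ∀ y, 0 < F y
  growth : LinGrowth F
  lc : ConcaveOn ℝ univ (fun y => Real.log (F y))

lemma Good.lc4 {F : ℝ → ℝ} (hF : Good F) {y y' h : ℝ} (hy : y ≤ y') (hh : 0 ≤ h) :
    F (y' + h) * F y ≤ F (y + h) * F y' := by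
  rcases eq_or_lt_of_le hh with rfl | hh'
  · simp [mul_comm]
  have hL : 0 < y' + h - y := by linarith
  set L := y' + h - y with hLdef
  have hα0 : 0 ≤ h / L := by positivity
  have hα1 : 0 ≤ 1 - h / L := by
    rw [sub_nonneg, div_le_one hL]; linarith
  have c1 := hF.lc.2 (mem_univ y) (mem_univ (y' + h)) hα1 hα0 (by ring)
  have c2 := hF.lc.2 (mem_univ y) (mem_univ (y' + h)) hα0 hα1 (by ring)
  have e1 : (1 - h / L) • y + (h / L) • (y' + h) = y + h := by
    simp only [smul_eq_mul]
    field_simp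
    rw [hLdef]; ring
  have e2 : (h / L) • y + (1 - h / L) • (y' + h) = y' := by
    simp only [smul_eq_mul]
    field_simp
    rw [hLdef]; ring
  rw [e1] at c1
  rw [e2] at c2
  simp only [smul_eq_mul] at c1 c2
  have hsum : Real.log (F (y' + h)) + Real.log (F y) ≤ Real.log (F (y + h)) + Real.log (F y') := by
    nlinarith
  rw [← Real.log_mul (hF.pos _).ne' (hF.pos _).ne', ← Real.log_mul (hF.pos _).ne' (hF.pos _).ne'] at hsum
  exact (Real.log_le_log_iff (mul_pos (hF.pos _) (hF.pos _)) (mul_pos (hF.pos _) (hF.pos _))).mp hsum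

lemma integrableOn_Ioi_shift_iff (h : ℝ → ℝ) (x₀ : ℝ) :
    IntegrableOn h (Ioi x₀) ↔ IntegrableOn (fun s => h (x₀ + s)) (Ioi (0:ℝ)) := by
  have := (measurePreserving_add_left (volume : Measure ℝ) x₀).integrableOn_comp_preimage
    (measurableEmbedding_addLeft x₀) (f := h) (s := Ioi x₀)
  rw [← this]
  have e : (fun x => x₀ + x) ⁻¹' Ioi x₀ = Ioi (0:ℝ) := by
    ext s; simp
  rw [e]
  rfl

section pos
variable {b : ℝ} {F : ℝ → ℝ}

lemma K_integrableOn (hb : 0 < b) (hF : Measurable F) (hg : LinGrowth F) (y : ℝ) :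
    IntegrableOn (fun z => F z * Real.exp (-(z / b))) (Ioi y) := by
  rw [integrableOn_Ioi_shift_iff]
  have h1 := T_integrable' (a := b) hF hg y
  have h2 : IntegrableOn (fun w => F (y + w) * Real.exp (-(w / b))) (Ioi (b * 0)) := by
    rw [← integrableOn_Ioi_comp_mul_left_iff (fun w => F (y + w) * Real.exp (-(w / b))) 0 hb]
    refine h1.congr_fun (fun x _ => ?_) measurableSet_Ioi
    simp only
    rw [mul_div_cancel_left₀ _ hb.ne']
  rw [mul_zero] at h2
  have h3 : IntegrableOn (fun w => Real.exp (-(y / b)) * (F (y + w) * Real.exp (-(w / b)))) (Ioi 0) :=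
    h2.const_mul (Real.exp (-(y / b)))
  refine h3.congr_fun (fun s _ => ?_) measurableSet_Ioi
  simp only
  rw [add_div, neg_add, Real.exp_add]
  ring

lemma T_eq_of_pos (hb : 0 < b) (y : ℝ) :
    T b F y = b⁻¹ * (Real.exp (y / b) * ∫ z in Ioi y, F z * Real.exp (-(z / b))) := by
  have h1 : T b F y = ∫ x in Ioi (0:ℝ), (fun w => F (y + w) * Real.exp (-(w / b))) (b * x) := by
    unfold T
    refine setIntegral_congr_fun measurableSet_Ioi fun x _ => ?_
    simp only
    rw [mul_div_cancel_left₀ _ hb.ne']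
  rw [h1, integral_comp_mul_left_Ioi (fun w => F (y + w) * Real.exp (-(w / b))) 0 hb, mul_zero,
    setIntegral_Ioi_shift _ y, smul_eq_mul]
  have h2 : ∫ s in Ioi (0:ℝ), F (y + s) * Real.exp (-(s / b))
      = ∫ s in Ioi (0:ℝ), Real.exp (y / b) * (F (y + s) * Real.exp (-((y + s) / b))) := by
    refine setIntegral_congr_fun measurableSet_Ioi fun s _ => ?_
    rw [add_div, neg_add, Real.exp_add, Real.exp_neg (y / b)]
    have := (Real.exp_pos (y / b)).ne'
    field_simp
  rw [h2, integral_const_mul]

lemma T_hasDerivAt_of_pos (hb : 0 < b) (hF : Continuous F) (hg : LinGrowth F) (y : ℝ) :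
    HasDerivAt (T b F) ((T b F y - F y) / b) y := by
  set K : ℝ → ℝ := fun z => F z * Real.exp (-(z / b)) with hK
  have hKc : Continuous K := by rw [hK]; fun_prop
  have hJ : ∀ y, ∫ z in Ioi y, K z = (∫ z in Ioi (0:ℝ), K z) - ∫ z in (0:ℝ)..y, K z := by
    intro y
    rw [← intervalIntegral.integral_Ioi_sub_Ioi' (K_integrableOn hb hF.measurable hg 0)
      (K_integrableOn hb hF.measurable hg y)]
    ring
  have hT : T b F = fun y => b⁻¹ * (Real.exp (y / b) *
      ((∫ z in Ioi (0:ℝ), K z) - ∫ z in (0:ℝ)..y, K z)) := by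
    funext y
    rw [T_eq_of_pos hb, hJ]
  have d1 : HasDerivAt (fun y => ∫ z in (0:ℝ)..y, K z) (K y) y :=
    (hKc.integral_hasStrictDerivAt 0 y).hasDerivAt
  have d2 : HasDerivAt (fun y : ℝ => Real.exp (y / b)) (Real.exp (y / b) * (1 / b)) y :=
    ((hasDerivAt_id y).div_const b).exp
  have d3 := (d2.mul (d1.const_sub (∫ z in Ioi (0:ℝ), K z))).const_mul b⁻¹
  rw [hT]
  refine d3.congr_deriv ?_
  simp only [hK]
  have e : Real.exp (y / b) * (F y * Real.exp (-(y / b))) = F y := by
    rw [Real.exp_neg]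
    have := (Real.exp_pos (y / b)).ne'
    field_simp
  have : Real.exp (y / b) * -(F y * Real.exp (-(y / b))) = - F y := by rw [mul_neg, e]
  rw [this]
  field_simp
  ring

lemma T_pos_of_pos (a : ℝ) (hF : Measurable F) (hg : LinGrowth F) (hpos : ∀ y, 0 < F y) (y : ℝ) :
    0 < T a F y := by
  unfold T
  rw [integral_pos_iff_support_of_nonneg (fun x => (mul_pos (hpos _) (Real.exp_pos _)).le)
    (T_integrable' hF hg y)]
  have : Function.support (fun x => F (y + a * x) * Real.exp (-x)) = univ := by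
    ext x
    simp [(hpos (y + a * x)).ne', (Real.exp_pos (-x)).ne']
  rw [this]
  simp

lemma Good.T_of_pos (hb : 0 < b) (hF : Good F) : Good (T b F) := by
  have hd := T_hasDerivAt_of_pos hb hF.cont hF.growth
  have hpos := T_pos_of_pos b hF.cont.measurable hF.growth hF.pos
  refine ⟨?_, hpos, T_growth hF.growth, ?_⟩
  · exact continuous_iff_continuousAt.mpr fun y => (hd y).continuousAt
  · have hdl : ∀ y, HasDerivAt (fun y => Real.log (T b F y)) (((T b F y - F y) / b) / T b F y) y :=
      fun y => (hd y).log (hpos y).ne'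
    refine Antitone.concaveOn_univ_of_deriv (fun y => (hdl y).differentiableAt) ?_
    intro y y' hyy'
    rw [(hdl y).deriv, (hdl y').deriv]
    -- cross ratio inequality
    have key : T b F y' * F y ≤ T b F y * F y' := by
      unfold T
      rw [← integral_mul_const, ← integral_mul_const]
      refine setIntegral_mono_on ?_ ?_ measurableSet_Ioi fun x hx => ?_
      · exact (T_integrable' hF.cont.measurable hF.growth y').mul_const _
      · exact (T_integrable' hF.cont.measurable hF.growth y).mul_const _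
      · have hx' : (0:ℝ) < x := hx
        have := hF.lc4 hyy' (h := b * x) (by positivity)
        have e := Real.exp_pos (-x)
        nlinarith
    have p1 := hpos y
    have p2 := hpos y'
    rw [div_div, div_div, div_le_div_iff₀ (by positivity) (by positivity)]
    nlinarith [mul_pos hb hb]

end pos

lemma Good.comp_neg {F : ℝ → ℝ} (hF : Good F) : Good (fun y => F (-y)) := by
  refine ⟨hF.cont.comp continuous_neg, fun y => hF.pos _, ?_, ?_⟩
  · obtain ⟨C, hC, hb⟩ := hF.growth
    exact ⟨C, hC, fun y => by simpa using hb (-y)⟩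
  · have := hF.lc.comp_linearMap (-LinearMap.id : ℝ →ₗ[ℝ] ℝ)
    simpa [Function.comp_def] using this

lemma T_neg_eq (b : ℝ) (F : ℝ → ℝ) : T b F = fun y => T (-b) (fun z => F (-z)) (-y) := by
  funext y
  unfold T
  refine setIntegral_congr_fun measurableSet_Ioi fun x _ => ?_
  simp only
  congr 2
  ring

theorem Good.T {F : ℝ → ℝ} (hF : Good F) (b : ℝ) : Good (T b F) := by
  rcases lt_trichotomy b 0 with hb | rfl | hb
  · rw [T_neg_eq]
    exact (Good.T_of_pos (by linarith : 0 < -b) hF.comp_neg).comp_neg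
  · rw [T_zero]; exact hF
  · exact Good.T_of_pos hb hF

theorem Good.iterL {F : ℝ → ℝ} (hF : Good F) (l : List ℝ) : Good (iterL l F) := by
  induction l with
  | nil => exact hF
  | cons a l ih => exact ih.T a

end Crest.Agent.S0423Aux
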