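import Mathlib
import Crest.Prelude.Def_TruncExpWeight
import Crest.Agent.S0423Aux.Tail4

set_option autoImplicit false
open MeasureTheory Set Filter Topology

namespace Crest.Agent.S0423Aux

local notation "g" => Crest.AlgGeometry.truncExpWeight

lemma ramp_continuous : Continuous ramp := by unfold ramp; fun_prop

lemma ramp_nonneg (y : ℝ) : 0 ≤ ramp y := le_max_right _ _

lemma T_ramp_pos {a : ℝ} (ha : 0 < a) (y : ℝ) : 0 < T a ramp y := by
  rcases le_total y 0 with h | h
  · rw [T_ramp_of_nonpos ha h]; positivity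
  · rw [T_ramp_of_nonneg ha h]; linarith

lemma T_ramp_ge {a : ℝ} (ha : 0 < a) (y : ℝ) : y + a ≤ T a ramp y := by
  rcases le_total y 0 with h | h
  · rw [T_ramp_of_nonpos ha h]
    have := Real.add_one_le_exp (y / a)
    have h2 : a * (y / a + 1) ≤ a * Real.exp (y / a) := mul_le_mul_of_nonneg_left this ha.le
    have h3 : a * (y / a + 1) = y + a := by field_simp
    linarith
  · rw [T_ramp_of_nonneg ha h]

/-- The base case: `T a ramp` is good for `a > 0`. -/
lemma good_T_ramp {a : ℝ} (ha : 0 < a) : Good (T a ramp) := by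
  have hd := T_hasDerivAt_of_pos ha ramp_continuous ramp_growth
  have hpos := T_ramp_pos ha
  refine ⟨?_, hpos, T_growth ramp_growth, ?_⟩
  · exact continuous_iff_continuousAt.mpr fun y => (hd y).continuousAt
  · have hdl : ∀ y, HasDerivAt (fun y => Real.log (T a ramp y))
        (((T a ramp y - ramp y) / a) / T a ramp y) y :=
      fun y => (hd y).log (hpos y).ne'
    refine Antitone.concaveOn_univ_of_deriv (fun y => (hdl y).differentiableAt) ?_
    intro y y' hyy'
    rw [(hdl y).deriv, (hdl y').deriv]
    have key : T a ramp y' * ramp y ≤ T a ramp y * ramp y' := by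
      rcases le_total y 0 with h | h
      · rw [ramp_of_nonpos h, mul_zero]
        exact mul_nonneg (hpos y).le (ramp_nonneg _)
      · have h' : 0 ≤ y' := h.trans hyy'
        rw [ramp_of_nonneg h, ramp_of_nonneg h', T_ramp_of_nonneg ha h, T_ramp_of_nonneg ha h']
        nlinarith
    have p1 := hpos y
    have p2 := hpos y'
    rw [div_div, div_div, div_le_div_iff₀ (by positivity) (by positivity)]
    nlinarith [mul_pos ha ha]

/-- IVT for the matching parameter. -/
lemma exists_t {U : ℝ} (hU : 1 / 3 ≤ U) :
    ∃ t : ℝ, 1 / 3 ≤ t ∧ t * Real.exp (1 / (3 * t) - 1) = U := by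
  set f : ℝ → ℝ := fun t => t * Real.exp (1 / (3 * t) - 1) with hf
  set M : ℝ := max (1 / 3) (Real.exp 1 * U) with hM
  have h13 : (1:ℝ) / 3 ≤ M := le_max_left _ _
  have hcont : ContinuousOn f (Icc (1 / 3) M) := by
    intro t ht
    have : t ≠ 0 := by have := ht.1; intro h; rw [h] at this; norm_num at this
    apply ContinuousAt.continuousWithinAt
    rw [hf]
    have h3 : (3 * t) ≠ 0 := by positivity
    fun_prop (disch := assumption)
  have hfa : f (1 / 3) = 1 / 3 := by
    rw [hf]; norm_num
  have hfb : U ≤ f M := by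
    rw [hf]
    simp only
    have hMpos : 0 < M := by linarith
    have h1 : Real.exp (-1) ≤ Real.exp (1 / (3 * M) - 1) := by
      apply Real.exp_le_exp.mpr
      have : 0 ≤ 1 / (3 * M) := by positivity
      linarith
    have h2 : Real.exp 1 * U ≤ M := le_max_right _ _
    calc U = (Real.exp 1 * U) * Real.exp (-1) := by
          rw [Real.exp_neg]; have := (Real.exp_pos 1).ne'; field_simp
      _ ≤ M * Real.exp (-1) := mul_le_mul_of_nonneg_right h2 (Real.exp_pos _).le
      _ ≤ M * Real.exp (1 / (3 * M) - 1) := mul_le_mul_of_nonneg_left h1 hMpos.le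
  obtain ⟨t, ht, hft⟩ := intermediate_value_Icc h13 hcont (show U ∈ Icc (f (1/3)) (f M) from
    ⟨by rw [hfa]; exact hU, hfb⟩)
  exact ⟨t, ht.1, hft⟩

/-- The comparison between a good `u ≥ id` and the exponential family. -/
lemma compare {u : ℝ → ℝ} (hu : Good u) (hge : ∀ y, y ≤ u y) {t : ℝ} (ht : 1 / 3 ≤ t)
    (hmatch : t * Real.exp (1 / (3 * t) - 1) = u (1 / 3)) :
    (∀ y, 1 / 3 ≤ y → T t ramp (y - t) ≤ u y) ∧ (∀ y, y ≤ 1 / 3 → u y ≤ T t ramp (y - t)) := by
  have htpos : 0 < t := by linarith
  set L : ℝ → ℝ := fun y => Real.log (u y) - (Real.log t + (y - t) / t) with hL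
  have hLc : ConcaveOn ℝ univ L := by
    have haff : ConvexOn ℝ univ (fun y : ℝ => Real.log t + (y - t) / t) := by
      have : (fun y : ℝ => Real.log t + (y - t) / t) = fun y => (1 / t) * y + (Real.log t - 1) := by
        funext y; field_simp; ring
      rw [this]
      exact ((convexOn_id convex_univ).smul (by positivity : (0:ℝ) ≤ 1 / t)).add_const _
    exact hu.lc.sub haff
  have hL13 : L (1 / 3) = 0 := by
    simp only [hL]
    rw [← hmatch, Real.log_mul htpos.ne' (Real.exp_pos _).ne', Real.log_exp]
    field_simp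
    ring
  -- translation between `L` and the inequality
  have hLpos : ∀ y, 0 ≤ L y → t * Real.exp ((y - t) / t) ≤ u y := by
    intro y hy
    simp only [hL] at hy
    have : Real.log (t * Real.exp ((y - t) / t)) ≤ Real.log (u y) := by
      rw [Real.log_mul htpos.ne' (Real.exp_pos _).ne', Real.log_exp]; linarith
    exact (Real.log_le_log_iff (by positivity) (hu.pos y)).mp this
  have hLneg : ∀ y, L y ≤ 0 → u y ≤ t * Real.exp ((y - t) / t) := by
    intro y hy
    simp only [hL] at hy
    have : Real.log (u y) ≤ Real.log (t * Real.exp ((y - t) / t)) := by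
      rw [Real.log_mul htpos.ne' (Real.exp_pos _).ne', Real.log_exp]; linarith
    exact (Real.log_le_log_iff (hu.pos y) (by positivity)).mp this
  have hLt : 0 ≤ L t := by
    simp only [hL, sub_self, zero_div, add_zero, sub_nonneg]
    exact Real.log_le_log htpos (hge t)
  constructor
  · intro y hy
    rcases le_total t y with h | h
    · rw [T_ramp_of_nonneg htpos (by linarith)]
      have := hge y
      linarith
    · rw [T_ramp_of_nonpos htpos (by linarith)]
      apply hLpos
      have := hLc.min_le_of_mem_Icc (mem_univ (1/3 : ℝ)) (mem_univ t) (⟨hy, h⟩ : y ∈ Icc (1/3) t)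
      rw [hL13] at this
      exact (le_min le_rfl hLt).trans this
  · intro y hy
    rw [T_ramp_of_nonpos htpos (by linarith)]
    apply hLneg
    rcases eq_or_lt_of_le hy with rfl | hy'
    · exact hL13.le
    by_contra hcon
    push Not at hcon
    have hd : 0 < 1 / 3 - y := by linarith
    set x : ℝ := t * L y / (2 * (1 / 3 - y)) with hx
    have hxpos : 0 < x := by positivity
    set y' : ℝ := t * (1 + x) with hy'def
    have hy'pos : 0 < y' := by positivity
    have hLy' : -x ^ 2 ≤ L y' := by
      simp only [hL]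
      have h1 : Real.log y' ≤ Real.log (u y') := Real.log_le_log hy'pos (hge y')
      have h2 : Real.log y' = Real.log t + Real.log (1 + x) := by
        rw [hy'def, Real.log_mul htpos.ne' (by positivity)]
      have h3 : 1 - (1 + x)⁻¹ ≤ Real.log (1 + x) := Real.one_sub_inv_le_log_of_pos (by positivity)
      have h4 : (y' - t) / t = x := by rw [hy'def]; field_simp; ring
      have h5 : x - x ^ 2 ≤ 1 - (1 + x)⁻¹ := by
        have : 1 - (1 + x)⁻¹ = x / (1 + x) := by field_simp; ring
        rw [this, le_div_iff₀ (by positivity)]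
        nlinarith [pow_pos hxpos 3]
      rw [h4]
      linarith
    have hgap : t * x ≤ y' - 1 / 3 := by rw [hy'def]; nlinarith
    have hlen : 0 < y' - y := by nlinarith [mul_pos htpos hxpos]
    -- concavity at 1/3 between y and y'
    have hw1 : 0 ≤ (y' - 1 / 3) / (y' - y) := by
      apply div_nonneg _ hlen.le
      nlinarith [mul_pos htpos hxpos]
    have hw2 : 0 ≤ (1 / 3 - y) / (y' - y) := by positivity
    have hc := hLc.2 (mem_univ y) (mem_univ y') hw1 hw2 (by field_simp; ring)
    have hpt : ((y' - 1 / 3) / (y' - y)) • y + ((1 / 3 - y) / (y' - y)) • y' = 1 / 3 := by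
      simp only [smul_eq_mul]; field_simp; ring
    rw [hpt, hL13] at hc
    simp only [smul_eq_mul] at hc
    have hc2 : (y' - 1 / 3) * L y + (1 / 3 - y) * L y' ≤ 0 := by
      have : ((y' - 1 / 3) / (y' - y)) * L y + ((1 / 3 - y) / (y' - y)) * L y'
          = ((y' - 1 / 3) * L y + (1 / 3 - y) * L y') / (y' - y) := by field_simp
      rw [this] at hc
      by_contra hneg
      push Not at hneg
      exact absurd hc (not_le.mpr (div_pos hneg hlen))
    have h6 : t * x * L y ≤ (1 / 3 - y) * x ^ 2 := by
      have a1 : t * x * L y ≤ (y' - 1 / 3) * L y := mul_le_mul_of_nonneg_right hgap hcon.le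
      have a2 : (1 / 3 - y) * (-x ^ 2) ≤ (1 / 3 - y) * L y' := mul_le_mul_of_nonneg_left hLy' hd.le
      nlinarith
    have h7 : t * L y ≤ (1 / 3 - y) * x := by
      have : x * (t * L y) ≤ x * ((1 / 3 - y) * x) := by nlinarith
      exact le_of_mul_le_mul_left this hxpos
    have h8 : (1 / 3 - y) * x = t * L y / 2 := by
      rw [hx]
      generalize (1 / 3 - y) = d at hd
      have := hd.ne'
      field_simp
    have h9 : 0 < t * L y := by positivity
    linarith

end Crest.Agent.S0423Aux
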