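import Mathlib
import Crest.Prelude.Def_TruncExpWeight
import Crest.Agent.S0423Aux.Tail5

set_option autoImplicit false
open MeasureTheory Set Filter Topology

namespace Crest.Agent.S0423Aux

local notation "g" => Crest.AlgGeometry.truncExpWeight

lemma T_one_sub' {a : ℝ} {f : ℝ → ℝ} (hf : Measurable f) {C : ℝ} (hb : ∀ y, |f y| ≤ C) :
    T a (fun u => 1 - f u) = fun y => 1 - T a f y := by
  funext y
  unfold T
  have : ∀ x : ℝ, (1 - f (y + a * x)) * Real.exp (-x)
      = Real.exp (-x) - f (y + a * x) * Real.exp (-x) := fun x => by ring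
  simp_rw [this]
  rw [integral_sub integrableOn_exp_neg (T_integrable hf hb y), integral_exp_neg]

lemma iterL_one_sub (l : List ℝ) {f : ℝ → ℝ} (hf : Measurable f) {C : ℝ} (hb : ∀ y, |f y| ≤ C) :
    iterL l (fun u => 1 - f u) = fun y => 1 - iterL l f y := by
  induction l with
  | nil => rfl
  | cons a l ih =>
    rw [iterL_cons, ih, T_one_sub' (iterL_measurable l hf) (iterL_bound l hb)]
    rfl

lemma kap_nonneg {s : ℝ} (hs : s ≤ 1) : 0 ≤ kap s := by
  unfold kap
  exact mul_nonneg (by linarith) (Real.exp_pos _).le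

lemma kap_nonpos {s : ℝ} (hs : 1 ≤ s) : kap s ≤ 0 := by
  unfold kap
  exact mul_nonpos_of_nonpos_of_nonneg (by linarith) (Real.exp_pos _).le

/-- The core inequality. -/
theorem core (l' : List ℝ) {a₀ : ℝ} (ha₀ : 0 < a₀) (hsum : l'.sum + a₀ = 0) :
    iterL (l' ++ [a₀]) g (4 / 3) ≤ 1 - 4 / 9 * Real.exp (-(1 / 3)) := by
  set u : ℝ → ℝ := iterL l' (T a₀ ramp) with hu
  have hgood : Good u := (good_T_ramp ha₀).iterL l'
  have hge : ∀ y, y ≤ u y := by
    intro y
    have := iterL_ge_affine l' (T_measurable ramp_measurable) (T_growth ramp_growth)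
      (k := a₀) (T_ramp_ge ha₀) y
    rw [hsum, add_zero] at this
    exact this
  obtain ⟨t, ht, hmatch⟩ := exists_t (hge (1 / 3))
  have htpos : 0 < t := by linarith
  obtain ⟨h1, h2⟩ := compare hgood hge ht hmatch
  have hψ : (fun y => 1 - g y) = conv ramp := by funext y; rw [conv_ramp]
  have e1 : iterL (l' ++ [a₀]) (fun y => 1 - g y) = conv u := by
    rw [hψ, iterL_conv _ ramp_measurable ramp_growth, iterL_append]
    rfl
  have e2 : T t (fun y => 1 - g y) = conv (T t ramp) := by
    rw [hψ, T_conv _ ramp_measurable ramp_growth]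
  have hcmp : conv (T t ramp) (4 / 3 - t) ≤ conv u (4 / 3) := by
    unfold conv
    refine setIntegral_mono_on (conv_integrable (T_measurable ramp_measurable)
      (T_growth ramp_growth) _) (conv_integrable hgood.cont.measurable hgood.growth _)
      measurableSet_Ioi fun s _ => ?_
    rw [show (4:ℝ) / 3 - t - s = (4 / 3 - s) - t by ring]
    rcases le_total s 1 with hs | hs
    · exact mul_le_mul_of_nonneg_right (h1 _ (by linarith)) (kap_nonneg hs)
    · exact mul_le_mul_of_nonpos_right (h2 _ (by linarith)) (kap_nonpos hs)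
  have h3 := T_psi_ge htpos
  rw [e2] at h3
  have h4 : conv u (4 / 3) = 1 - iterL (l' ++ [a₀]) g (4 / 3) := by
    rw [← e1, iterL_one_sub _ g_measurable g_abs_le]
  linarith

lemma iterL_replicate_zero (n : ℕ) (f : ℝ → ℝ) : iterL (List.replicate n 0) f = f := by
  induction n with
  | zero => rfl
  | succ n ih => rw [List.replicate_succ, iterL_cons, ih, T_zero]

/-- The bound for every mean-zero coefficient list. -/
theorem iterL_g_le (l : List ℝ) (hsum : l.sum = 0) :
    iterL l g (4 / 3) ≤ 1 - 4 / 9 * Real.exp (-(1 / 3)) := by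
  by_cases h : ∃ a ∈ l, (0:ℝ) < a
  · obtain ⟨a₀, hmem, ha₀⟩ := h
    have hp : List.Perm l (l.erase a₀ ++ [a₀]) :=
      (List.perm_cons_erase hmem).trans (List.perm_append_singleton _ _).symm
    rw [iterL_perm hp g_measurable g_abs_le]
    refine core _ ha₀ ?_
    have := List.sum_erase hmem
    linarith
  · push Not at h
    have hz : ∀ a ∈ l, a = 0 := by
      intro a ha
      by_contra hne
      have hlt : a < 0 := lt_of_le_of_ne (h a ha) hne
      have h1 := List.sum_erase ha
      have h2 : (l.erase a).sum ≤ 0 := by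
        have : ∀ m : List ℝ, (∀ x ∈ m, x ≤ 0) → m.sum ≤ 0 := by
          intro m
          induction m with
          | nil => intro _; simp
          | cons b m ih =>
            intro hm
            rw [List.sum_cons]
            have := hm b (by simp)
            have := ih fun x hx => hm x (by simp [hx])
            linarith
        exact this _ fun x hx => h x (List.mem_of_mem_erase hx)
      linarith
    rw [List.eq_replicate_of_mem hz, iterL_replicate_zero]
    exact g_four_thirds_le

theorem partA : ∀ (N : ℕ) (a : Fin N → ℝ), 1 ≤ N → ∑ i, a i = 0 →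
      Real.exp (4 / 3) / (4 / 3) *
          ∫ x in Set.pi Set.univ (fun _ : Fin N => Set.Ioi (0 : ℝ)),
            Crest.AlgGeometry.truncExpWeight (4 / 3 + ∑ i, a i * x i) * Real.exp (-∑ i, x i)
        ≤ 3 / 4 * Real.exp (4 / 3) - Real.exp 1 / 3 := by
  intro N a _ hsum
  rw [integral_pi_eq _ _ _ g_measurable ⟨1, g_abs_le⟩]
  have h := iterL_g_le (List.ofFn a) (by rw [List.sum_ofFn]; exact hsum)
  have e : Real.exp (4 / 3) * Real.exp (-(1 / 3)) = Real.exp 1 := by
    rw [← Real.exp_add]; norm_num
  have hpos := Real.exp_pos (4 / 3)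
  calc Real.exp (4 / 3) / (4 / 3) * iterL (List.ofFn a) g (4 / 3)
      ≤ Real.exp (4 / 3) / (4 / 3) * (1 - 4 / 9 * Real.exp (-(1 / 3))) :=
        mul_le_mul_of_nonneg_left h (by positivity)
    _ = 3 / 4 * Real.exp (4 / 3) - (Real.exp (4 / 3) * Real.exp (-(1 / 3))) / 3 := by ring
    _ = _ := by rw [e]

end Crest.Agent.S0423Aux
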