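import Crest.Agent.S0423Aux.Defs

/-! # S0423, Part Sx : the shifted exponential survival functions `Sx θ τ` -/

set_option autoImplicit false
open MeasureTheory Set Real Filter Topology

namespace Crest.Agent.S0423

theorem Sx_mono_theta {θ θ' τ : ℝ} (hτ : 0 < τ) (h : θ ≤ θ') (z : ℝ) : Sx θ τ z ≤ Sx θ' τ z := by
  unfold Sx
  refine min_le_min le_rfl (exp_le_exp.2 ?_)
  exact div_le_div_of_nonneg_right (by linarith) hτ.le

theorem Sx_eq_one {θ τ z : ℝ} (hτ : 0 < τ) (h : z ≤ θ) : Sx θ τ z = 1 := by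
  unfold Sx
  refine min_eq_left ?_
  rw [← exp_zero]
  exact exp_le_exp.2 (div_nonneg (by linarith) hτ.le)

theorem Sx_eq_exp {θ τ z : ℝ} (hτ : 0 < τ) (h : θ ≤ z) : Sx θ τ z = exp (-(z - θ) / τ) := by
  unfold Sx
  refine min_eq_right ?_
  rw [← exp_zero]
  exact exp_le_exp.2 (div_nonpos_of_nonpos_of_nonneg (by linarith) hτ.le)

theorem Sx_pos (θ τ z : ℝ) : 0 < Sx θ τ z := lt_min one_pos (exp_pos _)

/-- `ind c ≤ Sx θ τ` as soon as `c ≤ θ`. -/
theorem ind_le_Sx {c θ τ : ℝ} (hτ : 0 < τ) (h : c ≤ θ) (z : ℝ) : ind c z ≤ Sx θ τ z := by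
  unfold ind
  split_ifs with hz
  · rw [Sx_eq_one hτ (by linarith)]
  · exact (Sx_pos θ τ z).le

theorem ind_sub_ind_eq (c : ℝ) :
    (fun z => ind c z - ind 0 z) =
      fun z => (Ico 0 c).indicator (fun _ => (1:ℝ)) z - (Ico c 0).indicator (fun _ => (1:ℝ)) z := by
  funext z
  unfold ind
  by_cases h1 : z < c <;> by_cases h2 : z < 0 <;>
    simp [h1, h2, not_le.2, not_lt.1]

/-- `∫ (1_{z<c} - 1_{z<0}) dz = c` (any sign of `c`). -/
theorem ind_sub_ind_integrable (c : ℝ) : Integrable (fun z => ind c z - ind 0 z) := by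
  rw [ind_sub_ind_eq]
  refine Integrable.sub ?_ ?_
  · exact (integrable_indicator_iff measurableSet_Ico).2 (by simp)
  · exact (integrable_indicator_iff measurableSet_Ico).2 (by simp)

theorem ind_sub_ind_integral (c : ℝ) : ∫ z, (ind c z - ind 0 z) = c := by
  rw [ind_sub_ind_eq]
  rw [integral_sub]
  · rw [integral_indicator measurableSet_Ico, integral_indicator measurableSet_Ico]
    simp only [integral_const, smul_eq_mul, mul_one, MeasurableSet.univ, measureReal_restrict_apply,
      univ_inter, Real.volume_real_Ico]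
    rcases le_total 0 c with h | h
    · simp [h]
    · simp [h]
  · exact (integrable_indicator_iff measurableSet_Ico).2 (by simp)
  · exact (integrable_indicator_iff measurableSet_Ico).2 (by simp)

theorem Sx_sub_ind_eq (θ τ : ℝ) (hτ : 0 < τ) :
    (fun z => Sx θ τ z - ind θ z) =
      (Ioi θ).indicator (fun z => exp (θ / τ) * exp ((-(1 / τ)) * z)) +
        (fun z => if z = θ then 1 else 0) := by
  funext z
  simp only [Pi.add_apply]
  rcases lt_trichotomy z θ with h | h | h
  · rw [Sx_eq_one hτ h.le]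
    simp [ind, h, not_lt.2 h.le, h.ne]
  · subst h
    rw [Sx_eq_one hτ le_rfl]
    simp [ind]
  · rw [Sx_eq_exp hτ h.le]
    simp only [ind, not_lt.2 h.le, if_false, Set.indicator_apply, mem_Ioi, h, if_true, h.ne',
      sub_zero, add_zero]
    rw [← exp_add]
    congr 1
    field_simp
    ring

theorem Sx_sub_ind_ae (θ τ : ℝ) (hτ : 0 < τ) :
    (fun z => Sx θ τ z - ind θ z) =ᵐ[volume]
      (Ioi θ).indicator (fun z => exp (θ / τ) * exp ((-(1 / τ)) * z)) := by
  have h : ∀ᵐ z ∂(volume : Measure ℝ), z ≠ θ := by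
    have : (volume : Measure ℝ) {θ} = 0 := Real.volume_singleton
    exact (measure_eq_zero_iff_ae_notMem.1 this).mono (fun z hz => by simpa using hz)
  filter_upwards [h] with z hz
  have := congrFun (Sx_sub_ind_eq θ τ hτ) z
  simp only [Pi.add_apply, hz, if_false, add_zero] at this
  exact this

theorem Sx_sub_ind_integrable (θ τ : ℝ) (hτ : 0 < τ) :
    Integrable (fun z => Sx θ τ z - ind θ z) := by
  refine Integrable.congr ?_ (Sx_sub_ind_ae θ τ hτ).symm
  rw [integrable_indicator_iff measurableSet_Ioi]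
  exact (integrableOn_exp_mul_Ioi (by simpa using hτ) θ).const_mul _

theorem Sx_sub_ind_integral (θ τ : ℝ) (hτ : 0 < τ) :
    ∫ z, (Sx θ τ z - ind θ z) = τ := by
  rw [integral_congr_ae (Sx_sub_ind_ae θ τ hτ), integral_indicator measurableSet_Ioi,
    integral_const_mul, integral_exp_mul_Ioi (by simpa using hτ) θ]
  have : exp (θ / τ) * exp (-(1 / τ) * θ) = 1 := by
    rw [← exp_add]
    have : θ / τ + -(1 / τ) * θ = 0 := by field_simp; ring
    rw [this, exp_zero]
  have hτ' : τ ≠ 0 := hτ.ne'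
  calc exp (θ / τ) * (-exp (-(1 / τ) * θ) / -(1 / τ))
      = (exp (θ / τ) * exp (-(1 / τ) * θ)) * τ := by field_simp
    _ = τ := by rw [this, one_mul]

theorem Sx_anti (θ τ : ℝ) (hτ : 0 < τ) : Antitone (Sx θ τ) := by
  intro x y hxy
  unfold Sx
  refine min_le_min le_rfl (exp_le_exp.2 ?_)
  exact div_le_div_of_nonneg_right (by linarith) hτ.le

theorem log_Sx (θ τ z : ℝ) : log (Sx θ τ z) = min 0 (-(z - θ) / τ) := by
  unfold Sx
  rcases le_total 1 (exp (-(z - θ) / τ)) with h | h
  · rw [min_eq_left h, log_one, min_eq_left]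
    rwa [← exp_zero, exp_le_exp] at h
  · rw [min_eq_right h, log_exp, min_eq_right]
    rwa [← exp_zero, exp_le_exp] at h

theorem Sx_P (θ τ : ℝ) (hτ : 0 < τ) : P (Sx θ τ) (θ + τ) where
  cont := by unfold Sx; fun_prop
  pos := Sx_pos θ τ
  le_one := fun z => min_le_left _ _
  anti := Sx_anti θ τ hτ
  conc := by
    have : (fun z => log (Sx θ τ z)) = (fun _ => (0:ℝ)) ⊓ (fun z => -(z - θ) / τ) := by
      funext z; rw [log_Sx]; rfl
    rw [this]
    refine ConcaveOn.inf (concaveOn_const 0 convex_univ) ?_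
    refine ⟨convex_univ, ?_⟩
    intro x _ y _ a b _ _ hab
    simp only [smul_eq_mul]
    have : θ = a * θ + b * θ := by rw [← add_mul, hab, one_mul]
    apply le_of_eq
    field_simp
    linear_combination θ * hab
  lim_bot := by
    refine tendsto_const_nhds.congr' ?_
    filter_upwards [eventually_le_atBot θ] with z hz
    exact (Sx_eq_one hτ hz).symm
  lim_top := by
    have h1 : Tendsto (fun z : ℝ => exp (-(z - θ) / τ)) atTop (𝓝 0) := by
      refine tendsto_exp_atBot.comp ?_
      refine Tendsto.atBot_div_const hτ ?_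
      refine tendsto_neg_atTop_atBot.comp ?_
      exact tendsto_atTop_add_const_right _ (-θ) tendsto_id
    refine squeeze_zero (fun z => (Sx_pos θ τ z).le) (fun z => min_le_right _ _) h1
  integ := by
    have : (fun z => Sx θ τ z - ind 0 z) =
        fun z => (Sx θ τ z - ind θ z) + (ind θ z - ind 0 z) := by funext z; ring
    rw [this]
    exact (Sx_sub_ind_integrable θ τ hτ).add (ind_sub_ind_integrable θ)
  mean := by
    have : (fun z => Sx θ τ z - ind 0 z) =
        fun z => (Sx θ τ z - ind θ z) + (ind θ z - ind 0 z) := by funext z; ring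
    rw [this, integral_add (Sx_sub_ind_integrable θ τ hτ) (ind_sub_ind_integrable θ),
      Sx_sub_ind_integral θ τ hτ, ind_sub_ind_integral]
    ring

end Crest.Agent.S0423
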