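import Crest.Agent.S0423Aux.PartW
import Crest.Agent.S0423Aux.PartSx
import Crest.Agent.S0423Aux.Calc

/-! # S0423, Part K : the one-parameter extremal inequality -/

set_option autoImplicit false
open MeasureTheory Set Real Filter Topology

namespace Crest.Agent.S0423

open Crest.Agent.S0423Aux in
lemma PartK_integral_eq_Ioi (c τ : ℝ) :
    ∫ u, W u * Sx c τ u = ∫ u in Ioi (0:ℝ), u * exp (-u) * Sx c τ u := by
  rw [← integral_indicator measurableSet_Ioi]
  refine integral_congr_ae (Filter.Eventually.of_forall fun u => ?_)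
  by_cases hu : 0 < u
  · simp [W, hu, indicator]
  · simp [W, hu, indicator]

open Crest.Agent.S0423Aux in
lemma PartK_nonpos {c τ : ℝ} (hτ : 0 < τ) (hc : c ≤ 0) :
    ∫ u, W u * Sx c τ u = exp (c / τ) * (τ ^ 2 / (1 + τ) ^ 2) := by
  rw [PartK_integral_eq_Ioi]
  have hβ : 0 < 1 + 1 / τ := by positivity
  have h1 : ∀ u ∈ Ioi (0:ℝ), u * exp (-u) * Sx c τ u
      = exp (c / τ) * (u * exp (-((1 + 1 / τ) * u))) := by
    intro u hu
    have hu' : 0 < u := hu
    have hle : exp (-(u - c) / τ) ≤ 1 := by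
      rw [Real.exp_le_one_iff]
      apply div_nonpos_of_nonpos_of_nonneg _ hτ.le
      linarith
    unfold Sx
    rw [min_eq_right hle]
    have e1 : exp (-u) * exp (-(u - c) / τ) = exp (c / τ) * exp (-((1 + 1 / τ) * u)) := by
      rw [← Real.exp_add, ← Real.exp_add]; congr 1; field_simp; ring
    calc _ = u * (exp (-u) * exp (-(u - c) / τ)) := by ring
      _ = _ := by rw [e1]; ring
  rw [setIntegral_congr_fun measurableSet_Ioi h1, integral_const_mul, integral_mul_exp_neg_mul hβ]
  congr 1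
  field_simp
  ring

open Crest.Agent.S0423Aux in
lemma PartK_pos {c τ : ℝ} (hτ : 0 < τ) (hc : 0 ≤ c) :
    ∫ u, W u * Sx c τ u = 1 - exp (-c) * ((1 + c) / (1 + τ) + τ / (1 + τ) ^ 2) := by
  rw [PartK_integral_eq_Ioi]
  have hβ : 0 < 1 + 1 / τ := by positivity
  have h1pos : (0:ℝ) < 1 := one_pos
  have hsplit : Ioi (0:ℝ) = Ioc 0 c ∪ Ioi c := (Ioc_union_Ioi_eq_Ioi hc).symm
  have hsub1 : Ioc 0 c ⊆ Ioi (0:ℝ) := fun x hx => hx.1
  have hsub2 : Ioi c ⊆ Ioi (0:ℝ) := fun x hx => lt_of_le_of_lt hc hx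
  have hdisj : Disjoint (Ioc 0 c) (Ioi c) := Ioc_disjoint_Ioi le_rfl
  have hI0 : IntegrableOn (fun u : ℝ => u * exp (-u)) (Ioi 0) := by
    have := integrableOn_mul_exp_neg_mul h1pos
    simpa using this
  have hI0v : ∫ u in Ioi (0:ℝ), u * exp (-u) = 1 := by
    have := integral_mul_exp_neg_mul h1pos
    simpa using this
  have hSxm : Measurable (Sx c τ) := by
    unfold Sx; fun_prop
  have hSx0 : ∀ u, 0 ≤ Sx c τ u := fun u => le_min zero_le_one (exp_pos _).le
  have hSx1 : ∀ u, Sx c τ u ≤ 1 := fun u => min_le_left _ _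
  have hint : IntegrableOn (fun u : ℝ => u * exp (-u) * Sx c τ u) (Ioi 0) := by
    have := Integrable.bdd_mul (c := 1) hI0 hSxm.aestronglyMeasurable
      (Filter.Eventually.of_forall fun u => by
        rw [Real.norm_eq_abs, abs_of_nonneg (hSx0 u)]; exact hSx1 u)
    refine this.congr (Filter.Eventually.of_forall fun u => ?_)
    simp only; ring
  -- tail of the Gamma(2) density
  have htail : ∫ u in Ioi c, u * exp (-u) = exp (-c) * (c + 1) := by
    rw [setIntegral_Ioi_shift]
    have h1 : ∀ s ∈ Ioi (0:ℝ), (c + s) * exp (-(c + s))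
        = exp (-c) * c * exp (-(1 * s)) + exp (-c) * (s * exp (-(1 * s))) := by
      intro s _
      rw [neg_add, Real.exp_add, one_mul]; ring
    rw [setIntegral_congr_fun measurableSet_Ioi h1, integral_add
      ((integrableOn_exp_neg_mul h1pos).const_mul _) ((integrableOn_mul_exp_neg_mul h1pos).const_mul _),
      integral_const_mul, integral_const_mul, integral_exp_neg_mul h1pos,
      integral_mul_exp_neg_mul h1pos]
    ring
  have hA : ∫ u in Ioc 0 c, u * exp (-u) * Sx c τ u = 1 - exp (-c) * (c + 1) := by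
    have h1 : ∫ u in Ioc 0 c, u * exp (-u) * Sx c τ u = ∫ u in Ioc 0 c, u * exp (-u) := by
      refine setIntegral_congr_fun measurableSet_Ioc (fun u hu => ?_)
      have hge : 1 ≤ exp (-(u - c) / τ) := by
        rw [Real.one_le_exp_iff]
        apply div_nonneg _ hτ.le
        linarith [hu.2]
      simp only [Sx, min_eq_left hge, mul_one]
    have h2 : ∫ u in Ioi (0:ℝ), u * exp (-u)
        = (∫ u in Ioc 0 c, u * exp (-u)) + ∫ u in Ioi c, u * exp (-u) := by
      rw [hsplit, setIntegral_union hdisj measurableSet_Ioi (hI0.mono_set hsub1)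
        (hI0.mono_set hsub2)]
    rw [h1]
    linarith
  have hB : ∫ u in Ioi c, u * exp (-u) * Sx c τ u
      = exp (-c) * (c * (1 / (1 + 1 / τ)) + 1 / (1 + 1 / τ) ^ 2) := by
    rw [setIntegral_Ioi_shift]
    have h1 : ∀ s ∈ Ioi (0:ℝ), (c + s) * exp (-(c + s)) * Sx c τ (c + s)
        = exp (-c) * c * exp (-((1 + 1 / τ) * s)) + exp (-c) * (s * exp (-((1 + 1 / τ) * s))) := by
      intro s hs
      have hs' : 0 < s := hs
      have hle : exp (-(c + s - c) / τ) ≤ 1 := by
        rw [Real.exp_le_one_iff]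
        apply div_nonpos_of_nonpos_of_nonneg _ hτ.le
        linarith
      unfold Sx
      rw [min_eq_right hle]
      have e1 : exp (-(c + s)) * exp (-(c + s - c) / τ) = exp (-c) * exp (-((1 + 1 / τ) * s)) := by
        rw [← Real.exp_add, ← Real.exp_add]; congr 1; field_simp; ring
      calc _ = (c + s) * (exp (-(c + s)) * exp (-(c + s - c) / τ)) := by ring
        _ = _ := by rw [e1]; ring
    rw [setIntegral_congr_fun measurableSet_Ioi h1, integral_add
      ((integrableOn_exp_neg_mul hβ).const_mul _) ((integrableOn_mul_exp_neg_mul hβ).const_mul _),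
      integral_const_mul, integral_const_mul, integral_exp_neg_mul hβ,
      integral_mul_exp_neg_mul hβ]
    ring
  rw [hsplit, setIntegral_union hdisj measurableSet_Ioi (hint.mono_set hsub1)
    (hint.mono_set hsub2), hA, hB]
  field_simp
  ring

open Crest.Agent.S0423Aux Crest.AlgGeometry in
/-- `E[h(θ + τ X)] ≥ c*` when the mean `θ + τ` equals `4/3`. -/
theorem K_ge (τ : ℝ) (hτ : 0 < τ) : cstar ≤ ∫ u, W u * Sx (4 / 3 - τ) τ u := by
  have key := T_g_le hτ
  unfold cstar
  rcases le_total (4/3) τ with h | h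
  · rw [PartK_nonpos hτ (by linarith)]
    rw [T_g_of_nonpos hτ (by linarith)] at key
    linarith
  · rw [PartK_pos hτ (by linarith)]
    rw [T_g_of_nonneg hτ (by linarith)] at key
    linarith

end Crest.Agent.S0423
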