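import Crest.Agent.S0423Aux.PartT1

/-! # S0423, Part T2 : the operator `T b` preserves the class `P` -/

set_option autoImplicit false
open MeasureTheory Set Real Filter Topology

namespace Crest.Agent.S0423

theorem P.measurable {ψ : ℝ → ℝ} {m : ℝ} (h : P ψ m) : Measurable ψ := h.cont.measurable

theorem P.bounded {ψ : ℝ → ℝ} {m : ℝ} (h : P ψ m) : ∀ y, |ψ y| ≤ 1 := fun y => by
  rw [abs_of_pos (h.pos y)]; exact h.le_one y

/-- four point inequality for log-concave functions. -/
theorem four_point {ψ : ℝ → ℝ} (hpos : ∀ z, 0 < ψ z) (hc : ConcaveOn ℝ univ (fun z => log (ψ z)))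
    {z z' d : ℝ} (hz : z ≤ z') (hd : 0 ≤ d) : ψ z * ψ (z' + d) ≤ ψ (z + d) * ψ z' := by
  rcases eq_or_lt_of_le (show (0:ℝ) ≤ z' + d - z by linarith) with h0 | hs
  · have h1 : z' = z := by linarith
    have h2 : d = 0 := by linarith
    subst h1 h2
    simp
  · set s := z' + d - z with hsdef
    set l := d / s with hl
    have hl0 : 0 ≤ l := div_nonneg hd hs.le
    have hl1 : l ≤ 1 := by rw [hl, div_le_one hs]; linarith
    have hls : l * s = d := by rw [hl]; field_simp
    have e1 : (1 - l) * z + l * (z' + d) = z + d := by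
      have : (1 - l) * z + l * (z' + d) = z + l * s := by rw [hsdef]; ring
      rw [this, hls]
    have e2 : l * z + (1 - l) * (z' + d) = z' := by
      have : l * z + (1 - l) * (z' + d) = z' + d - l * s := by rw [hsdef]; ring
      rw [this, hls]; ring
    have c1 := hc.2 (mem_univ z) (mem_univ (z' + d)) (sub_nonneg.2 hl1) hl0 (by ring)
    have c2 := hc.2 (mem_univ z) (mem_univ (z' + d)) hl0 (sub_nonneg.2 hl1) (by ring)
    simp only [smul_eq_mul] at c1 c2
    rw [e1] at c1
    rw [e2] at c2
    have hsum : log (ψ z) + log (ψ (z' + d)) ≤ log (ψ (z + d)) + log (ψ z') := by nlinarith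
    rw [← log_mul (hpos _).ne' (hpos _).ne', ← log_mul (hpos _).ne' (hpos _).ne'] at hsum
    exact (log_le_log_iff (mul_pos (hpos _) (hpos _)) (mul_pos (hpos _) (hpos _))).1 hsum

theorem PartT2_cross_pos {b : ℝ} (hb : 0 < b) {ψ : ℝ → ℝ} {m : ℝ} (h : P ψ m) {z z' : ℝ}
    (hz : z ≤ z') : T b ψ z' * ψ z ≤ T b ψ z * ψ z' := by
  unfold T
  rw [← integral_mul_const, ← integral_mul_const]
  refine setIntegral_mono_on ?_ ?_ measurableSet_Ioi ?_
  · exact (T_integrableOn b ψ h.measurable 1 h.bounded z' 0).mul_const _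
  · exact (T_integrableOn b ψ h.measurable 1 h.bounded z 0).mul_const _
  · intro t ht
    have ht0 : (0:ℝ) < t := ht
    have := four_point h.pos h.conc hz (mul_nonneg hb.le ht0.le)
    have he := (exp_pos (-t)).le
    nlinarith [mul_le_mul_of_nonneg_right this he]

theorem PartT2_cross_neg {b : ℝ} (hb : b < 0) {ψ : ℝ → ℝ} {m : ℝ} (h : P ψ m) {z z' : ℝ}
    (hz : z ≤ z') : T b ψ z * ψ z' ≤ T b ψ z' * ψ z := by
  unfold T
  rw [← integral_mul_const, ← integral_mul_const]
  refine setIntegral_mono_on ?_ ?_ measurableSet_Ioi ?_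
  · exact (T_integrableOn b ψ h.measurable 1 h.bounded z 0).mul_const _
  · exact (T_integrableOn b ψ h.measurable 1 h.bounded z' 0).mul_const _
  · intro t ht
    have ht0 : (0:ℝ) < t := ht
    have := four_point h.pos h.conc (z := z + b * t) (z' := z' + b * t) (d := -(b * t))
      (by linarith) (by nlinarith)
    have he := (exp_pos (-t)).le
    rw [show z' + b * t + -(b * t) = z' by ring, show z + b * t + -(b * t) = z by ring] at this
    nlinarith [mul_le_mul_of_nonneg_right this he]

theorem PartT2_hasDerivAt_log {b : ℝ} (hb : b ≠ 0) {ψ : ℝ → ℝ} {m : ℝ} (h : P ψ m) (z : ℝ) :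
    HasDerivAt (fun z => log (T b ψ z)) ((1 - ψ z / T b ψ z) / b) z := by
  have hpos := T_pos b ψ h.measurable 1 h.bounded h.pos z
  have h1 := (T_hasDerivAt b hb ψ h.cont 1 h.bounded z).log hpos.ne'
  convert h1 using 1
  field_simp

theorem T_conc (b : ℝ) (ψ : ℝ → ℝ) (m : ℝ) (h : P ψ m) :
    ConcaveOn ℝ univ (fun z => log (T b ψ z)) := by
  rcases eq_or_ne b 0 with rfl | hb
  · rw [T_zero]; exact h.conc
  · apply Antitone.concaveOn_univ_of_deriv
    · intro z; exact (PartT2_hasDerivAt_log hb h z).differentiableAt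
    · intro z z' hz
      rw [(PartT2_hasDerivAt_log hb h z).deriv, (PartT2_hasDerivAt_log hb h z').deriv]
      have hp := T_pos b ψ h.measurable 1 h.bounded h.pos z
      have hp' := T_pos b ψ h.measurable 1 h.bounded h.pos z'
      rcases lt_or_gt_of_ne hb with hneg | hpos
      · have hc := PartT2_cross_neg hneg h hz
        have : ψ z' / T b ψ z' ≤ ψ z / T b ψ z := by
          rw [div_le_div_iff₀ hp' hp]; linarith
        rw [div_le_div_right_of_neg hneg]
        linarith
      · have hc := PartT2_cross_pos hpos h hz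
        have : ψ z / T b ψ z ≤ ψ z' / T b ψ z' := by
          rw [div_le_div_iff₀ hp hp']; linarith
        rw [div_le_div_iff_of_pos_right hpos]
        linarith

theorem PartT2_anti (b : ℝ) {ψ : ℝ → ℝ} {m : ℝ} (h : P ψ m) : Antitone (T b ψ) := by
  intro y y' hy
  unfold T
  refine setIntegral_mono_on ?_ ?_ measurableSet_Ioi ?_
  · exact T_integrableOn b ψ h.measurable 1 h.bounded y' 0
  · exact T_integrableOn b ψ h.measurable 1 h.bounded y 0
  · intro t _
    exact mul_le_mul_of_nonneg_right (h.anti (by linarith)) (exp_pos _).le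

theorem PartT2_deriv_nonpos {b : ℝ} (hb : b ≠ 0) {ψ : ℝ → ℝ} {m : ℝ} (h : P ψ m) (z : ℝ) :
    (T b ψ z - ψ z) / b ≤ 0 := by
  rw [← (T_hasDerivAt b hb ψ h.cont 1 h.bounded z).deriv]
  exact (PartT2_anti b h).deriv_nonpos

theorem PartT2_deriv_integrable {b : ℝ} (hb : b ≠ 0) {ψ : ℝ → ℝ} {m : ℝ} (h : P ψ m) :
    Integrable (fun z => (T b ψ z - ψ z) / b) := by
  have hd := T_hasDerivAt b hb ψ h.cont 1 h.bounded
  have htop := T_tendsto_atTop b ψ h.measurable 1 h.bounded 0 h.lim_top
  have hbot := T_tendsto_atBot b ψ h.measurable 1 h.bounded 1 h.lim_bot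
  have h1 : IntegrableOn (fun z => (T b ψ z - ψ z) / b) (Ioi 0) :=
    integrableOn_Ioi_deriv_of_nonpos' (fun x _ => hd x) (fun x _ => PartT2_deriv_nonpos hb h x) htop
  have h2 : IntegrableOn (fun z => (T b ψ z - ψ z) / b) (Iic 0) := by
    have h3 : IntegrableOn (fun z => -((T b ψ (-z) - ψ (-z)) / b)) (Ioi 0) := by
      refine integrableOn_Ioi_deriv_of_nonneg' (g := fun z => T b ψ (-z)) (l := 1) (fun x _ => ?_)
        (fun x _ => ?_) ?_
      · have := (hd (-x)).comp x (hasDerivAt_neg x)
        simpa [Function.comp_def] using this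
      · have := PartT2_deriv_nonpos hb h (-x)
        linarith
      · exact hbot.comp tendsto_neg_atTop_atBot
    rw [← Measure.map_neg_eq_self (volume : Measure ℝ)]
    let me : MeasurableEmbedding fun x : ℝ => -x := (Homeomorph.neg ℝ).measurableEmbedding
    rw [me.integrableOn_map_iff]
    simp_rw [Function.comp_def, neg_preimage, neg_Iic, neg_zero]
    have h4 : IntegrableOn (fun x => (T b ψ (-x) - ψ (-x)) / b) (Ioi 0) := by
      have := h3.fun_neg
      simpa only [neg_neg] using this
    exact Iff.mpr integrableOn_Ici_iff_integrableOn_Ioi h4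
  have := h2.union h1
  rwa [Iic_union_Ioi, integrableOn_univ] at this

theorem PartT2_sub_integrable (b : ℝ) {ψ : ℝ → ℝ} {m : ℝ} (h : P ψ m) :
    Integrable (fun z => T b ψ z - ψ z) := by
  rcases eq_or_ne b 0 with rfl | hb
  · rw [T_zero]; simp
  · have := (PartT2_deriv_integrable hb h).mul_const b
    refine this.congr (Eventually.of_forall fun z => ?_)
    simp only
    field_simp

theorem PartT2_sub_integral (b : ℝ) {ψ : ℝ → ℝ} {m : ℝ} (h : P ψ m) :
    ∫ z, (T b ψ z - ψ z) = -b := by
  rcases eq_or_ne b 0 with rfl | hb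
  · rw [T_zero]; simp
  · have hd := T_hasDerivAt b hb ψ h.cont 1 h.bounded
    have htop := T_tendsto_atTop b ψ h.measurable 1 h.bounded 0 h.lim_top
    have hbot := T_tendsto_atBot b ψ h.measurable 1 h.bounded 1 h.lim_bot
    have h1 := integral_of_hasDerivAt_of_tendsto hd (PartT2_deriv_integrable hb h) hbot htop
    rw [integral_div] at h1
    field_simp at h1
    linarith

theorem T_integ (b : ℝ) (ψ : ℝ → ℝ) (m : ℝ) (h : P ψ m) :
    Integrable (fun z => T b ψ z - ind 0 z) := by
  have := (PartT2_sub_integrable b h).add h.integ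
  refine this.congr (Eventually.of_forall fun z => ?_)
  simp

theorem T_mean (b : ℝ) (ψ : ℝ → ℝ) (m : ℝ) (h : P ψ m) :
    ∫ z, (T b ψ z - ind 0 z) = m - b := by
  have h1 := integral_add (PartT2_sub_integrable b h) h.integ
  rw [PartT2_sub_integral b h, h.mean] at h1
  rw [show m - b = -b + m by ring, ← h1]
  congr 1
  ext z
  ring

theorem T_P (b : ℝ) (ψ : ℝ → ℝ) (m : ℝ) (h : P ψ m) : P (T b ψ) (m - b) where
  cont := by
    rcases eq_or_ne b 0 with rfl | hb
    · rw [T_zero]; exact h.cont
    · exact continuous_iff_continuousAt.2 fun z =>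
        (T_hasDerivAt b hb ψ h.cont 1 h.bounded z).continuousAt
  pos := T_pos b ψ h.measurable 1 h.bounded h.pos
  le_one := fun z => (le_abs_self _).trans (T_bounded b ψ h.measurable 1 h.bounded z)
  anti := PartT2_anti b h
  conc := T_conc b ψ m h
  lim_bot := T_tendsto_atBot b ψ h.measurable 1 h.bounded 1 h.lim_bot
  lim_top := T_tendsto_atTop b ψ h.measurable 1 h.bounded 0 h.lim_top
  integ := T_integ b ψ m h
  mean := T_mean b ψ m h

end Crest.Agent.S0423
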