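import Crest.Agent.S0423Aux.PartW
import Crest.Agent.S0423Aux.PartSx
import Crest.Agent.S0423Aux.PartK
import Crest.Agent.S0423Aux.PartT2

/-! # S0423, the chord argument -/

set_option autoImplicit false
open MeasureTheory Set Real Filter Topology

namespace Crest.Agent.S0423

theorem three_point {f : ℝ → ℝ} (hf : ConcaveOn ℝ univ f) {x y z : ℝ} (hxy : x ≤ y) (hyz : y ≤ z) :
    f x * (z - y) + f z * (y - x) ≤ f y * (z - x) := by
  rcases eq_or_lt_of_le hxy with rfl | hxy'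
  · simp
  rcases eq_or_lt_of_le hyz with rfl | hyz'
  · simp
  have := hf.slope_anti_adjacent (mem_univ x) (mem_univ z) hxy' hyz'
  rw [div_le_div_iff₀ (by linarith) (by linarith)] at this
  nlinarith

/-- `L = -log ψ`. -/
noncomputable def LL (ψ : ℝ → ℝ) (z : ℝ) : ℝ := -log (ψ z)

section
variable {ψ : ℝ → ℝ} {m : ℝ}

theorem LL_nonneg (h : P ψ m) (z : ℝ) : 0 ≤ LL ψ z := by
  unfold LL
  have := log_nonpos (h.pos z).le (h.le_one z)
  linarith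

theorem LL_mono (h : P ψ m) : Monotone (LL ψ) := by
  intro x y hxy
  unfold LL
  have := log_le_log (h.pos y) (h.anti hxy)
  linarith

theorem LL_cont (h : P ψ m) : Continuous (LL ψ) := by
  unfold LL
  exact (h.cont.log (fun z => (h.pos z).ne')).neg

theorem psi_eq_exp (h : P ψ m) (z : ℝ) : ψ z = exp (-LL ψ z) := by
  unfold LL
  rw [neg_neg, exp_log (h.pos z)]

theorem LL_three_point (h : P ψ m) {x y z : ℝ} (hxy : x ≤ y) (hyz : y ≤ z) :
    LL ψ y * (z - x) ≤ LL ψ x * (z - y) + LL ψ z * (y - x) := by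
  have := three_point h.conc hxy hyz
  unfold LL
  nlinarith

theorem LL_tendsto_atBot (h : P ψ m) : Tendsto (LL ψ) atBot (𝓝 0) := by
  unfold LL
  have := (continuousAt_log (one_ne_zero)).tendsto.comp h.lim_bot
  simpa using this.neg

theorem LL_tendsto_atTop (h : P ψ m) : Tendsto (LL ψ) atTop atTop := by
  unfold LL
  have h1 : Tendsto ψ atTop (𝓝[>] 0) :=
    tendsto_nhdsWithin_iff.2 ⟨h.lim_top, Eventually.of_forall fun z => h.pos z⟩
  have := tendsto_log_nhdsGT_zero.comp h1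
  exact tendsto_neg_atBot_atTop.comp this

/-- degenerate chords only occur where `ψ = 1`. -/
theorem LL_degenerate (h : P ψ m) {p q : ℝ} (hpq : p < q) (he : LL ψ p = LL ψ q) : LL ψ p = 0 := by
  -- for `z ≤ p`, convexity gives `L z ≥ L p`
  have h1 : ∀ z, z ≤ p → LL ψ p ≤ LL ψ z := by
    intro z hz
    have := LL_three_point h hz hpq.le
    rw [← he] at this
    nlinarith
  have h2 : ∀ᶠ z in atBot, LL ψ p ≤ LL ψ z := (eventually_le_atBot p).mono h1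
  exact le_antisymm (ge_of_tendsto (LL_tendsto_atBot h) h2) (LL_nonneg h p)

/-- scale of the chord exponential. -/
noncomputable def ctau (ψ : ℝ → ℝ) (p q : ℝ) : ℝ := (q - p) / (LL ψ q - LL ψ p)

/-- shift of the chord exponential. -/
noncomputable def cth (ψ : ℝ → ℝ) (p q : ℝ) : ℝ := p - ctau ψ p q * LL ψ p

theorem ctau_pos {p q : ℝ} (hpq : p < q) (hL : LL ψ p < LL ψ q) : 0 < ctau ψ p q := by
  unfold ctau
  exact div_pos (by linarith) (by linarith)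

theorem chord_exponent {p q : ℝ} (hpq : p < q) (hL : LL ψ p < LL ψ q) (z : ℝ) :
    -(z - cth ψ p q) / ctau ψ p q = -(LL ψ p + (LL ψ q - LL ψ p) * (z - p) / (q - p)) := by
  unfold cth ctau
  have h1 : q - p ≠ 0 := by linarith
  have h2 : LL ψ q - LL ψ p ≠ 0 := by linarith
  field_simp
  ring

theorem chord_le (h : P ψ m) {p q : ℝ} (hpq : p < q) (hL : LL ψ p < LL ψ q) {z : ℝ}
    (hz1 : p ≤ z) (hz2 : z ≤ q) : Sx (cth ψ p q) (ctau ψ p q) z ≤ ψ z := by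
  unfold Sx
  refine (min_le_right _ _).trans ?_
  rw [psi_eq_exp h z, chord_exponent hpq hL]
  apply exp_le_exp.2
  have := LL_three_point h hz1 hz2
  have hqp : 0 < q - p := by linarith
  rw [neg_le_neg_iff, ← sub_le_iff_le_add', le_div_iff₀ hqp]
  nlinarith

theorem chord_ge (h : P ψ m) {p q : ℝ} (hpq : p < q) (hL : LL ψ p < LL ψ q) {z : ℝ}
    (hz : z ≤ p ∨ q ≤ z) : ψ z ≤ Sx (cth ψ p q) (ctau ψ p q) z := by
  unfold Sx
  refine le_min (h.le_one z) ?_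
  rw [psi_eq_exp h z, chord_exponent hpq hL]
  apply exp_le_exp.2
  have hqp : 0 < q - p := by linarith
  rw [neg_le_neg_iff, ← le_sub_iff_add_le', div_le_iff₀ hqp]
  rcases hz with hz | hz
  · have := LL_three_point h hz hpq.le
    nlinarith
  · have := LL_three_point h hpq.le hz
    nlinarith

theorem chord_diff_integrable (h : P ψ m) {θ τ : ℝ} (hτ : 0 < τ) :
    Integrable (fun z => ψ z - Sx θ τ z) := by
  refine (h.integ.sub (Sx_P θ τ hτ).integ).congr (Eventually.of_forall fun z => ?_)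
  simp

theorem chord_diff_integral (h : P ψ m) {θ τ : ℝ} (hτ : 0 < τ) :
    ∫ z, (ψ z - Sx θ τ z) = m - (θ + τ) := by
  rw [← h.mean, ← (Sx_P θ τ hτ).mean, ← integral_sub h.integ (Sx_P θ τ hτ).integ]
  congr 1; ext z; ring

theorem chord_main (h : P ψ m) {ρ : ℝ} (hρ : 0 < ρ) (hL : LL ψ (u1 ρ) < LL ψ (u1 ρ + ρ)) :
    (∫ u, W u * Sx (cth ψ (u1 ρ) (u1 ρ + ρ)) (ctau ψ (u1 ρ) (u1 ρ + ρ)) u)
      + lam ρ * (m - (cth ψ (u1 ρ) (u1 ρ + ρ) + ctau ψ (u1 ρ) (u1 ρ + ρ))) ≤ ∫ u, W u * ψ u := by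
  have hpq : u1 ρ < u1 ρ + ρ := by linarith
  have hτ := ctau_pos hpq hL
  set θ := cth ψ (u1 ρ) (u1 ρ + ρ) with hθdef
  set τ := ctau ψ (u1 ρ) (u1 ρ + ρ) with hτdef
  have hS := Sx_P θ τ hτ
  have hDi := chord_diff_integrable h (θ := θ) hτ
  have hD := chord_diff_integral h (θ := θ) hτ
  have hWψ := W_mul_integrable ψ h.measurable 1 h.bounded
  have hWS := W_mul_integrable (Sx θ τ) hS.measurable 1 hS.bounded
  have key : 0 ≤ ∫ z, (W z - lam ρ) * (ψ z - Sx θ τ z) := by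
    refine integral_nonneg (fun z => ?_)
    by_cases hz : u1 ρ ≤ z ∧ z ≤ u1 ρ + ρ
    · exact mul_nonneg (sub_nonneg.2 (W_ge_lam hρ z hz.1 hz.2))
        (sub_nonneg.2 (chord_le h hpq hL hz.1 hz.2))
    · have hz' : z ≤ u1 ρ ∨ u1 ρ + ρ ≤ z := by
        by_contra hcon
        push Not at hcon
        exact hz ⟨hcon.1.le, hcon.2.le⟩
      exact mul_nonneg_of_nonpos_of_nonpos (sub_nonpos.2 (W_le_lam hρ z hz'))
        (sub_nonpos.2 (chord_ge h hpq hL hz'))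
  have expand : ∫ z, (W z - lam ρ) * (ψ z - Sx θ τ z)
      = (∫ z, W z * ψ z) - (∫ z, W z * Sx θ τ z) - lam ρ * ∫ z, (ψ z - Sx θ τ z) := by
    have e : (fun z => (W z - lam ρ) * (ψ z - Sx θ τ z))
        = fun z => (W z * ψ z - W z * Sx θ τ z) - lam ρ * (ψ z - Sx θ τ z) := by
      ext z; ring
    have hsub : Integrable (fun z => W z * ψ z - W z * Sx θ τ z) := hWψ.sub hWS
    rw [e, integral_sub hsub (hDi.const_mul _), integral_sub hWψ hWS,
      integral_const_mul]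
  rw [expand, hD] at key
  linarith

theorem chord_mean_le (h : P ψ m) {p q : ℝ} (hpq : p < q) (hL : LL ψ p < LL ψ q) :
    m - (cth ψ p q + ctau ψ p q) ≤ q - p := by
  have hτ := ctau_pos hpq hL
  rw [← chord_diff_integral h (θ := cth ψ p q) hτ]
  have h1 : ∫ z, (Icc p q).indicator (fun _ => (1:ℝ)) z = q - p := by
    rw [integral_indicator measurableSet_Icc]
    simp [hpq.le]
  rw [← h1]
  refine integral_mono (chord_diff_integrable h hτ)
    ((integrable_indicator_iff measurableSet_Icc).2 (by simp)) (fun z => ?_)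
  by_cases hz : z ∈ Icc p q
  · simp only [indicator_of_mem hz]
    have := h.le_one z
    have := (Sx_P (cth ψ p q) _ hτ).pos z
    linarith
  · simp only [indicator_of_notMem hz]
    have hz' : z ≤ p ∨ q ≤ z := by
      by_contra hcon
      push Not at hcon
      exact hz ⟨hcon.1.le, hcon.2.le⟩
    have := chord_ge h hpq hL hz'
    linarith

/-- the function whose sign is the sign of `mean (chord exponential) - 4/3`. -/
noncomputable def EE (ψ : ℝ → ℝ) (ρ : ℝ) : ℝ :=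
  (u1 ρ - 4 / 3) * (LL ψ (u1 ρ + ρ) - LL ψ (u1 ρ)) + ρ * (1 - LL ψ (u1 ρ))

theorem EE_eq {ρ : ℝ} (hL : LL ψ (u1 ρ) < LL ψ (u1 ρ + ρ)) :
    EE ψ ρ = (LL ψ (u1 ρ + ρ) - LL ψ (u1 ρ)) *
      (cth ψ (u1 ρ) (u1 ρ + ρ) + ctau ψ (u1 ρ) (u1 ρ + ρ) - 4 / 3) := by
  unfold EE cth ctau
  have h2 : LL ψ (u1 ρ + ρ) - LL ψ (u1 ρ) ≠ 0 := by linarith
  field_simp
  ring

theorem EE_continuousOn (h : P ψ m) : ContinuousOn (EE ψ) (Ioi 0) := by
  unfold EE
  have hc := (LL_cont h).continuousOn (s := univ)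
  have h1 : ContinuousOn (fun ρ => LL ψ (u1 ρ)) (Ioi 0) :=
    (LL_cont h).comp_continuousOn u1_continuousOn
  have h2 : ContinuousOn (fun ρ => LL ψ (u1 ρ + ρ)) (Ioi 0) :=
    (LL_cont h).comp_continuousOn (u1_continuousOn.add continuousOn_id)
  exact ((u1_continuousOn.sub continuousOn_const).mul (h2.sub h1)).add
    (continuousOn_id.mul (continuousOn_const.sub h1))

theorem EE_degenerate (h : P ψ m) {ρ : ℝ} (hρ : 0 < ρ) (he : LL ψ (u1 ρ) = LL ψ (u1 ρ + ρ)) :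
    EE ψ ρ = ρ := by
  have h0 := LL_degenerate h (by linarith : u1 ρ < u1 ρ + ρ) he
  unfold EE
  rw [← he, h0]; ring

theorem LL_lt_or_eq (h : P ψ m) {ρ : ℝ} (hρ : 0 < ρ) :
    LL ψ (u1 ρ) < LL ψ (u1 ρ + ρ) ∨ LL ψ (u1 ρ) = LL ψ (u1 ρ + ρ) :=
  (lt_or_eq_of_le (LL_mono h (by linarith : u1 ρ ≤ u1 ρ + ρ)))

theorem W_Sx_mono {θ θ' τ : ℝ} (hτ : 0 < τ) (hθ : θ ≤ θ') :
    ∫ u, W u * Sx θ τ u ≤ ∫ u, W u * Sx θ' τ u := by
  have hS := Sx_P θ τ hτ
  have hS' := Sx_P θ' τ hτ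
  refine integral_mono (W_mul_integrable _ hS.measurable 1 hS.bounded)
    (W_mul_integrable _ hS'.measurable 1 hS'.bounded) (fun u => ?_)
  exact mul_le_mul_of_nonneg_left (Sx_mono_theta hτ hθ u) (W_nonneg u)

theorem chord_caseA (h : P ψ m) (hm : 4 / 3 < m) {ρ : ℝ} (hρ : 0 < ρ) (hE : EE ψ ρ = 0) :
    cstar ≤ ∫ u, W u * ψ u := by
  rcases LL_lt_or_eq h hρ with hL | he
  · have hτ := ctau_pos (by linarith : u1 ρ < u1 ρ + ρ) hL
    have h1 := EE_eq hL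
    rw [hE] at h1
    have h2 : cth ψ (u1 ρ) (u1 ρ + ρ) + ctau ψ (u1 ρ) (u1 ρ + ρ) - 4 / 3 = 0 := by
      rcases mul_eq_zero.1 h1.symm with h3 | h3
      · linarith
      · exact h3
    have h3 := chord_main h hρ hL
    have h4 : cth ψ (u1 ρ) (u1 ρ + ρ) = 4 / 3 - ctau ψ (u1 ρ) (u1 ρ + ρ) := by linarith
    have h5 := K_ge _ hτ
    rw [← h4] at h5
    have h6 : 0 ≤ lam ρ * (m - (cth ψ (u1 ρ) (u1 ρ + ρ) + ctau ψ (u1 ρ) (u1 ρ + ρ))) :=
      mul_nonneg (lam_pos hρ).le (by linarith)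
    linarith
  · rw [EE_degenerate h hρ he] at hE
    linarith

theorem EE_pos_small (h : P ψ m) {ρ : ℝ} (hρ : 0 < ρ) (hρm : ρ < m - 4 / 3) : 0 < EE ψ ρ := by
  rcases LL_lt_or_eq h hρ with hL | he
  · rw [EE_eq hL]
    have := chord_mean_le h (by linarith : u1 ρ < u1 ρ + ρ) hL
    exact mul_pos (by linarith) (by linarith)
  · rw [EE_degenerate h hρ he]; exact hρ

theorem chord_caseB (h : P ψ m) (hm : 4 / 3 < m) (hE : ∀ ρ, 0 < ρ → 0 < EE ψ ρ) :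
    cstar ≤ ∫ u, W u * ψ u := by
  refine le_of_forall_pos_le_add ?_
  intro ε hε
  have ev := ((LL_tendsto_atTop h).eventually_ge_atTop (LL ψ 1 + 1)).and
    ((eventually_ge_atTop (1:ℝ)).and (eventually_ge_atTop (12 / ε)))
  obtain ⟨ρ, hρ1, hρ2, hρ3⟩ := ev.exists
  have hρ : 0 < ρ := by linarith
  have hp1 : LL ψ (u1 ρ) ≤ LL ψ 1 := LL_mono h (u1_lt_one hρ).le
  have hq1 : LL ψ ρ ≤ LL ψ (u1 ρ + ρ) := LL_mono h (by linarith [u1_pos hρ])
  have hL1 : LL ψ (u1 ρ) + 1 ≤ LL ψ (u1 ρ + ρ) := by linarith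
  have hL : LL ψ (u1 ρ) < LL ψ (u1 ρ + ρ) := by linarith
  have hτ := ctau_pos (by linarith : u1 ρ < u1 ρ + ρ) hL
  have hτρ : ctau ψ (u1 ρ) (u1 ρ + ρ) ≤ ρ := by
    unfold ctau
    rw [div_le_iff₀ (by linarith)]
    nlinarith
  have h1 := EE_eq hL
  have h2 : 0 < cth ψ (u1 ρ) (u1 ρ + ρ) + ctau ψ (u1 ρ) (u1 ρ + ρ) - 4 / 3 := by
    have := hE ρ hρ
    rw [h1] at this
    exact (pos_iff_pos_of_mul_pos this).1 (by linarith)
  have h3 := chord_main h hρ hL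
  have h5 := (K_ge _ hτ).trans (W_Sx_mono hτ
    (by linarith : 4 / 3 - ctau ψ (u1 ρ) (u1 ρ + ρ) ≤ cth ψ (u1 ρ) (u1 ρ + ρ)))
  have h6 : cth ψ (u1 ρ) (u1 ρ + ρ) + ctau ψ (u1 ρ) (u1 ρ + ρ) ≤ 2 * ρ := by
    have e : cth ψ (u1 ρ) (u1 ρ + ρ) + ctau ψ (u1 ρ) (u1 ρ + ρ)
        = u1 ρ + ctau ψ (u1 ρ) (u1 ρ + ρ) * (1 - LL ψ (u1 ρ)) := by
      unfold cth; ring
    rw [e]
    have := LL_nonneg h (u1 ρ)
    have := u1_lt_one hρ
    nlinarith
  have h7 : lam ρ * (2 * ρ) ≤ ε := by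
    have := lam_mul_le hρ
    have h8 : 6 / ρ ≤ ε / 2 := by
      rw [div_le_iff₀ hρ]
      rw [div_le_iff₀ hε] at hρ3
      linarith
    linarith
  have h9 : lam ρ * (cth ψ (u1 ρ) (u1 ρ + ρ) + ctau ψ (u1 ρ) (u1 ρ + ρ)) ≤ lam ρ * (2 * ρ) :=
    mul_le_mul_of_nonneg_left h6 (lam_pos hρ).le
  have h10 : 0 ≤ lam ρ * m := mul_nonneg (lam_pos hρ).le (by linarith)
  nlinarith

theorem chord (ψ : ℝ → ℝ) (m : ℝ) (h : P ψ m) (hm : 4 / 3 < m) : cstar ≤ Q ψ 0 := by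
  have hQ : Q ψ 0 = ∫ u, W u * ψ u := by unfold Q; simp
  rw [hQ]
  by_cases hex : ∃ ρ, 0 < ρ ∧ EE ψ ρ = 0
  · obtain ⟨ρ, hρ, hE⟩ := hex
    exact chord_caseA h hm hρ hE
  · refine chord_caseB h hm ?_
    intro ρ₁ hρ₁
    by_contra hneg
    push Not at hneg
    set ρ₀ := (m - 4 / 3) / 2 with hρ₀def
    have hρ₀ : 0 < ρ₀ := by rw [hρ₀def]; linarith
    have hpos := EE_pos_small h hρ₀ (by rw [hρ₀def]; linarith)
    have hsub : uIcc ρ₀ ρ₁ ⊆ Ioi 0 := by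
      intro x hx
      have := hx.1
      exact lt_of_lt_of_le (lt_min hρ₀ hρ₁) this
    have hivt := intermediate_value_uIcc ((EE_continuousOn h).mono hsub)
    have h0 : (0:ℝ) ∈ uIcc (EE ψ ρ₀) (EE ψ ρ₁) := by
      rw [uIcc_of_ge (by linarith)]
      exact ⟨hneg, hpos.le⟩
    obtain ⟨ρ, hρmem, hρE⟩ := hivt h0
    exact hex ⟨ρ, hsub hρmem, hρE⟩

end

end Crest.Agent.S0423
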