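import Mathlib
import Crest.Prelude.Def_TruncExpWeight

/-!
# S0423: basic definitions

`X₁,…,X_N` iid mean-one exponentials.  `II N a φ = E[φ(∑ aᵢ Xᵢ)]`, `T b φ y = E[φ(y + b X)]`,
`W` the Gamma(2) density, `Q ψ y = ∫ W(u) ψ(u - y) du`, `ind c` the indicator of `(-∞, c)`,
`Sx θ τ` the survival function of `θ + τ X`, and `P ψ m` says that `ψ` is a positive continuous
log-concave survival function with mean `m`.
-/

set_option autoImplicit false
open MeasureTheory Set Real Filter Topology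

namespace Crest.Agent.S0423

/-- `T b φ y = E[φ(y + b X)]`, `X` a mean-one exponential. -/
noncomputable def T (b : ℝ) (φ : ℝ → ℝ) (y : ℝ) : ℝ :=
  ∫ t in Ioi (0:ℝ), φ (y + b * t) * exp (-t)

/-- `II N a φ = E[φ(∑ aᵢ Xᵢ)]`. -/
noncomputable def II (N : ℕ) (a : Fin N → ℝ) (φ : ℝ → ℝ) : ℝ :=
  ∫ x in Set.pi Set.univ (fun _ : Fin N => Set.Ioi (0 : ℝ)),
    φ (∑ i, a i * x i) * exp (-∑ i, x i)

/-- The Gamma(2) density. -/
noncomputable def W (u : ℝ) : ℝ := if 0 < u then u * exp (-u) else 0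

/-- `Q ψ y = ∫ W(u) ψ(u - y) du`. -/
noncomputable def Q (ψ : ℝ → ℝ) (y : ℝ) : ℝ := ∫ u, W u * ψ (u - y)

/-- indicator function of `(-∞, c)`. -/
noncomputable def ind (c z : ℝ) : ℝ := if z < c then 1 else 0

/-- survival function of `θ + τ X`. -/
noncomputable def Sx (θ τ z : ℝ) : ℝ := min 1 (exp (-(z - θ) / τ))

/-- positive continuous log-concave survival functions with mean `m`. -/
structure P (ψ : ℝ → ℝ) (m : ℝ) : Prop where
  cont : Continuous ψ
  pos : ∀ z, 0 < ψ z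
  le_one : ∀ z, ψ z ≤ 1
  anti : Antitone ψ
  conc : ConcaveOn ℝ univ (fun z => log (ψ z))
  lim_bot : Tendsto ψ atBot (𝓝 1)
  lim_top : Tendsto ψ atTop (𝓝 0)
  integ : Integrable (fun z => ψ z - ind 0 z)
  mean : ∫ z, (ψ z - ind 0 z) = m

/-- the extremal constant. -/
noncomputable def cstar : ℝ := 4 / 9 * exp (-(1 / 3))

/-- left end of the level interval of `W` of length `ρ`: `W (u1 ρ) = W (u1 ρ + ρ)`. -/
noncomputable def u1 (ρ : ℝ) : ℝ := ρ / (exp ρ - 1)

/-- the common level `W (u1 ρ) = W (u1 ρ + ρ)`. -/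
noncomputable def lam (ρ : ℝ) : ℝ := u1 ρ * exp (-u1 ρ)

end Crest.Agent.S0423
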