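import Crest.Agent.S0423Aux.Defs

/-! # S0423, Part T1 : basic properties of the operator `T b` -/

set_option autoImplicit false
open MeasureTheory Set Real Filter Topology

namespace Crest.Agent.S0423

theorem PartT1_meas (b : ℝ) (ψ : ℝ → ℝ) (hm : Measurable ψ) (y : ℝ) :
    Measurable (fun t => ψ (y + b * t) * exp (-t)) :=
  (hm.comp (by fun_prop)).mul (by fun_prop)

theorem PartT1_norm_le (b : ℝ) (ψ : ℝ → ℝ) (C : ℝ) (hb : ∀ y, |ψ y| ≤ C) (y t : ℝ) :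
    ‖ψ (y + b * t) * exp (-t)‖ ≤ C * exp (-t) := by
  rw [norm_mul, Real.norm_eq_abs, Real.norm_eq_abs, abs_of_pos (exp_pos _)]
  exact mul_le_mul_of_nonneg_right (hb _) (exp_pos _).le

theorem T_integrableOn (b : ℝ) (ψ : ℝ → ℝ) (hm : Measurable ψ) (C : ℝ) (hb : ∀ y, |ψ y| ≤ C)
    (y c : ℝ) : IntegrableOn (fun t => ψ (y + b * t) * exp (-t)) (Ioi c) :=
  Integrable.mono' ((integrableOn_exp_neg_Ioi c).const_mul C)
    (PartT1_meas b ψ hm y).aestronglyMeasurable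
    (Eventually.of_forall (PartT1_norm_le b ψ C hb y))

theorem T_measurable (b : ℝ) (ψ : ℝ → ℝ) (hm : Measurable ψ) : Measurable (T b ψ) := by
  have h : Measurable (fun p : ℝ × ℝ => ψ (p.1 + b * p.2) * exp (-p.2)) :=
    (hm.comp (by fun_prop)).mul (by fun_prop)
  exact (h.stronglyMeasurable.integral_prod_right' (ν := volume.restrict (Ioi (0:ℝ)))).measurable

theorem T_bounded (b : ℝ) (ψ : ℝ → ℝ) (hm : Measurable ψ) (C : ℝ) (hb : ∀ y, |ψ y| ≤ C) :
    ∀ y, |T b ψ y| ≤ C := by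
  intro y
  have h := norm_integral_le_of_norm_le (μ := volume.restrict (Ioi (0:ℝ)))
    ((integrableOn_exp_neg_Ioi 0).const_mul C) (Eventually.of_forall (PartT1_norm_le b ψ C hb y))
  rw [integral_const_mul, integral_exp_neg_Ioi_zero, mul_one] at h
  exact h

theorem T_zero (ψ : ℝ → ℝ) : T 0 ψ = ψ := by
  funext y
  simp only [T, zero_mul, add_zero]
  rw [integral_const_mul, integral_exp_neg_Ioi_zero, mul_one]

theorem T_mono (b : ℝ) (ψ₁ ψ₂ : ℝ → ℝ) (hm₁ : Measurable ψ₁) (hm₂ : Measurable ψ₂)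
    (C₁ C₂ : ℝ) (hb₁ : ∀ y, |ψ₁ y| ≤ C₁) (hb₂ : ∀ y, |ψ₂ y| ≤ C₂) (h : ∀ y, ψ₁ y ≤ ψ₂ y) (y : ℝ) :
    T b ψ₁ y ≤ T b ψ₂ y :=
  integral_mono (T_integrableOn b ψ₁ hm₁ C₁ hb₁ y 0) (T_integrableOn b ψ₂ hm₂ C₂ hb₂ y 0)
    (fun t => mul_le_mul_of_nonneg_right (h _) (exp_pos _).le)

/-- translation formula -/
theorem PartT1_shift (b : ℝ) (ψ : ℝ → ℝ) (z δ : ℝ) :
    T b ψ (z + b * δ) = exp δ * ∫ s in Ioi δ, ψ (z + b * s) * exp (-s) := by
  have h := (measurePreserving_add_right volume δ).setIntegral_preimage_emb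
    (measurableEmbedding_addRight δ) (fun s => ψ (z + b * s) * exp (-s)) (Ioi δ)
  rw [← h, ← integral_const_mul]
  have hpre : (fun x : ℝ => x + δ) ⁻¹' Ioi δ = Ioi 0 := by
    ext x; simp
  rw [hpre]
  simp only [T]
  congr 1
  funext t
  have e1 : z + b * δ + b * t = z + b * (t + δ) := by ring
  have e2 : exp (-t) = exp δ * exp (-(t + δ)) := by
    rw [← exp_add]; congr 1; ring
  rw [e1, e2]; ring

/-- The ODE `b u' = u - ψ` for `u = T b ψ`. -/
theorem T_hasDerivAt (b : ℝ) (hb0 : b ≠ 0) (ψ : ℝ → ℝ) (hc : Continuous ψ) (C : ℝ)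
    (hb : ∀ y, |ψ y| ≤ C) (z : ℝ) : HasDerivAt (T b ψ) ((T b ψ z - ψ z) / b) z := by
  set f : ℝ → ℝ := fun s => ψ (z + b * s) * exp (-s) with hf
  have hfc : Continuous f := by
    apply Continuous.mul
    · exact hc.comp (by fun_prop)
    · fun_prop
  have hint : ∀ c, IntegrableOn f (Ioi c) := fun c => T_integrableOn b ψ hc.measurable C hb z c
  have hG : ∀ δ, T b ψ (z + b * δ) = exp δ * ((∫ s in Ioi (0:ℝ), f s) - ∫ s in (0:ℝ)..δ, f s) := by
    intro δ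
    rw [PartT1_shift, ← intervalIntegral.integral_Ioi_sub_Ioi' (hint 0) (hint δ)]
    congr 1
    ring
  have hI0 : (∫ s in Ioi (0:ℝ), f s) = T b ψ z := rfl
  have hd1 : HasDerivAt (fun δ => ∫ s in (0:ℝ)..δ, f s) (f 0) 0 :=
    (hfc.integral_hasStrictDerivAt 0 0).hasDerivAt
  have hd2 : HasDerivAt (fun δ => exp δ * ((∫ s in Ioi (0:ℝ), f s) - ∫ s in (0:ℝ)..δ, f s))
      (exp 0 * ((∫ s in Ioi (0:ℝ), f s) - ∫ s in (0:ℝ)..(0:ℝ), f s) + exp 0 * (0 - f 0)) 0 :=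
    (Real.hasDerivAt_exp 0).mul ((hasDerivAt_const (0:ℝ) _).sub hd1)
  have hval : exp 0 * ((∫ s in Ioi (0:ℝ), f s) - ∫ s in (0:ℝ)..(0:ℝ), f s) + exp 0 * (0 - f 0)
      = T b ψ z - ψ z := by
    have hf0 : f 0 = ψ z := by simp [hf]
    rw [hI0, hf0, intervalIntegral.integral_same, exp_zero]
    ring
  rw [hval] at hd2
  have hd3 : HasDerivAt (fun x : ℝ => (x - z) / b) (1 / b) z :=
    ((hasDerivAt_id z).sub_const z).div_const b
  have hzero : (z - z) / b = 0 := by simp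
  have hd4 : HasDerivAt
      ((fun δ => exp δ * ((∫ s in Ioi (0:ℝ), f s) - ∫ s in (0:ℝ)..δ, f s)) ∘ fun x : ℝ => (x - z) / b)
      ((T b ψ z - ψ z) * (1 / b)) z := by
    apply HasDerivAt.comp
    · rw [hzero]; exact hd2
    · exact hd3
  have heq : T b ψ =
      ((fun δ => exp δ * ((∫ s in Ioi (0:ℝ), f s) - ∫ s in (0:ℝ)..δ, f s)) ∘
        fun x : ℝ => (x - z) / b) := by
    funext x
    simp only [Function.comp]
    rw [← hG]
    congr 1
    field_simp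
    ring
  rw [heq]
  convert hd4 using 1
  · rw [← heq]; ring

theorem PartT1_tendsto (b : ℝ) (ψ : ℝ → ℝ) (hm : Measurable ψ) (C : ℝ) (hb : ∀ y, |ψ y| ≤ C)
    (l : ℝ) (F : Filter ℝ) [F.IsCountablyGenerated]
    (hF : ∀ c : ℝ, Tendsto (fun y => y + c) F F) (h : Tendsto ψ F (𝓝 l)) :
    Tendsto (T b ψ) F (𝓝 l) := by
  have key := tendsto_integral_filter_of_dominated_convergence (μ := volume.restrict (Ioi (0:ℝ)))
    (l := F) (F := fun y t => ψ (y + b * t) * exp (-t)) (f := fun t => l * exp (-t))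
    (fun t => C * exp (-t))
    (Eventually.of_forall fun y => (PartT1_meas b ψ hm y).aestronglyMeasurable)
    (Eventually.of_forall fun y => Eventually.of_forall (PartT1_norm_le b ψ C hb y))
    ((integrableOn_exp_neg_Ioi 0).const_mul C)
    (Eventually.of_forall fun t => (h.comp (hF (b * t))).mul_const _)
  rw [integral_const_mul, integral_exp_neg_Ioi_zero, mul_one] at key
  exact key

theorem T_tendsto_atTop (b : ℝ) (ψ : ℝ → ℝ) (hm : Measurable ψ) (C : ℝ) (hb : ∀ y, |ψ y| ≤ C)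
    (l : ℝ) (h : Tendsto ψ atTop (𝓝 l)) : Tendsto (T b ψ) atTop (𝓝 l) :=
  PartT1_tendsto b ψ hm C hb l atTop (fun c => tendsto_atTop_add_const_right _ c tendsto_id) h

theorem T_tendsto_atBot (b : ℝ) (ψ : ℝ → ℝ) (hm : Measurable ψ) (C : ℝ) (hb : ∀ y, |ψ y| ≤ C)
    (l : ℝ) (h : Tendsto ψ atBot (𝓝 l)) : Tendsto (T b ψ) atBot (𝓝 l) :=
  PartT1_tendsto b ψ hm C hb l atBot (fun c => tendsto_atBot_add_const_right _ c tendsto_id) h

/-- strict positivity of `T b ψ` for positive `ψ`. -/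
theorem T_pos (b : ℝ) (ψ : ℝ → ℝ) (hm : Measurable ψ) (C : ℝ) (hb : ∀ y, |ψ y| ≤ C)
    (hpos : ∀ y, 0 < ψ y) (y : ℝ) : 0 < T b ψ y := by
  have hp : ∀ t, 0 < ψ (y + b * t) * exp (-t) := fun t => mul_pos (hpos _) (exp_pos _)
  unfold T
  rw [integral_pos_iff_support_of_nonneg (fun t => (hp t).le) (T_integrableOn b ψ hm C hb y 0)]
  have : Function.support (fun t => ψ (y + b * t) * exp (-t)) = univ := by
    ext t; simp [(hpos _).ne']
  rw [this]
  simp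

end Crest.Agent.S0423
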