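import Crest.Agent.S0423Aux.PartW
import Crest.Agent.S0423Aux.PartSx
import Crest.Agent.S0423Aux.PartT1

/-! # S0423, Part Q : the pairing `Q` and its intertwining with `T` -/

set_option autoImplicit false
open MeasureTheory Set Real Filter Topology

namespace Crest.Agent.S0423

theorem Q_measurable (ψ : ℝ → ℝ) (hm : Measurable ψ) : Measurable (Q ψ) := by
  have h : StronglyMeasurable (fun p : ℝ × ℝ => W p.2 * ψ (p.2 - p.1)) := by
    apply Measurable.stronglyMeasurable
    exact (W_measurable.comp measurable_snd).mul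
      (hm.comp (measurable_snd.sub measurable_fst))
  exact (h.integral_prod_right (ν := volume)).measurable

/-- integrability of the integrand of `Q`. -/
theorem PartQ_integrable (ψ : ℝ → ℝ) (hm : Measurable ψ) (C : ℝ) (hb : ∀ y, |ψ y| ≤ C) (y : ℝ) :
    Integrable (fun u => W u * ψ (u - y)) :=
  W_mul_integrable (fun u => ψ (u - y)) (hm.comp (measurable_id.sub_const y)) C
    (fun u => hb (u - y))

theorem Q_bounded (ψ : ℝ → ℝ) (hm : Measurable ψ) (C : ℝ) (hb : ∀ y, |ψ y| ≤ C) :
    ∀ y, |Q ψ y| ≤ C := by
  intro y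
  have h1 : ‖∫ u, W u * ψ (u - y)‖ ≤ ∫ u, W u * C := by
    apply norm_integral_le_of_norm_le (W_integrable.mul_const C)
    refine Eventually.of_forall (fun u => ?_)
    rw [Real.norm_eq_abs, abs_mul, abs_of_nonneg (W_nonneg u)]
    exact mul_le_mul_of_nonneg_left (hb _) (W_nonneg u)
  rw [integral_mul_const, W_integral, one_mul, Real.norm_eq_abs] at h1
  exact h1

/-- Fubini: `T b (Q ψ) = Q (T (-b) ψ)`. -/
theorem T_Q (b : ℝ) (ψ : ℝ → ℝ) (hm : Measurable ψ) (C : ℝ) (hb : ∀ y, |ψ y| ≤ C) :
    T b (Q ψ) = Q (T (-b) ψ) := by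
  funext y
  unfold T Q
  have hC : 0 ≤ C := le_trans (abs_nonneg _) (hb 0)
  -- integrability on the product
  have hexp : Integrable (fun t : ℝ => exp (-t)) (volume.restrict (Ioi (0:ℝ))) :=
    integrableOn_exp_neg_Ioi 0
  have hint : Integrable (Function.uncurry fun (t u : ℝ) => W u * ψ (u - (y + b * t)) * exp (-t))
      ((volume.restrict (Ioi (0:ℝ))).prod volume) := by
    have hdom : Integrable (fun p : ℝ × ℝ => exp (-p.1) * (C * W p.2))
        ((volume.restrict (Ioi (0:ℝ))).prod volume) :=
      Integrable.mul_prod hexp (W_integrable.const_mul C)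
    refine hdom.mono' ?_ ?_
    · apply Measurable.aestronglyMeasurable
      unfold Function.uncurry
      exact ((W_measurable.comp measurable_snd).mul
        (hm.comp (measurable_snd.sub ((measurable_fst.const_mul b).const_add y)))).mul
        (measurable_fst.neg.exp)
    · refine Eventually.of_forall (fun p => ?_)
      simp only [Function.uncurry]
      rw [Real.norm_eq_abs, abs_mul, abs_mul, abs_of_nonneg (W_nonneg _),
        abs_of_pos (exp_pos _)]
      have := hb (p.2 - (y + b * p.1))
      have h2 : W p.2 * |ψ (p.2 - (y + b * p.1))| ≤ W p.2 * C :=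
        mul_le_mul_of_nonneg_left this (W_nonneg _)
      nlinarith [exp_pos (-p.1)]
  calc ∫ t in Ioi (0:ℝ), (∫ u, W u * ψ (u - (y + b * t))) * exp (-t)
      = ∫ t in Ioi (0:ℝ), ∫ u, W u * ψ (u - (y + b * t)) * exp (-t) := by
        refine integral_congr_ae (Eventually.of_forall fun t => ?_)
        simp only
        rw [integral_mul_const]
    _ = ∫ u, ∫ t in Ioi (0:ℝ), W u * ψ (u - (y + b * t)) * exp (-t) :=
        integral_integral_swap hint
    _ = ∫ u, W u * ∫ t in Ioi (0:ℝ), ψ (u - y + -b * t) * exp (-t) := by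
        refine integral_congr_ae (Eventually.of_forall fun u => ?_)
        simp only
        rw [← integral_const_mul]
        refine integral_congr_ae (Eventually.of_forall fun t => ?_)
        simp only
        have : u - (y + b * t) = u - y + -b * t := by ring
        rw [this]; ring

/-- comparison of the indicator with a slightly larger element of the class `P`. -/
theorem Q_Sx_le (s ε : ℝ) (hε : 0 < ε) (y : ℝ) :
    Q (Sx (s + ε) ε) y - 2 * ε ≤ Q (ind s) y := by
  have hP := Sx_P (s + ε) ε hε
  set D : ℝ → ℝ := fun z => Sx (s + ε) ε z - ind s z with hD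
  have hDint : Integrable D := by
    have := hP.integ.sub (ind_sub_ind_integrable s)
    refine this.congr (Eventually.of_forall fun z => ?_)
    simp only [hD, Pi.sub_apply]; ring
  have hDval : ∫ z, D z = 2 * ε := by
    have h1 : ∫ z, D z = ∫ z, ((Sx (s + ε) ε z - ind 0 z) - (ind s z - ind 0 z)) := by
      refine integral_congr_ae (Eventually.of_forall fun z => ?_)
      simp only [hD]; ring
    rw [h1, integral_sub hP.integ (ind_sub_ind_integrable s), hP.mean, ind_sub_ind_integral]
    ring
  have hDnn : ∀ z, 0 ≤ D z := fun z => by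
    have := ind_le_Sx (c := s) (θ := s + ε) hε (by linarith) z
    simp only [hD]; linarith
  have hSm : Measurable (Sx (s + ε) ε) := hP.cont.measurable
  have hSb : ∀ z, |Sx (s + ε) ε z| ≤ 1 := fun z => by
    rw [abs_of_pos (hP.pos z)]; exact hP.le_one z
  have hi1 := PartQ_integrable (Sx (s + ε) ε) hSm 1 hSb y
  have hi2 := PartQ_integrable (ind s) (ind_measurable s) 1 (ind_bounded s) y
  have hsub : Q (Sx (s + ε) ε) y - Q (ind s) y = ∫ u, W u * D (u - y) := by
    unfold Q
    rw [← integral_sub hi1 hi2]
    refine integral_congr_ae (Eventually.of_forall fun u => ?_)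
    simp only [hD]; ring
  have hshift : Integrable (fun u => D (u - y)) := hDint.comp_sub_right y
  have hle : ∫ u, W u * D (u - y) ≤ ∫ u, D (u - y) := by
    apply integral_mono_of_nonneg
    · exact Eventually.of_forall fun u => mul_nonneg (W_nonneg u) (hDnn _)
    · exact hshift
    · refine Eventually.of_forall fun u => ?_
      simp only
      have := mul_le_mul_of_nonneg_right (W_le_one u) (hDnn (u - y))
      linarith
  have hval : ∫ u, D (u - y) = 2 * ε := by
    rw [integral_sub_right_eq_self D y, hDval]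
  linarith

theorem T_ind_le (s v : ℝ) : T (-2) (ind s) v ≤ exp (-(v - s) / 2) := by
  unfold T
  set c : ℝ := (v - s) / 2 with hc
  have h1 : ∀ t : ℝ, ind s (v + -2 * t) * exp (-t) = (Ioi c).indicator (fun t => exp (-t)) t := by
    intro t
    unfold ind
    by_cases h : c < t
    · have : v + -2 * t < s := by simp only [hc] at h; linarith
      rw [if_pos this, indicator_of_mem (show t ∈ Ioi c from h)]; ring
    · have : ¬ (v + -2 * t < s) := by
        simp only [hc] at h; intro h'; apply h; linarith
      rw [if_neg this, indicator_of_notMem (show t ∉ Ioi c from h)]; ring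
  have h2 : ∫ t in Ioi (0:ℝ), ind s (v + -2 * t) * exp (-t)
      = ∫ t in Ioi (0:ℝ) ∩ Ioi c, exp (-t) := by
    rw [setIntegral_congr_fun measurableSet_Ioi (fun t _ => h1 t),
      setIntegral_indicator measurableSet_Ioi]
  rw [h2]
  have h3 : ∫ t in Ioi (0:ℝ) ∩ Ioi c, exp (-t) ≤ ∫ t in Ioi c, exp (-t) := by
    apply setIntegral_mono_set (integrableOn_exp_neg_Ioi c)
    · exact Eventually.of_forall fun t => (exp_pos _).le
    · exact Eventually.of_forall fun t ht => ht.2
  rw [integral_exp_neg_Ioi] at h3
  have : -(v - s) / 2 = -c := by simp only [hc]; ring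
  rw [this]; exact h3

theorem PartQ_integrableOn : IntegrableOn (fun x : ℝ => x * exp (-(3 / 2 * x))) (Ioi 0) := by
  have := integrableOn_rpow_mul_exp_neg_mul_rpow (p := 1) (s := 1) (b := 3 / 2) (by norm_num)
    (by norm_num) (by norm_num)
  refine this.congr_fun (fun x _ => ?_) measurableSet_Ioi
  simp

theorem PartQ_integral : ∫ x in Ioi (0:ℝ), x * exp (-(3 / 2 * x)) = 4 / 9 := by
  have := Real.integral_rpow_mul_exp_neg_mul_Ioi (a := 2) (r := 3 / 2) (by norm_num) (by norm_num)
  have h2 : ∫ x in Ioi (0:ℝ), x * exp (-(3 / 2 * x))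
      = ∫ x in Ioi (0:ℝ), x ^ ((2:ℝ) - 1) * exp (-(3 / 2 * x)) := by
    refine setIntegral_congr_fun measurableSet_Ioi (fun x _ => ?_)
    norm_num
  rw [h2, this, Real.Gamma_two]
  norm_num

theorem Q_exp_le (ψ : ℝ → ℝ) (hm : Measurable ψ) (C : ℝ) (hb : ∀ y, |ψ y| ≤ C) (s : ℝ)
    (h : ∀ v, ψ v ≤ exp (-(v - s) / 2)) (y : ℝ) :
    Q ψ y ≤ 4 / 9 * exp (s / 2) * exp (1 / 2 * y) := by
  unfold Q
  set K : ℝ := exp (s / 2) * exp (1 / 2 * y) with hK
  have hform : ∀ u, W u * exp (-(u - y - s) / 2)
      = (Ioi (0:ℝ)).indicator (fun x => K * (x * exp (-(3 / 2 * x)))) u := by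
    intro u
    unfold W
    by_cases hu : 0 < u
    · rw [if_pos hu, indicator_of_mem (show u ∈ Ioi (0:ℝ) from hu)]
      simp only [hK]
      have : exp (-(u - y - s) / 2) * exp (-u)
          = exp (s / 2) * exp (1 / 2 * y) * exp (-(3 / 2 * u)) := by
        rw [← exp_add, ← exp_add, ← exp_add]; congr 1; ring
      calc u * exp (-u) * exp (-(u - y - s) / 2)
          = u * (exp (-(u - y - s) / 2) * exp (-u)) := by ring
        _ = _ := by rw [this]; ring
    · rw [if_neg hu, indicator_of_notMem (show u ∉ Ioi (0:ℝ) from hu)]; ring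
  have hint2 : Integrable (fun u => W u * exp (-(u - y - s) / 2)) := by
    have : Integrable ((Ioi (0:ℝ)).indicator (fun x => K * (x * exp (-(3 / 2 * x))))) :=
      (integrable_indicator_iff measurableSet_Ioi).2 (PartQ_integrableOn.const_mul K)
    exact this.congr (Eventually.of_forall fun u => (hform u).symm)
  have hle : ∫ u, W u * ψ (u - y) ≤ ∫ u, W u * exp (-(u - y - s) / 2) := by
    apply integral_mono (PartQ_integrable ψ hm C hb y) hint2
    intro u
    exact mul_le_mul_of_nonneg_left (h (u - y)) (W_nonneg u)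
  have hval : ∫ u, W u * exp (-(u - y - s) / 2) = 4 / 9 * K := by
    rw [integral_congr_ae (Eventually.of_forall hform), integral_indicator measurableSet_Ioi,
      integral_const_mul, PartQ_integral]
    ring
  rw [hval] at hle
  calc _ ≤ 4 / 9 * K := hle
    _ = _ := by simp only [hK]; ring

end Crest.Agent.S0423
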