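import Crest.Agent.S0423Aux.PartA
import Crest.Agent.S0423Aux.PartQ
import Crest.Agent.S0423Aux.PartT2
import Crest.Agent.S0423Aux.Chord

/-! # S0423 : assembly of the upper and the lower bound -/

set_option autoImplicit false
open MeasureTheory Set Real Filter Topology
open Crest.AlgGeometry

namespace Crest.Agent.S0423

theorem claim (N : ℕ) : ∀ (a : Fin N → ℝ) (ψ : ℝ → ℝ) (m : ℝ), P ψ m → 4 / 3 < m + ∑ i, a i →
    cstar ≤ II N a (Q ψ) := by
  induction N with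
  | zero =>
    intro a ψ m h hm
    rw [II_zero]
    exact chord ψ m h (by simpa using hm)
  | succ n ih =>
    intro a ψ m h hm
    rw [II_succ n a (Q ψ) (Q_measurable ψ h.measurable) 1 (Q_bounded ψ h.measurable 1 h.bounded),
      T_Q (a 0) ψ h.measurable 1 h.bounded]
    refine ih _ _ (m - (-(a 0))) (T_P _ ψ m h) ?_
    rw [Fin.sum_univ_succ] at hm
    linarith

theorem Q_ind_shift (s y : ℝ) : Q (ind 0) (s + y) = Q (ind s) y := by
  unfold Q ind
  congr 1; ext u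
  congr 1
  have : (u - (s + y) < 0) ↔ (u - y < s) := by constructor <;> intro h <;> linarith
  simp only [this]

theorem II_mono (N : ℕ) (a : Fin N → ℝ) (φ₁ φ₂ : ℝ → ℝ) (hm₁ : Measurable φ₁) (hm₂ : Measurable φ₂)
    (C₁ C₂ : ℝ) (hb₁ : ∀ y, |φ₁ y| ≤ C₁) (hb₂ : ∀ y, |φ₂ y| ≤ C₂) (h : ∀ y, φ₁ y ≤ φ₂ y) :
    II N a φ₁ ≤ II N a φ₂ := by
  unfold II
  refine setIntegral_mono (II_integrable N a φ₁ hm₁ C₁ hb₁) (II_integrable N a φ₂ hm₂ C₂ hb₂) ?_
  intro x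
  exact mul_le_mul_of_nonneg_right (h _) (exp_pos _).le

theorem II_sub (N : ℕ) (a : Fin N → ℝ) (φ₁ φ₂ : ℝ → ℝ) (hm₁ : Measurable φ₁) (hm₂ : Measurable φ₂)
    (C₁ C₂ : ℝ) (hb₁ : ∀ y, |φ₁ y| ≤ C₁) (hb₂ : ∀ y, |φ₂ y| ≤ C₂) :
    II N a (fun y => φ₁ y - φ₂ y) = II N a φ₁ - II N a φ₂ := by
  unfold II
  rw [← integral_sub (II_integrable N a φ₁ hm₁ C₁ hb₁) (II_integrable N a φ₂ hm₂ C₂ hb₂)]
  congr 1; ext x; ring

theorem II_g (N : ℕ) (a : Fin N → ℝ) :
    II N a (fun y => truncExpWeight (4 / 3 + y)) = 1 - II N a (Q (ind (4 / 3))) := by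
  have h1 : (fun y => truncExpWeight (4 / 3 + y)) = fun y => (fun _ => (1:ℝ)) y - Q (ind (4 / 3)) y := by
    ext y; rw [g_eq, Q_ind_shift]
  rw [h1, II_sub N a _ _ measurable_const (Q_measurable _ (ind_measurable _)) 1 1 (by simp)
    (Q_bounded _ (ind_measurable _) 1 (ind_bounded _)), II_const]

theorem upper_aux (N : ℕ) (a : Fin N → ℝ) (ha : ∑ i, a i = 0) :
    cstar ≤ II N a (Q (ind (4 / 3))) := by
  refine le_of_forall_pos_le_add ?_
  intro ε hε
  have hε2 : 0 < ε / 2 := by linarith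
  have hP := Sx_P (4 / 3 + ε / 2) (ε / 2) hε2
  have h1 : cstar ≤ II N a (Q (Sx (4 / 3 + ε / 2) (ε / 2))) := by
    refine claim N a _ _ hP ?_
    rw [ha]; linarith
  have h2 : II N a (fun y => Q (Sx (4 / 3 + ε / 2) (ε / 2)) y - (fun _ => 2 * (ε / 2)) y)
      ≤ II N a (Q (ind (4 / 3))) := by
    refine II_mono N a _ _ ((Q_measurable _ hP.measurable).sub measurable_const)
      (Q_measurable _ (ind_measurable _)) (1 + 2 * (ε / 2)) 1 ?_
      (Q_bounded _ (ind_measurable _) 1 (ind_bounded _)) (fun y => Q_Sx_le _ _ hε2 y)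
    intro y
    have := Q_bounded _ hP.measurable 1 hP.bounded y
    calc |Q (Sx (4 / 3 + ε / 2) (ε / 2)) y - 2 * (ε / 2)|
        ≤ |Q (Sx (4 / 3 + ε / 2) (ε / 2)) y| + |2 * (ε / 2)| := abs_sub _ _
      _ ≤ 1 + 2 * (ε / 2) := by rw [abs_of_pos (by linarith : 0 < 2 * (ε / 2))]; linarith
  rw [II_sub N a _ _ (Q_measurable _ hP.measurable) measurable_const 1 (2 * (ε / 2))
    (Q_bounded _ hP.measurable 1 hP.bounded) (by intro y; rw [abs_of_pos (by linarith)]),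
    II_const] at h2
  linarith

theorem upper (N : ℕ) (a : Fin N → ℝ) (ha : ∑ i, a i = 0) :
    II N a (fun y => truncExpWeight (4 / 3 + y)) ≤ 1 - cstar := by
  rw [II_g]; linarith [upper_aux N a ha]

/-! ## Assembly : lower bound -/

theorem lower_aux (n : ℕ) (hn : 0 < n) :
    II (n+1) (Fin.cons 2 (fun _ => -2 / (n:ℝ))) (Q (ind (4 / 3)))
      ≤ 4 / 9 * exp (2 / 3) * (1 / (1 + 1 / (n:ℝ))) ^ n := by
  rw [II_succ n _ _ (Q_measurable _ (ind_measurable _)) 1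
    (Q_bounded _ (ind_measurable _) 1 (ind_bounded _)),
    Fin.cons_zero, T_Q 2 _ (ind_measurable _) 1 (ind_bounded _)]
  simp only [Fin.cons_succ]
  have hTm := T_measurable (-2) _ (ind_measurable (4 / 3))
  have hTb := T_bounded (-2) _ (ind_measurable (4 / 3)) 1 (ind_bounded _)
  have hn' : (0:ℝ) < n := by exact_mod_cast hn
  have hk : (1 / 2 : ℝ) * (-2 / (n:ℝ)) < 1 := by
    have : (1 / 2 : ℝ) * (-2 / (n:ℝ)) = -(1 / n) := by field_simp
    rw [this]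
    have : 0 < 1 / (n:ℝ) := by positivity
    linarith
  have h1 : II n (fun _ => -2 / (n:ℝ)) (Q (T (-2) (ind (4 / 3))))
      ≤ 4 / 9 * exp (2 / 3) * II n (fun _ => -2 / (n:ℝ)) (fun y => exp (1 / 2 * y)) := by
    unfold II
    rw [← integral_const_mul]
    refine setIntegral_mono (II_integrable n _ _ (Q_measurable _ hTm) 1 (Q_bounded _ hTm 1 hTb))
      ((II_exp_integrable n _ _ hk).const_mul _) ?_
    intro x
    have := Q_exp_le _ hTm 1 hTb (4 / 3) (T_ind_le (4 / 3)) (∑ i, -2 / (n:ℝ) * x i)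
    have h23 : (4 / 3 : ℝ) / 2 = 2 / 3 := by norm_num
    rw [h23] at this
    calc Q (T (-2) (ind (4 / 3))) (∑ i, -2 / (n:ℝ) * x i) * exp (-∑ i, x i)
        ≤ (4 / 9 * exp (2 / 3) * exp (1 / 2 * ∑ i, -2 / (n:ℝ) * x i)) * exp (-∑ i, x i) :=
          mul_le_mul_of_nonneg_right this (exp_pos _).le
      _ = _ := by ring
  rw [II_exp n _ _ hk] at h1
  have : (1:ℝ) - 1 / 2 * (-2 / (n:ℝ)) = 1 + 1 / n := by field_simp; ring
  rw [this] at h1
  exact h1

theorem lower_lim : Tendsto (fun n : ℕ => 4 / 9 * exp (2 / 3) * (1 / (1 + 1 / (n:ℝ))) ^ n) atTop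
    (𝓝 cstar) := by
  have h := Real.tendsto_one_add_div_pow_exp 1
  have h2 : Tendsto (fun n : ℕ => ((1 + 1 / (n:ℝ)) ^ n)⁻¹) atTop (𝓝 (exp 1)⁻¹) :=
    h.inv₀ (exp_pos 1).ne'
  have h3 := h2.const_mul (4 / 9 * exp (2 / 3))
  have e1 : 4 / 9 * exp (2 / 3) * (exp 1)⁻¹ = cstar := by
    unfold cstar
    rw [← exp_neg, mul_assoc, ← exp_add]; norm_num
  rw [e1] at h3
  refine h3.congr ?_
  intro n
  simp only [one_div, inv_pow]

theorem lower (ε : ℝ) (hε : 0 < ε) : ∃ (N : ℕ) (a : Fin N → ℝ), 1 ≤ N ∧ ∑ i, a i = 0 ∧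
    1 - cstar - ε < II N a (fun y => truncExpWeight (4 / 3 + y)) := by
  have h := (lower_lim.eventually (gt_mem_nhds (show cstar < cstar + ε by linarith))).and
    (eventually_gt_atTop 0)
  obtain ⟨n, hn1, hn0⟩ := h.exists
  refine ⟨n+1, Fin.cons 2 (fun _ => -2 / (n:ℝ)), by omega, ?_, ?_⟩
  · rw [Fin.sum_univ_succ]
    simp only [Fin.cons_zero, Fin.cons_succ, Finset.sum_const, Finset.card_univ, Fintype.card_fin,
      nsmul_eq_mul]
    have hn' : (n:ℝ) ≠ 0 := by exact_mod_cast hn0.ne'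
    field_simp; ring
  · rw [II_g]
    have := lower_aux n hn0
    linarith

end Crest.Agent.S0423
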