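import Crest.Agent.S0423Aux.Defs

/-! # S0423, Part A : the N-dimensional integral `II` -/

set_option autoImplicit false
open MeasureTheory Set Real Filter Topology

namespace Crest.Agent.S0423

/-- Lebesgue measure restricted to the positive half line. -/
noncomputable abbrev PartA_mup : Measure ℝ := (volume : Measure ℝ).restrict (Ioi (0:ℝ))

lemma PartA_restrict_eq (N : ℕ) :
    (volume : Measure (Fin N → ℝ)).restrict (Set.pi Set.univ (fun _ : Fin N => Set.Ioi (0 : ℝ)))
      = Measure.pi fun _ : Fin N => PartA_mup := by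
  rw [volume_pi, Measure.restrict_pi_pi]

lemma PartA_II_eq_pi (N : ℕ) (a : Fin N → ℝ) (φ : ℝ → ℝ) :
    II N a φ =
      ∫ x, φ (∑ i, a i * x i) * exp (-∑ i, x i) ∂(Measure.pi fun _ : Fin N => PartA_mup) := by
  unfold II
  rw [PartA_restrict_eq]

lemma PartA_exp_neg_sum {N : ℕ} (x : Fin N → ℝ) :
    exp (-∑ i, x i) = ∏ i, exp (-x i) := by
  rw [← Finset.sum_neg_distrib, Real.exp_sum]

lemma PartA_integrable_exp_neg_sum (N : ℕ) :
    Integrable (fun x : Fin N → ℝ => exp (-∑ i, x i)) (Measure.pi fun _ : Fin N => PartA_mup) := by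
  simp_rw [PartA_exp_neg_sum]
  exact Integrable.fintype_prod (fun _ => integrableOn_exp_neg_Ioi (0:ℝ))

lemma PartA_integral_exp_neg_sum (N : ℕ) :
    ∫ x : Fin N → ℝ, exp (-∑ i, x i) ∂(Measure.pi fun _ : Fin N => PartA_mup) = 1 := by
  simp_rw [PartA_exp_neg_sum]
  rw [integral_fintype_prod_eq_prod (fun _ : Fin N => fun t : ℝ => exp (-t))]
  exact Finset.prod_eq_one (fun _ _ => integral_exp_neg_Ioi_zero)

lemma PartA_integrable {N : ℕ} (a : Fin N → ℝ) {φ : ℝ → ℝ} (hm : Measurable φ)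
    {C : ℝ} (hb : ∀ y, |φ y| ≤ C) :
    Integrable (fun x : Fin N → ℝ => φ (∑ i, a i * x i) * exp (-∑ i, x i))
      (Measure.pi fun _ : Fin N => PartA_mup) := by
  refine Integrable.bdd_mul (c := C) (PartA_integrable_exp_neg_sum N) ?_ ?_
  · exact (hm.comp (by fun_prop)).aestronglyMeasurable
  · exact Filter.Eventually.of_forall (fun x => by simpa using hb _)

theorem II_integrable (N : ℕ) (a : Fin N → ℝ) (φ : ℝ → ℝ) (hm : Measurable φ) (C : ℝ)
    (hb : ∀ y, |φ y| ≤ C) :
    IntegrableOn (fun x : Fin N → ℝ => φ (∑ i, a i * x i) * exp (-∑ i, x i))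
      (Set.pi Set.univ (fun _ : Fin N => Set.Ioi (0 : ℝ))) := by
  unfold IntegrableOn
  rw [PartA_restrict_eq]
  exact PartA_integrable a hm hb

theorem II_zero (a : Fin 0 → ℝ) (φ : ℝ → ℝ) : II 0 a φ = φ 0 := by
  rw [PartA_II_eq_pi]
  simp [measureReal_def]

theorem II_const (N : ℕ) (a : Fin N → ℝ) (c : ℝ) : II N a (fun _ => c) = c := by
  rw [PartA_II_eq_pi, integral_const_mul, PartA_integral_exp_neg_sum, mul_one]

/-- Fubini: integrate out the coordinate `0`. -/
theorem II_succ (n : ℕ) (a : Fin (n+1) → ℝ) (φ : ℝ → ℝ) (hm : Measurable φ) (C : ℝ)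
    (hb : ∀ y, |φ y| ≤ C) :
    II (n+1) a φ = II n (fun j => a j.succ) (T (a 0) φ) := by
  rw [PartA_II_eq_pi, PartA_II_eq_pi]
  have hint := PartA_integrable a hm hb
  have mp := (measurePreserving_piFinSuccAbove (fun _ : Fin (n+1) => PartA_mup) 0).symm
  rw [← mp.integral_comp']
  rw [← mp.integrable_comp_emb (MeasurableEquiv.measurableEmbedding _)] at hint
  have hint' : Integrable (fun x : ℝ × (Fin n → ℝ) =>
      φ (∑ i, a i * (MeasurableEquiv.piFinSuccAbove (fun _ => ℝ) 0).symm x i) *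
        exp (-∑ i, (MeasurableEquiv.piFinSuccAbove (fun _ => ℝ) 0).symm x i))
      (PartA_mup.prod (Measure.pi fun _ : Fin n => PartA_mup)) := hint
  rw [integral_prod_symm _ hint']
  refine integral_congr_ae (Filter.Eventually.of_forall fun x => ?_)
  simp only [T]
  rw [← integral_mul_const]
  refine integral_congr_ae (Filter.Eventually.of_forall fun t => ?_)
  simp only [MeasurableEquiv.piFinSuccAbove_symm_apply, Fin.insertNthEquiv,
        Fin.sum_univ_succ, Fin.insertNth_zero, Equiv.coe_fn_mk, Fin.cons_succ,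
            Fin.zero_succAbove, cast_eq, Fin.cons_zero]
  rw [mul_assoc, ← Real.exp_add]
  congr 2 <;> ring

lemma PartA_exp_prod {n : ℕ} (b κ : ℝ) (x : Fin n → ℝ) :
    exp (κ * ∑ i, b * x i) * exp (-∑ i, x i) = ∏ i, exp (-(1 - κ * b) * x i) := by
  rw [← Real.exp_add, ← Real.exp_sum]
  congr 1
  rw [Finset.mul_sum, ← Finset.sum_neg_distrib, ← Finset.sum_add_distrib]
  refine Finset.sum_congr rfl (fun i _ => ?_)
  ring

theorem II_exp_integrable (n : ℕ) (b κ : ℝ) (h : κ * b < 1) :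
    IntegrableOn (fun x : Fin n → ℝ => exp (κ * ∑ i, b * x i) * exp (-∑ i, x i))
      (Set.pi Set.univ (fun _ : Fin n => Set.Ioi (0 : ℝ))) := by
  unfold IntegrableOn
  rw [PartA_restrict_eq]
  simp_rw [PartA_exp_prod]
  exact Integrable.fintype_prod (fun _ => integrableOn_exp_mul_Ioi (a := -(1 - κ * b)) (by linarith) 0)

/-- product formula `E[exp(κ b ∑ Xᵢ)] = (1 - κ b)⁻ⁿ`. -/
theorem II_exp (n : ℕ) (b κ : ℝ) (h : κ * b < 1) :
    II n (fun _ => b) (fun y => exp (κ * y)) = (1 / (1 - κ * b)) ^ n := by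
  rw [PartA_II_eq_pi]
  simp_rw [PartA_exp_prod]
  rw [integral_fintype_prod_eq_prod (fun _ : Fin n => fun t : ℝ => exp (-(1 - κ * b) * t))]
  have h1 : ∫ t, exp (-(1 - κ * b) * t) ∂PartA_mup = 1 / (1 - κ * b) := by
    have := integral_exp_mul_Ioi (a := -(1 - κ * b)) (by linarith) 0
    rw [this]
    have hne : (1 - κ * b) ≠ 0 := by
      have : 0 < 1 - κ * b := by linarith
      exact this.ne'
    rw [mul_zero, Real.exp_zero, neg_div_neg_eq]
  rw [Finset.prod_congr rfl (fun _ _ => h1)]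
  simp

end Crest.Agent.S0423
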