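import Crest.Agent.S0423Aux.Defs

/-! # S0423, Part W : the Gamma(2) density `W`, its level sets, and `truncExpWeight` -/

set_option autoImplicit false
open MeasureTheory Set Real Filter Topology
open Crest.AlgGeometry

namespace Crest.Agent.S0423

theorem W_nonneg (u : ℝ) : 0 ≤ W u := by
  unfold W
  split_ifs with h
  · positivity
  · exact le_refl _

theorem W_le_one (u : ℝ) : W u ≤ 1 := by
  unfold W
  split_ifs with h
  · have h1 : u ≤ exp u := by linarith [add_one_le_exp u]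
    calc u * exp (-u) ≤ exp u * exp (-u) := mul_le_mul_of_nonneg_right h1 (exp_pos _).le
      _ = 1 := by rw [← exp_add]; simp
  · exact zero_le_one

theorem W_measurable : Measurable W := by
  unfold W
  exact Measurable.ite measurableSet_Ioi (by fun_prop) measurable_const

/-- primitive of `u e^{-u}`. -/
theorem PartW_hasDerivAt (u : ℝ) : HasDerivAt (fun u => -((1 + u) * exp (-u))) (u * exp (-u)) u := by
  have h1 : HasDerivAt (fun u : ℝ => exp (-u)) (exp (-u) * (-1)) u :=
    (hasDerivAt_neg u).exp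
  have h2 : HasDerivAt (fun u : ℝ => 1 + u) 1 u := by
    simpa using (hasDerivAt_id u).const_add 1
  have h3 : HasDerivAt (fun u : ℝ => -((1 + u) * exp (-u)))
      (-(1 * exp (-u) + (1 + u) * (exp (-u) * (-1)))) u := (h2.mul h1).neg
  exact h3.congr_deriv (by ring)

theorem PartW_tendsto : Tendsto (fun u : ℝ => -((1 + u) * exp (-u))) atTop (𝓝 0) := by
  have h1 := Real.tendsto_pow_mul_exp_neg_atTop_nhds_zero 1
  have h0 := Real.tendsto_pow_mul_exp_neg_atTop_nhds_zero 0
  have h2 := (h0.add h1).neg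
  simp only [pow_zero, pow_one, add_zero, neg_zero] at h2
  refine h2.congr (fun u => ?_)
  ring

theorem PartW_integrableOn : IntegrableOn (fun u : ℝ => u * exp (-u)) (Ioi 0) :=
  integrableOn_Ioi_deriv_of_nonneg' (fun x _ => PartW_hasDerivAt x)
    (fun _ hx => mul_nonneg (le_of_lt hx) (exp_pos _).le) PartW_tendsto

theorem PartW_eq_indicator : W = (Ioi (0:ℝ)).indicator (fun u : ℝ => u * exp (-u)) := by
  ext u
  unfold W
  by_cases h : 0 < u
  · rw [if_pos h, indicator_of_mem (mem_Ioi.2 h)]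
  · rw [if_neg h, indicator_of_notMem (by simpa using h)]

theorem W_integrable : Integrable W := by
  rw [PartW_eq_indicator, integrable_indicator_iff measurableSet_Ioi]
  exact PartW_integrableOn

theorem W_integral : ∫ u, W u = 1 := by
  rw [PartW_eq_indicator, integral_indicator measurableSet_Ioi,
    integral_Ioi_of_hasDerivAt_of_tendsto (f := fun u => -((1 + u) * exp (-u))) (m := 0)
      (PartW_hasDerivAt 0).continuousAt.continuousWithinAt (fun x _ => PartW_hasDerivAt x)
      PartW_integrableOn PartW_tendsto]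
  simp

/-- `W * ψ` is integrable for bounded measurable `ψ`. -/
theorem W_mul_integrable (ψ : ℝ → ℝ) (hm : Measurable ψ) (C : ℝ) (hb : ∀ y, |ψ y| ≤ C) :
    Integrable (fun u => W u * ψ u) :=
  W_integrable.mul_bdd hm.aestronglyMeasurable (Eventually.of_forall fun x => by
    rw [Real.norm_eq_abs]; exact hb x)

theorem ind_measurable (c : ℝ) : Measurable (ind c) := by
  unfold ind
  exact Measurable.ite measurableSet_Iio measurable_const measurable_const

theorem ind_bounded (c : ℝ) : ∀ y, |ind c y| ≤ 1 := by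
  intro y; unfold ind; split_ifs <;> simp

/-- `1 - g` is the Gamma(2) distribution function. -/
theorem g_eq (y : ℝ) : truncExpWeight y = 1 - Q (ind 0) y := by
  unfold truncExpWeight Q
  by_cases hy : y ≤ 0
  · rw [if_pos hy]
    have : (fun u => W u * ind 0 (u - y)) = fun _ => 0 := by
      ext u
      unfold W ind
      by_cases hu : 0 < u
      · rw [if_neg (by linarith : ¬ (u - y < 0))]; simp
      · rw [if_neg hu]; simp
    rw [this]; simp
  · rw [if_neg hy]
    push Not at hy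
    have : (fun u => W u * ind 0 (u - y)) = (Ioo 0 y).indicator (fun u : ℝ => u * exp (-u)) := by
      ext u
      unfold W ind
      by_cases hu : u ∈ Ioo 0 y
      · rw [indicator_of_mem hu, if_pos hu.1, if_pos (by linarith [hu.2])]; ring
      · rw [indicator_of_notMem hu]
        by_cases h0 : 0 < u
        · have : ¬ (u - y < 0) := by
            intro h1
            exact hu ⟨h0, by linarith⟩
          rw [if_neg this]; ring
        · rw [if_neg h0]; ring
    rw [this, integral_indicator measurableSet_Ioo, ← integral_Ioc_eq_integral_Ioo,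
      ← intervalIntegral.integral_of_le hy.le,
      intervalIntegral.integral_eq_sub_of_hasDerivAt (f := fun u => -((1 + u) * exp (-u)))
        (fun x _ => PartW_hasDerivAt x) (Continuous.intervalIntegrable (by fun_prop) _ _)]
    simp

/-! ### level sets of `W` -/

theorem PartW_exp_sub_one {ρ : ℝ} (hρ : 0 < ρ) : ρ < exp ρ - 1 := by
  linarith [add_one_lt_exp hρ.ne']

theorem u1_pos {ρ : ℝ} (hρ : 0 < ρ) : 0 < u1 ρ := by
  unfold u1
  exact div_pos hρ (by linarith [PartW_exp_sub_one hρ])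

theorem u1_lt_one {ρ : ℝ} (hρ : 0 < ρ) : u1 ρ < 1 := by
  unfold u1
  rw [div_lt_one (by linarith [PartW_exp_sub_one hρ])]
  exact PartW_exp_sub_one hρ

theorem u1_continuousOn : ContinuousOn u1 (Ioi 0) := by
  unfold u1
  refine continuousOn_id.div (by fun_prop) ?_
  intro ρ hρ
  have := PartW_exp_sub_one (mem_Ioi.1 hρ)
  have h0 := mem_Ioi.1 hρ
  linarith

theorem lam_pos {ρ : ℝ} (hρ : 0 < ρ) : 0 < lam ρ := by
  unfold lam
  exact mul_pos (u1_pos hρ) (exp_pos _)

/-- `lam ρ ≤ u1 ρ = ρ/(e^ρ-1) ≤ 6/ρ²`. -/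
theorem lam_mul_le {ρ : ℝ} (hρ : 0 < ρ) : lam ρ * ρ ≤ 6 / ρ := by
  have h1 : lam ρ ≤ u1 ρ := by
    unfold lam
    have : exp (-u1 ρ) ≤ 1 := exp_le_one_iff.2 (by linarith [u1_pos hρ])
    nlinarith [u1_pos hρ]
  have h2 : ρ ^ 3 / 6 ≤ exp ρ - 1 := by
    have := Real.sum_le_exp_of_nonneg hρ.le 4
    simp [Finset.sum_range_succ, Nat.factorial] at this
    nlinarith [sq_nonneg ρ]
  have h3 : u1 ρ * ρ ≤ 6 / ρ := by
    unfold u1
    have hpos : 0 < exp ρ - 1 := by linarith [PartW_exp_sub_one hρ]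
    rw [div_mul_eq_mul_div, div_le_div_iff₀ hpos hρ]
    nlinarith
  calc lam ρ * ρ ≤ u1 ρ * ρ := mul_le_mul_of_nonneg_right h1 hρ.le
    _ ≤ 6 / ρ := h3

theorem PartW_mono {x y : ℝ} (hx : 0 < x) (hxy : x ≤ y) (hy : y ≤ 1) :
    x * exp (-x) ≤ y * exp (-y) := by
  have hy0 : 0 < y := by linarith
  -- x / y ≤ exp (-(y-x)/y) ≤ exp (-(y-x))
  have h1 : x / y ≤ exp (-(y - x) / y) := by
    have := add_one_le_exp (-(y - x) / y)
    have e : -(y - x) / y + 1 = x / y := by field_simp; ring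
    linarith
  have h2 : exp (-(y - x) / y) ≤ exp (-(y - x)) := by
    apply exp_le_exp.2
    rw [div_le_iff₀ hy0]
    nlinarith
  have h3 : x ≤ y * exp (-(y - x)) := by
    have := h1.trans h2
    rw [div_le_iff₀ hy0] at this
    linarith
  calc x * exp (-x) ≤ y * exp (-(y - x)) * exp (-x) := mul_le_mul_of_nonneg_right h3 (exp_pos _).le
    _ = y * exp (-y) := by rw [mul_assoc, ← exp_add]; ring_nf

theorem PartW_anti {x y : ℝ} (hx : 1 ≤ x) (hxy : x ≤ y) :
    y * exp (-y) ≤ x * exp (-x) := by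
  have hx0 : 0 < x := by linarith
  have h1 : y / x ≤ exp ((y - x) / x) := by
    have := add_one_le_exp ((y - x) / x)
    have e : (y - x) / x + 1 = y / x := by field_simp; ring
    linarith
  have h2 : exp ((y - x) / x) ≤ exp (y - x) := by
    apply exp_le_exp.2
    rw [div_le_iff₀ hx0]
    nlinarith
  have h3 : y ≤ x * exp (y - x) := by
    have := h1.trans h2
    rw [div_le_iff₀ hx0] at this
    linarith
  calc y * exp (-y) ≤ x * exp (y - x) * exp (-y) := mul_le_mul_of_nonneg_right h3 (exp_pos _).le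
    _ = x * exp (-x) := by rw [mul_assoc, ← exp_add]; ring_nf

theorem PartW_u2 {ρ : ℝ} (hρ : 0 < ρ) : u1 ρ + ρ = u1 ρ * exp ρ := by
  unfold u1
  have hpos : exp ρ - 1 ≠ 0 := by linarith [PartW_exp_sub_one hρ]
  field_simp
  ring

theorem PartW_one_lt_u2 {ρ : ℝ} (hρ : 0 < ρ) : 1 < u1 ρ + ρ := by
  rw [PartW_u2 hρ]
  unfold u1
  have hpos : 0 < exp ρ - 1 := by linarith [PartW_exp_sub_one hρ]
  rw [div_mul_eq_mul_div, lt_div_iff₀ hpos]
  -- exp ρ - 1 < ρ exp ρ  ⟸ 1 - ρ < exp (-ρ)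
  have h1 : -ρ + 1 < exp (-ρ) := add_one_lt_exp (by linarith)
  have h2 : exp (-ρ) * exp ρ = 1 := by rw [← exp_add]; simp
  nlinarith [exp_pos ρ]

theorem PartW_lam_u2 {ρ : ℝ} (hρ : 0 < ρ) : (u1 ρ + ρ) * exp (-(u1 ρ + ρ)) = lam ρ := by
  unfold lam
  rw [neg_add, exp_add]
  nth_rewrite 1 [PartW_u2 hρ]
  have h2 : exp ρ * exp (-ρ) = 1 := by rw [← exp_add]; simp
  calc u1 ρ * exp ρ * (exp (-u1 ρ) * exp (-ρ)) = u1 ρ * exp (-u1 ρ) * (exp ρ * exp (-ρ)) := by ring
    _ = _ := by rw [h2, mul_one]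

theorem W_ge_lam {ρ : ℝ} (hρ : 0 < ρ) (u : ℝ) (h1 : u1 ρ ≤ u) (h2 : u ≤ u1 ρ + ρ) :
    lam ρ ≤ W u := by
  have hu : 0 < u := lt_of_lt_of_le (u1_pos hρ) h1
  unfold W
  rw [if_pos hu]
  rcases le_total u 1 with h | h
  · exact PartW_mono (u1_pos hρ) h1 h
  · rw [← PartW_lam_u2 hρ]
    exact PartW_anti h h2

theorem W_le_lam {ρ : ℝ} (hρ : 0 < ρ) (u : ℝ) (h : u ≤ u1 ρ ∨ u1 ρ + ρ ≤ u) :
    W u ≤ lam ρ := by
  unfold W
  split_ifs with hu
  · rcases h with h | h
    · exact PartW_mono hu h (u1_lt_one hρ).le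
    · rw [← PartW_lam_u2 hρ]
      exact PartW_anti (PartW_one_lt_u2 hρ).le h
  · exact (lam_pos hρ).le

end Crest.Agent.S0423
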