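import Mathlib
import Crest.Agent.S0423Aux.Reduce

set_option autoImplicit false
open MeasureTheory Set

namespace Crest.Agent.S0423Aux

/-- Heaviside function. -/
noncomputable def H0 (y : ℝ) : ℝ := if 0 ≤ y then 1 else 0

lemma H0_mono : Monotone H0 := by
  intro x y h
  unfold H0
  split_ifs with h1 h2 h2
  · exact le_rfl
  · exact absurd (h1.trans h) h2
  · exact zero_le_one
  · exact le_rfl

lemma H0_nonneg (y : ℝ) : 0 ≤ H0 y := by unfold H0; split_ifs <;> norm_num
lemma H0_le_one (y : ℝ) : H0 y ≤ 1 := by unfold H0; split_ifs <;> norm_num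

/-- four point log-concavity -/
def LC4 (f : ℝ → ℝ) : Prop :=
  ∀ x δ ε : ℝ, 0 ≤ δ → 0 ≤ ε → f x * f (x + δ + ε) ≤ f (x + δ) * f (x + ε)

lemma H0_LC4 : LC4 H0 := by
  intro x δ ε hδ hε
  unfold H0
  by_cases hx : 0 ≤ x
  · rw [if_pos hx, if_pos (by linarith), if_pos (by linarith), if_pos (by linarith)]
  · rw [if_neg hx, zero_mul]
    split_ifs <;> norm_num

lemma T_zero (f : ℝ → ℝ) : T 0 f = f := by
  funext y
  unfold T
  simp only [zero_mul, add_zero]
  rw [integral_const_mul, integral_exp_neg, mul_one]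

lemma T_mono {a : ℝ} {f : ℝ → ℝ} (hf : Monotone f) {C : ℝ} (hb : ∀ y, |f y| ≤ C) :
    Monotone (T a f) := by
  intro y1 y2 h
  unfold T
  refine setIntegral_mono (T_integrable hf.measurable hb y1) (T_integrable hf.measurable hb y2) ?_
  intro x
  exact mul_le_mul_of_nonneg_right (hf (by linarith)) (Real.exp_pos _).le

lemma T_nonneg {a : ℝ} {f : ℝ → ℝ} (hf : ∀ y, 0 ≤ f y) (y : ℝ) : 0 ≤ T a f y := by
  unfold T
  exact integral_nonneg fun x => mul_nonneg (hf _) (Real.exp_pos _).le

/-- shift of an integral over a half line -/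
lemma integral_Ioi_shift (g : ℝ → ℝ) (c : ℝ) :
    ∫ r in Ioi c, g r = ∫ r in Ioi (0:ℝ), g (r + c) := by
  have h := (measurePreserving_add_right (volume : Measure ℝ) c).setIntegral_preimage_emb
    (measurableEmbedding_addRight c) g (Ioi c)
  rw [← h]
  simp

/-- semigroup identity for negative scale `a = -b` -/
lemma T_semigroup {b : ℝ} (hb : 0 < b) {f : ℝ → ℝ} (hf : Measurable f) {C : ℝ}
    (hC : ∀ y, |f y| ≤ C) (y η : ℝ) (hη : 0 ≤ η) :
    T (-b) f (y + η) = Real.exp (-(η / b)) * T (-b) f y
      + ∫ r in Ioc 0 (η / b), f (y + η + (-b) * r) * Real.exp (-r) := by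
  have hint := T_integrable (a := -b) hf hC (y + η)
  have h0 : 0 ≤ η / b := div_nonneg hη hb.le
  have hsplit : Ioi (0:ℝ) = Ioc 0 (η / b) ∪ Ioi (η / b) := (Ioc_union_Ioi_eq_Ioi h0).symm
  unfold T
  rw [hsplit, setIntegral_union (Ioc_disjoint_Ioi le_rfl) measurableSet_Ioi
    (hint.mono_set (by rw [hsplit]; exact subset_union_left))
    (hint.mono_set (by rw [hsplit]; exact subset_union_right)), ← hsplit, add_comm]
  congr 1
  rw [integral_Ioi_shift, ← integral_const_mul]
  refine integral_congr_ae (Filter.Eventually.of_forall fun r => ?_)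
  simp only
  have e1 : y + η + -b * (r + η / b) = y + -b * r := by field_simp; ring
  rw [e1, neg_add, Real.exp_add]
  ring


/-- Step A: comparison of `f` against its average. -/
lemma T_stepA {b : ℝ} (hb : 0 < b) {f : ℝ → ℝ} (hf : Measurable f) {C : ℝ}
    (hC : ∀ y, |f y| ≤ C) (hlc : LC4 f) (x z ε : ℝ) (hxz : x ≤ z) (hε : 0 ≤ ε) :
    f (z + ε) * T (-b) f x ≤ f z * T (-b) f (x + ε) := by
  unfold T
  rw [← integral_const_mul, ← integral_const_mul]
  refine setIntegral_mono_on ((T_integrable hf hC x).const_mul _)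
    ((T_integrable hf hC (x + ε)).const_mul _) measurableSet_Ioi ?_
  intro r hr
  have hr0 : (0:ℝ) < r := hr
  have h := hlc (x + -b * r) ε (z - (x + -b * r)) hε (by nlinarith)
  have e1 : x + -b * r + ε + (z - (x + -b * r)) = z + ε := by ring
  have e2 : x + -b * r + (z - (x + -b * r)) = z := by ring
  have e3 : x + -b * r + ε = x + ε + -b * r := by ring
  rw [e1, e2, e3] at h
  have hexp := (Real.exp_pos (-r)).le
  nlinarith [mul_le_mul_of_nonneg_right h hexp]

lemma LC4_T_neg {b : ℝ} (hb : 0 < b) {f : ℝ → ℝ} (hf : Measurable f) {C : ℝ}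
    (hC : ∀ y, |f y| ≤ C) (hlc : LC4 f) : LC4 (T (-b) f) := by
  intro x δ ε hδ hε
  have h1 := T_semigroup hb hf hC x δ hδ
  have h2 := T_semigroup hb hf hC (x + ε) δ hδ
  have e : x + δ + ε = x + ε + δ := by ring
  rw [e, h1, h2]
  set u := T (-b) f with hu
  have hI1 : IntegrableOn (fun r => f (x + δ + -b * r) * Real.exp (-r)) (Ioc 0 (δ / b)) :=
    (T_integrable hf hC (x + δ)).mono_set Ioc_subset_Ioi_self
  have hI2 : IntegrableOn (fun r => f (x + ε + δ + -b * r) * Real.exp (-r)) (Ioc 0 (δ / b)) :=
    (T_integrable hf hC (x + ε + δ)).mono_set Ioc_subset_Ioi_self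
  have key : u x * ∫ r in Ioc 0 (δ / b), f (x + ε + δ + -b * r) * Real.exp (-r)
      ≤ u (x + ε) * ∫ r in Ioc 0 (δ / b), f (x + δ + -b * r) * Real.exp (-r) := by
    rw [← integral_const_mul, ← integral_const_mul]
    refine setIntegral_mono_on (hI2.const_mul _) (hI1.const_mul _) measurableSet_Ioc ?_
    intro r hr
    have hr2 : r ≤ δ / b := hr.2
    have hbr : b * r ≤ δ := by
      rw [le_div_iff₀ hb] at hr2; linarith
    have h := T_stepA hb hf hC hlc x (x + δ + -b * r) ε (by linarith) hε
    have e1 : x + δ + -b * r + ε = x + ε + δ + -b * r := by ring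
    rw [e1] at h
    have hexp := (Real.exp_pos (-r)).le
    nlinarith [mul_le_mul_of_nonneg_right h hexp]
  nlinarith [key]

/-- reflection -/
lemma T_reflect (a : ℝ) (f : ℝ → ℝ) (y : ℝ) : T a f y = T (-a) (fun z => f (-z)) (-y) := by
  unfold T
  refine integral_congr_ae (Filter.Eventually.of_forall fun r => ?_)
  simp only
  congr 2
  ring

lemma LC4_reflect {f : ℝ → ℝ} (h : LC4 f) : LC4 (fun z => f (-z)) := by
  intro x δ ε hδ hε
  have := h (-(x + δ + ε)) ε δ hε hδ
  have e1 : -(x + δ + ε) + ε + δ = -x := by ring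
  have e2 : -(x + δ + ε) + ε = -(x + δ) := by ring
  have e3 : -(x + δ + ε) + δ = -(x + ε) := by ring
  rw [e1, e2, e3] at this
  simp only
  linarith

lemma LC4_T (a : ℝ) {f : ℝ → ℝ} (hf : Measurable f) {C : ℝ}
    (hC : ∀ y, |f y| ≤ C) (hlc : LC4 f) : LC4 (T a f) := by
  rcases lt_trichotomy a 0 with ha | ha | ha
  · have := LC4_T_neg (b := -a) (by linarith) hf hC hlc
    simpa using this
  · subst ha; rw [T_zero]; exact hlc
  · have h1 : LC4 (T (-a) (fun z => f (-z))) :=
      LC4_T_neg ha (hf.comp measurable_neg) (fun y => hC _) (LC4_reflect hlc)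
    have h2 := LC4_reflect h1
    have : T a f = fun z => T (-a) (fun z => f (-z)) (-z) := by
      funext y; exact T_reflect a f y
    rw [this]; exact h2



lemma chord_le_of_midpoint {g : ℝ → ℝ} (hc : Continuous g)
    (hm : ∀ x y, (g x + g y) / 2 ≤ g ((x + y) / 2)) {x y : ℝ} (hxy : x < y) {t : ℝ}
    (ht : t ∈ Icc x y) : g x + (g y - g x) / (y - x) * (t - x) ≤ g t := by
  set s := (g y - g x) / (y - x) with hs
  set h : ℝ → ℝ := fun t => g t - (g x + s * (t - x)) with hh
  have hhc : Continuous h := by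
    simp only [hh]; fun_prop
  have hhx : h x = 0 := by simp [hh]
  have hhy : h y = 0 := by
    have : y - x ≠ 0 := by linarith
    simp only [hh, hs]; field_simp; ring
  have hhm : ∀ u v, (h u + h v) / 2 ≤ h ((u + v) / 2) := by
    intro u v
    have := hm u v
    simp only [hh]
    linarith
  suffices 0 ≤ h t by simp only [hh] at this; linarith
  by_contra hneg
  rw [not_le] at hneg
  obtain ⟨t1, ht1, hmin⟩ := (isCompact_Icc (a := x) (b := y)).exists_isMinOn ⟨t, ht⟩ hhc.continuousOn
  set m := h t1 with hmdef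
  have hm0 : m < 0 := lt_of_le_of_lt (hmin ht) hneg
  have hMc : IsCompact (Icc x y ∩ h ⁻¹' {m}) :=
    isCompact_Icc.inter_right (isClosed_singleton.preimage hhc)
  obtain ⟨ts, hts, hleast⟩ := hMc.exists_isLeast ⟨t1, ht1, rfl⟩
  have hts1 : ts ∈ Icc x y := hts.1
  have hts2 : h ts = m := hts.2
  have hx' : x < ts := by
    rcases eq_or_lt_of_le hts1.1 with e | e
    · rw [← e, hhx] at hts2; linarith
    · exact e
  have hy' : ts < y := by
    rcases eq_or_lt_of_le hts1.2 with e | e
    · rw [e, hhy] at hts2; linarith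
    · exact e
  set η := min (ts - x) (y - ts) with hη
  have hη0 : 0 < η := lt_min (by linarith) (by linarith)
  have hη1 : η ≤ ts - x := min_le_left _ _
  have hη2 : η ≤ y - ts := min_le_right _ _
  have hA : ts - η ∈ Icc x y := ⟨by linarith, by linarith⟩
  have hB : ts + η ∈ Icc x y := ⟨by linarith, by linarith⟩
  have h1 : m ≤ h (ts - η) := hmin hA
  have h2 : m ≤ h (ts + η) := hmin hB
  have h1' : h (ts - η) ≠ m := by
    intro e
    have := hleast ⟨hA, e⟩
    linarith
  have h1'' : m < h (ts - η) := lt_of_le_of_ne h1 (Ne.symm h1')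
  have h3 := hhm (ts - η) (ts + η)
  have e : (ts - η + (ts + η)) / 2 = ts := by ring
  rw [e, hts2] at h3
  linarith

lemma concaveOn_of_midpoint {g : ℝ → ℝ} (hc : Continuous g)
    (hm : ∀ x y, (g x + g y) / 2 ≤ g ((x + y) / 2)) : ConcaveOn ℝ univ g := by
  refine ⟨convex_univ, ?_⟩
  intro x _ y _ a b ha hb hab
  simp only [smul_eq_mul]
  rcases lt_trichotomy x y with hxy | hxy | hxy
  · have ht : a * x + b * y ∈ Icc x y := by
      have h1 : a * x + b * y = x + b * (y - x) := by
        have : a = 1 - b := by linarith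
        subst this; ring
      have h2 : a * x + b * y = y - a * (y - x) := by
        have : b = 1 - a := by linarith
        subst this; ring
      constructor
      · rw [h1]; nlinarith [mul_nonneg hb (sub_nonneg.2 hxy.le)]
      · rw [h2]; nlinarith [mul_nonneg ha (sub_nonneg.2 hxy.le)]
    have := chord_le_of_midpoint hc hm hxy ht
    have hne : y - x ≠ 0 := by linarith
    have e : g x + (g y - g x) / (y - x) * (a * x + b * y - x) = a * g x + b * g y := by
      have : a = 1 - b := by linarith
      subst this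
      field_simp
      ring
    linarith
  · subst hxy
    have : a * x + b * x = x := by rw [← add_mul, hab, one_mul]
    rw [this, ← add_mul, hab, one_mul]
  · have ht : a * x + b * y ∈ Icc y x := by
      have h1 : a * x + b * y = x - b * (x - y) := by
        have : a = 1 - b := by linarith
        subst this; ring
      have h2 : a * x + b * y = y + a * (x - y) := by
        have : b = 1 - a := by linarith
        subst this; ring
      constructor
      · rw [h2]; nlinarith [mul_nonneg ha (sub_nonneg.2 hxy.le)]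
      · rw [h1]; nlinarith [mul_nonneg hb (sub_nonneg.2 hxy.le)]
    have := chord_le_of_midpoint hc hm hxy ht
    have hne : x - y ≠ 0 := by linarith
    have e : g y + (g x - g y) / (x - y) * (a * x + b * y - y) = a * g x + b * g y := by
      have : b = 1 - a := by linarith
      subst this
      field_simp
      ring
    linarith



lemma T_neg_increment {b : ℝ} (hb : 0 < b) {f : ℝ → ℝ} (hf : Measurable f) {C : ℝ}
    (hC : ∀ y, |f y| ≤ C) (y η : ℝ) (hη : 0 ≤ η) :
    |T (-b) f (y + η) - T (-b) f y| ≤ 2 * C / b * η := by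
  have hC0 : 0 ≤ C := (abs_nonneg _).trans (hC 0)
  have h0 : 0 ≤ η / b := div_nonneg hη hb.le
  rw [T_semigroup hb hf hC y η hη]
  have h1 : |T (-b) f y| ≤ C := T_bound hC y
  have h2 : |∫ r in Ioc 0 (η / b), f (y + η + (-b) * r) * Real.exp (-r)| ≤ C * (η / b) := by
    have := norm_setIntegral_le_of_norm_le_const (μ := volume) (s := Ioc 0 (η / b)) (C := C)
      (f := fun r => f (y + η + (-b) * r) * Real.exp (-r)) (by simp) (by
        intro r hr
        have hr0 : 0 < r := hr.1
        rw [norm_mul, Real.norm_eq_abs, Real.norm_eq_abs, abs_of_pos (Real.exp_pos _)]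
        have he : Real.exp (-r) ≤ 1 := Real.exp_le_one_iff.2 (by linarith)
        calc |f (y + η + -b * r)| * Real.exp (-r) ≤ C * 1 :=
              mul_le_mul (hC _) he (Real.exp_pos _).le hC0
          _ = C := mul_one C)
    rw [Real.norm_eq_abs] at this
    simpa [measureReal_def, h0] using this
  have h3 : 1 - η / b ≤ Real.exp (-(η / b)) := by
    have := Real.add_one_le_exp (-(η / b)); linarith
  have h4 : Real.exp (-(η / b)) ≤ 1 := Real.exp_le_one_iff.2 (by linarith)
  have h5 : |(Real.exp (-(η / b)) - 1) * T (-b) f y| ≤ η / b * C := by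
    rw [abs_mul]
    apply mul_le_mul _ h1 (abs_nonneg _) h0
    rw [abs_le]; constructor <;> linarith
  calc |Real.exp (-(η / b)) * T (-b) f y + (∫ r in Ioc 0 (η / b), f (y + η + (-b) * r) * Real.exp (-r))
        - T (-b) f y|
      = |(Real.exp (-(η / b)) - 1) * T (-b) f y
          + ∫ r in Ioc 0 (η / b), f (y + η + (-b) * r) * Real.exp (-r)| := by ring_nf
    _ ≤ η / b * C + C * (η / b) := (abs_add_le _ _).trans (add_le_add h5 h2)
    _ = 2 * C / b * η := by ring

lemma T_neg_continuous {b : ℝ} (hb : 0 < b) {f : ℝ → ℝ} (hf : Measurable f) {C : ℝ}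
    (hC : ∀ y, |f y| ≤ C) : Continuous (T (-b) f) := by
  have hC0 : 0 ≤ C := (abs_nonneg _).trans (hC 0)
  have hK : 0 ≤ 2 * C / b := by positivity
  have : LipschitzWith (Real.toNNReal (2 * C / b)) (T (-b) f) := by
    apply LipschitzWith.of_dist_le_mul
    intro x y
    rw [Real.coe_toNNReal _ hK, Real.dist_eq, Real.dist_eq]
    rcases le_total x y with h | h
    · have := T_neg_increment hb hf hC x (y - x) (by linarith)
      rw [add_sub_cancel] at this
      rw [abs_sub_comm, abs_sub_comm x y, abs_of_nonneg (by linarith : 0 ≤ y - x)]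
      exact this
    · have := T_neg_increment hb hf hC y (x - y) (by linarith)
      rw [add_sub_cancel] at this
      rw [abs_of_nonneg (by linarith : 0 ≤ x - y)]
      exact this
  exact this.continuous

lemma T_continuous {a : ℝ} (ha : a ≠ 0) {f : ℝ → ℝ} (hf : Measurable f) {C : ℝ}
    (hC : ∀ y, |f y| ≤ C) : Continuous (T a f) := by
  rcases lt_or_gt_of_ne ha with h | h
  · have := T_neg_continuous (b := -a) (by linarith) hf hC
    simpa using this
  · have h1 : Continuous (T (-a) (fun z => f (-z))) :=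
      T_neg_continuous h (hf.comp measurable_neg) (fun y => hC _)
    have : T a f = fun z => T (-a) (fun z => f (-z)) (-z) := by
      funext y; exact T_reflect a f y
    rw [this]
    exact h1.comp continuous_neg

/-- lower bound by the mass of a unit window -/
lemma T_lower {a : ℝ} {f : ℝ → ℝ} (hf : Monotone f) (h0 : ∀ y, 0 ≤ f y) {C : ℝ}
    (hC : ∀ y, |f y| ≤ C) (y w M : ℝ) (hM : 0 ≤ M)
    (hw : ∀ x ∈ Ioc M (M + 1), w ≤ y + a * x) :
    f w * Real.exp (-(M + 1)) ≤ T a f y := by
  have hint := T_integrable (a := a) hf.measurable hC y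
  have hsub : Ioc M (M + 1) ⊆ Ioi (0:ℝ) := fun x hx => lt_of_le_of_lt hM hx.1
  calc f w * Real.exp (-(M + 1))
      = ∫ x in Ioc M (M + 1), f w * Real.exp (-(M + 1)) := by
        simp [measureReal_def]
    _ ≤ ∫ x in Ioc M (M + 1), f (y + a * x) * Real.exp (-x) := by
        refine setIntegral_mono_on (integrableOn_const (by simp)) (hint.mono_set hsub) measurableSet_Ioc ?_
        intro x hx
        apply mul_le_mul (hf (hw x hx)) _ (Real.exp_pos _).le (h0 _)
        exact Real.exp_le_exp.2 (by linarith [hx.2])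
    _ ≤ T a f y := by
        unfold T
        exact setIntegral_mono_set hint
          (Filter.Eventually.of_forall fun x => mul_nonneg (h0 _) (Real.exp_pos _).le)
          (Filter.Eventually.of_forall hsub)



lemma H0_shift (δ : ℝ) :
    Integrable (fun y => H0 (y + δ) - H0 y) ∧ ∫ y, (H0 (y + δ) - H0 y) = δ := by
  rcases le_total 0 δ with h | h
  · have e : (fun y => H0 (y + δ) - H0 y) = indicator (Ico (-δ) 0) (fun _ => (1:ℝ)) := by
      funext y
      unfold H0 indicator
      by_cases h1 : 0 ≤ y
      · have h2 : 0 ≤ y + δ := by linarith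
        have h3 : y ∉ Ico (-δ) 0 := fun hh => absurd hh.2 (not_lt.2 h1)
        simp [h1, h2, h3]
      · by_cases h2 : 0 ≤ y + δ
        · have h3 : y ∈ Ico (-δ) 0 := ⟨by linarith, not_le.1 h1⟩
          simp [h1, h2, h3]
        · have h3 : y ∉ Ico (-δ) 0 := fun hh => h2 (by linarith [hh.1])
          simp [h1, h2, h3]
    rw [e]
    refine ⟨(integrable_indicator_iff measurableSet_Ico).2 (integrableOn_const (by simp)), ?_⟩
    rw [integral_indicator measurableSet_Ico]
    simp [measureReal_def, h]
  · have e : (fun y => H0 (y + δ) - H0 y) = indicator (Ico 0 (-δ)) (fun _ => (-1:ℝ)) := by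
      funext y
      unfold H0 indicator
      by_cases h1 : 0 ≤ y
      · by_cases h2 : 0 ≤ y + δ
        · have h3 : y ∉ Ico 0 (-δ) := fun hh => by linarith [hh.2]
          simp [h1, h2, h3]
        · have h3 : y ∈ Ico 0 (-δ) := ⟨h1, by linarith [not_le.1 h2]⟩
          simp [h1, h2, h3]
      · have h2 : ¬ 0 ≤ y + δ := by
          intro hh; exact h1 (by linarith)
        have h3 : y ∉ Ico 0 (-δ) := fun hh => h1 hh.1
        simp [h1, h2, h3]
    rw [e]
    refine ⟨(integrable_indicator_iff measurableSet_Ico).2 (integrableOn_const (by simp)), ?_⟩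
    rw [integral_indicator measurableSet_Ico]
    simp [measureReal_def, h]

lemma shift_integral {f : ℝ → ℝ} (hint : Integrable (fun y => f y - H0 y)) (δ : ℝ) :
    Integrable (fun y => f (y + δ) - f y) ∧ ∫ y, (f (y + δ) - f y) = δ := by
  have h1 : Integrable (fun y => f (y + δ) - H0 (y + δ)) := hint.comp_add_right δ
  obtain ⟨h2, h3⟩ := H0_shift δ
  have e : (fun y => f (y + δ) - f y)
      = fun y => ((f (y + δ) - H0 (y + δ)) - (f y - H0 y)) + (H0 (y + δ) - H0 y) := by
    funext y; ring
  have h12 : Integrable (fun y => (f (y + δ) - H0 (y + δ)) - (f y - H0 y)) := h1.sub hint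
  rw [e]
  refine ⟨h12.add h2, ?_⟩
  rw [integral_add h12 h2, integral_sub h1 hint, h3,
    integral_add_right_eq_self (fun y => f y - H0 y) δ]
  ring

lemma integrableOn_id_mul_exp_neg : IntegrableOn (fun x : ℝ => x * Real.exp (-x)) (Ioi 0) := by
  have := Real.GammaIntegral_convergent (s := 2) (by norm_num)
  refine this.congr_fun (fun x hx => ?_) measurableSet_Ioi
  simp only
  have : (2:ℝ) - 1 = 1 := by norm_num
  rw [this, Real.rpow_one, mul_comm]

lemma integral_id_mul_exp_neg : ∫ x in Ioi (0:ℝ), x * Real.exp (-x) = 1 := by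
  have h := Real.Gamma_eq_integral (s := 2) (by norm_num)
  rw [Real.Gamma_two] at h
  rw [h]
  refine setIntegral_congr_fun measurableSet_Ioi (fun x hx => ?_)
  have : (2:ℝ) - 1 = 1 := by norm_num
  rw [this, Real.rpow_one, mul_comm]

lemma T_sub_integral (a : ℝ) {f : ℝ → ℝ} (hf : Monotone f) {C : ℝ} (hC : ∀ y, |f y| ≤ C)
    (hint : Integrable (fun y => f y - H0 y)) :
    Integrable (fun y => T a f y - f y) ∧ ∫ y, (T a f y - f y) = a := by
  set F : ℝ × ℝ → ℝ := fun p => (f (p.1 + a * p.2) - f p.1) * Real.exp (-p.2) with hF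
  have hFm : Measurable F := by
    have h1 : Measurable (fun p : ℝ × ℝ => f (p.1 + a * p.2)) := hf.measurable.comp (by fun_prop)
    have h2 : Measurable (fun p : ℝ × ℝ => f p.1) := hf.measurable.comp measurable_fst
    exact (h1.sub h2).mul (by fun_prop)
  have hnorm : ∀ x : ℝ, ∫ y, ‖F (y, x)‖ = |a * x| * Real.exp (-x) := by
    intro x
    obtain ⟨h1, h2⟩ := shift_integral hint (a * x)
    simp only [hF, norm_mul, Real.norm_eq_abs, abs_of_pos (Real.exp_pos _)]
    rw [integral_mul_const]
    congr 1
    rcases le_total 0 (a * x) with h | h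
    · have : ∀ y, |f (y + a * x) - f y| = f (y + a * x) - f y := fun y =>
        abs_of_nonneg (sub_nonneg.2 (hf (by linarith)))
      simp only [this]
      rw [h2, abs_of_nonneg h]
    · have : ∀ y, |f (y + a * x) - f y| = -(f (y + a * x) - f y) := fun y =>
        abs_of_nonpos (sub_nonpos.2 (hf (by linarith)))
      simp only [this]
      rw [integral_neg, h2, abs_of_nonpos h]
  have hFint : Integrable F ((volume : Measure ℝ).prod μ0) := by
    rw [integrable_prod_iff' hFm.aestronglyMeasurable]
    constructor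
    · refine Filter.Eventually.of_forall fun x => ?_
      exact (shift_integral hint (a * x)).1.mul_const (Real.exp (-x))
    · simp only [hnorm]
      have : IntegrableOn (fun x : ℝ => |a| * (x * Real.exp (-x))) (Ioi 0) :=
        integrableOn_id_mul_exp_neg.const_mul _
      refine this.congr_fun (fun x hx => ?_) measurableSet_Ioi
      have hx0 : (0:ℝ) < x := hx
      simp only
      rw [abs_mul, abs_of_pos hx0]; ring
  have hT : ∀ y, T a f y - f y = ∫ x, F (y, x) ∂μ0 := by
    intro y
    simp only [hF, sub_mul]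
    rw [integral_sub (T_integrable hf.measurable hC y) (integrableOn_exp_neg.const_mul _),
      integral_const_mul, integral_exp_neg, mul_one]
    rfl
  simp only [hT]
  refine ⟨hFint.integral_prod_left, ?_⟩
  rw [integral_integral_swap (f := fun y x => F (y, x)) hFint]
  have : ∀ x, ∫ y, F (y, x) = a * (x * Real.exp (-x)) := by
    intro x
    simp only [hF]
    rw [integral_mul_const, (shift_integral hint (a * x)).2]; ring
  simp only [this]
  rw [integral_const_mul, integral_id_mul_exp_neg, mul_one]


/-! ### The distribution function `Phi l = iterL l H0` -/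

lemma H0_abs_le (y : ℝ) : |H0 y| ≤ 1 := by
  rw [abs_of_nonneg (H0_nonneg y)]; exact H0_le_one y

theorem Phi_mono (l : List ℝ) : Monotone (iterL l H0) := by
  induction l with
  | nil => exact H0_mono
  | cons a l ih => exact T_mono ih (iterL_bound l H0_abs_le)

theorem Phi_measurable (l : List ℝ) : Measurable (iterL l H0) := (Phi_mono l).measurable

theorem Phi_nonneg (l : List ℝ) (y : ℝ) : 0 ≤ iterL l H0 y := by
  induction l generalizing y with
  | nil => exact H0_nonneg y
  | cons a l ih => exact T_nonneg ih y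

theorem Phi_le_one (l : List ℝ) (y : ℝ) : iterL l H0 y ≤ 1 :=
  (le_abs_self _).trans (iterL_bound l H0_abs_le y)

theorem Phi_LC4 (l : List ℝ) : LC4 (iterL l H0) := by
  induction l with
  | nil => exact H0_LC4
  | cons a l ih => exact LC4_T a (Phi_measurable l) (iterL_bound l H0_abs_le) ih

theorem Phi_integrable_integral (l : List ℝ) :
    Integrable (fun y => iterL l H0 y - H0 y) ∧ ∫ y, (iterL l H0 y - H0 y) = l.sum := by
  induction l with
  | nil => simp
  | cons a l ih =>
    obtain ⟨h1, h2⟩ := ih
    obtain ⟨h3, h4⟩ := T_sub_integral a (Phi_mono l) (iterL_bound l H0_abs_le) h1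
    have e : (fun y => iterL (a :: l) H0 y - H0 y)
        = fun y => (T a (iterL l H0) y - iterL l H0 y) + (iterL l H0 y - H0 y) := by
      funext y; simp only [iterL_cons]; ring
    rw [e]
    refine ⟨h3.add h1, ?_⟩
    rw [integral_add h3 h1, h4, h2, List.sum_cons]

theorem Phi_sub_H0_integrable (l : List ℝ) : Integrable (fun y => iterL l H0 y - H0 y) :=
  (Phi_integrable_integral l).1

theorem Phi_integral (l : List ℝ) : ∫ y, (iterL l H0 y - H0 y) = l.sum :=
  (Phi_integrable_integral l).2

theorem Phi_exists_pos (l : List ℝ) : ∃ y0, 0 < iterL l H0 y0 := by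
  induction l with
  | nil => exact ⟨0, by simp [H0]⟩
  | cons a l ih =>
    obtain ⟨y0, hy0⟩ := ih
    refine ⟨y0 + |a|, ?_⟩
    have := T_lower (a := a) (Phi_mono l) (Phi_nonneg l) (iterL_bound l H0_abs_le) (y0 + |a|) y0 0
      le_rfl (by
        intro x hx
        have hx0 : 0 < x := hx.1
        have hx1 : x ≤ 1 := by simpa using hx.2
        have h1 : -|a| ≤ a := neg_abs_le a
        have h2 : 0 ≤ |a| := abs_nonneg a
        nlinarith)
    exact lt_of_lt_of_le (mul_pos hy0 (Real.exp_pos _)) this

theorem Phi_pos (l : List ℝ) (h : ∃ a ∈ l, 0 < a) (y : ℝ) : 0 < iterL l H0 y := by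
  induction l generalizing y with
  | nil => obtain ⟨a, ha, _⟩ := h; simp at ha
  | cons a l ih =>
    by_cases ha : 0 < a
    · obtain ⟨y0, hy0⟩ := Phi_exists_pos l
      set M := max 0 ((y0 - y) / a) with hM
      have hM0 : 0 ≤ M := le_max_left _ _
      have hM1 : (y0 - y) / a ≤ M := le_max_right _ _
      have := T_lower (a := a) (Phi_mono l) (Phi_nonneg l) (iterL_bound l H0_abs_le) y y0 M hM0 (by
        intro x hx
        have hx0 : M < x := hx.1
        have h1 : (y0 - y) / a < x := lt_of_le_of_lt hM1 hx0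
        rw [div_lt_iff₀ ha] at h1
        linarith)
      exact lt_of_lt_of_le (mul_pos hy0 (Real.exp_pos _)) this
    · have h' : ∃ a ∈ l, 0 < a := by
        obtain ⟨c, hc, hc0⟩ := h
        rcases List.mem_cons.1 hc with rfl | hc'
        · exact absurd hc0 ha
        · exact ⟨c, hc', hc0⟩
      have := T_lower (a := a) (Phi_mono l) (Phi_nonneg l) (iterL_bound l H0_abs_le) y (y - |a|) 0
        le_rfl (by
          intro x hx
          have hx0 : 0 < x := hx.1
          have hx1 : x ≤ 1 := by simpa using hx.2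
          have h1 : -|a| ≤ a := neg_abs_le a
          have h2 : 0 ≤ |a| := abs_nonneg a
          nlinarith)
      exact lt_of_lt_of_le (mul_pos (ih h' _) (Real.exp_pos _)) this

theorem Phi_continuous (l : List ℝ) (h : ∃ a ∈ l, a ≠ 0) : Continuous (iterL l H0) := by
  induction l with
  | nil => obtain ⟨a, ha, _⟩ := h; simp at ha
  | cons a l ih =>
    by_cases ha : a = 0
    · subst ha
      rw [iterL_cons, T_zero]
      apply ih
      obtain ⟨c, hc, hc0⟩ := h
      rcases List.mem_cons.1 hc with rfl | hc'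
      · exact absurd rfl hc0
      · exact ⟨c, hc', hc0⟩
    · exact T_continuous ha (Phi_measurable l) (iterL_bound l H0_abs_le)

theorem Phi_logconcave (l : List ℝ) (h : ∃ a ∈ l, 0 < a) :
    ConcaveOn ℝ univ (fun y => Real.log (iterL l H0 y)) := by
  have hpos := Phi_pos l h
  have hcont : Continuous (iterL l H0) := Phi_continuous l (by
    obtain ⟨a, ha, ha0⟩ := h; exact ⟨a, ha, ha0.ne'⟩)
  apply concaveOn_of_midpoint
  · exact hcont.log (fun y => (hpos y).ne')
  · have key : ∀ x y, x ≤ y → (Real.log (iterL l H0 x) + Real.log (iterL l H0 y)) / 2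
        ≤ Real.log (iterL l H0 ((x + y) / 2)) := by
      intro x y hxy
      have h1 := Phi_LC4 l x ((y - x) / 2) ((y - x) / 2) (by linarith) (by linarith)
      have e1 : x + (y - x) / 2 + (y - x) / 2 = y := by ring
      have e2 : x + (y - x) / 2 = (x + y) / 2 := by ring
      rw [e1, e2] at h1
      have h2 := Real.log_le_log (mul_pos (hpos x) (hpos y)) h1
      rw [Real.log_mul (hpos x).ne' (hpos y).ne', Real.log_mul (hpos _).ne' (hpos _).ne'] at h2
      linarith
    intro x y
    rcases le_total x y with hxy | hxy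
    · exact key x y hxy
    · have := key y x hxy
      rw [add_comm y x, add_comm (Real.log _)] at this
      exact this

end Crest.Agent.S0423Aux
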